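import Vale.Agent.Lib.P199.LocFin

/-!
# Adjoining one integral element that quasi-normalises a locally finite subalgebra
-/

namespace Vale.Agent.Lib.P199

open Submodule

variable {F A : Type*} [Field F] [Ring A] [Algebra F A]

/-- If `g * E ⊆ E * F[g]` then `F[g] * E ⊆ E * F[g]`. -/
theorem adjoin_mul_le (E : Subalgebra F A) (g : A)
    (hg : ∀ e ∈ E, g * e ∈ Subalgebra.toSubmodule E *
      Subalgebra.toSubmodule (Algebra.adjoin F {g})) :
    Subalgebra.toSubmodule (Algebra.adjoin F {g}) * Subalgebra.toSubmodule E ≤
      Subalgebra.toSubmodule E * Subalgebra.toSubmodule (Algebra.adjoin F {g}) := by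
  set P := Algebra.adjoin F {g} with hP
  set W : Submodule F A := Subalgebra.toSubmodule E * Subalgebra.toSubmodule P with hW
  have hWP : ∀ w ∈ W, ∀ p ∈ P, w * p ∈ W := by
    intro w hw p hp
    have : w * p ∈ W * Subalgebra.toSubmodule P := Submodule.mul_mem_mul hw hp
    rwa [hW, mul_assoc, (Subalgebra.isIdempotentElem_toSubmodule _).eq] at this
  have hEW : ∀ e ∈ E, ∀ w ∈ W, e * w ∈ W := by
    intro e he w hw
    have : e * w ∈ Subalgebra.toSubmodule E * W := Submodule.mul_mem_mul he hw
    rwa [hW, ← mul_assoc, (Subalgebra.isIdempotentElem_toSubmodule _).eq] at this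
  -- `p * W ⊆ W` for all `p ∈ P`
  have key : ∀ p ∈ P, ∀ w ∈ W, p * w ∈ W := by
    intro p hp
    induction hp using Algebra.adjoin_induction with
    | mem x hx =>
      rw [Set.mem_singleton_iff] at hx
      subst hx
      intro w hw
      induction hw using Submodule.mul_induction_on' with
      | mem_mul_mem e he q hq =>
        rw [← mul_assoc]
        exact hWP _ (hg e he) q hq
      | add x _ y _ hx hy =>
        rw [mul_add]
        exact W.add_mem hx hy
    | algebraMap r =>
      intro w hw
      rw [← Algebra.smul_def]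
      exact W.smul_mem r hw
    | add x y _ _ hx hy =>
      intro w hw
      rw [add_mul]
      exact W.add_mem (hx w hw) (hy w hw)
    | mul x y _ _ hx hy =>
      intro w hw
      rw [mul_assoc]
      exact hx _ (hy w hw)
  rw [Submodule.mul_le]
  intro p hp e he
  refine key p hp e ?_
  have : e * 1 ∈ W := Submodule.mul_mem_mul he P.one_mem
  rwa [mul_one] at this

/-- Step lemma: if `E` is locally finite, `g` is integral over `F` and `g * E ⊆ E * F[g]`, then
the algebra generated by `E` and `g` is locally finite. -/
theorem LocFin.sup_adjoin_singleton {E : Subalgebra F A} (hE : LocFin E) {g : A}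
    (hint : IsIntegral F g)
    (hg : ∀ e ∈ E, g * e ∈ Subalgebra.toSubmodule E *
      Subalgebra.toSubmodule (Algebra.adjoin F {g})) :
    LocFin (E ⊔ Algebra.adjoin F {g}) := by
  set P := Algebra.adjoin F {g} with hP
  have hPE := adjoin_mul_le E g hg
  rw [← hP] at hPE
  set W : Submodule F A := Subalgebra.toSubmodule E * Subalgebra.toSubmodule P with hW
  have hWW : W * W ≤ W := by
    calc W * W = Subalgebra.toSubmodule E * (Subalgebra.toSubmodule P * Subalgebra.toSubmodule E)
          * Subalgebra.toSubmodule P := by rw [hW]; simp only [mul_assoc]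
      _ ≤ Subalgebra.toSubmodule E * (Subalgebra.toSubmodule E * Subalgebra.toSubmodule P)
          * Subalgebra.toSubmodule P := mul_le_mul_left (mul_le_mul_right hPE _) _
      _ = W := by
          rw [← mul_assoc, (Subalgebra.isIdempotentElem_toSubmodule _).eq, mul_assoc,
            (Subalgebra.isIdempotentElem_toSubmodule _).eq]
  have h1 : (1 : A) ∈ W := by
    have : (1 : A) * 1 ∈ W := Submodule.mul_mem_mul E.one_mem P.one_mem
    rwa [mul_one] at this
  let W' : Subalgebra F A := W.toSubalgebra h1 (fun x y hx hy => hWW (Submodule.mul_mem_mul hx hy))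
  have hEW : E ≤ W' := by
    intro e he
    have : e * 1 ∈ W := Submodule.mul_mem_mul he P.one_mem
    rwa [mul_one] at this
  have hPW : P ≤ W' := by
    intro p hp
    have : 1 * p ∈ W := Submodule.mul_mem_mul E.one_mem hp
    rwa [one_mul] at this
  refine hE.of_le_mul (Subalgebra.toSubmodule P) hint.fg_adjoin_singleton ?_ ?_
  · exact Subalgebra.toSubmodule.monotone le_sup_right
  · intro x hx
    exact (sup_le hEW hPW) hx

end Vale.Agent.Lib.P199
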