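import Vale.Agent.Lib.P199.Generic
import Vale.Agent.Lib.P199.Step

/-!
# Absorbing purely inseparable commuting elements into a two-generated subalgebra
-/

namespace Vale.Agent.Lib.P199

open Polynomial Module Submodule

section basic

variable {k A : Type*} [Field k] [Ring A] [Algebra k A]

theorem comm_of_mem_adjoin {s : Set A} {g y : A} (hs : ∀ a ∈ s, g * a = a * g)
    (hy : y ∈ Algebra.adjoin k s) : g * y = y * g := by
  have h1 : Algebra.adjoin k s ≤ Subalgebra.centralizer k ({g} : Set A) := by
    apply Algebra.adjoin_le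
    intro a ha
    rw [SetLike.mem_coe, Subalgebra.mem_centralizer_iff]
    intro g' hg'
    rw [Set.mem_singleton_iff.1 hg']
    exact hs a ha
  have h2 := h1 hy
  rw [Subalgebra.mem_centralizer_iff] at h2
  exact h2 g rfl

/-- Adjoining an integral element commuting with the generators preserves finite
dimensionality. -/
theorem fg_adjoin_insert_of_comm {s : Set A}
    (hfg : (Subalgebra.toSubmodule (Algebra.adjoin k s)).FG) {g : A} (hint : IsIntegral k g)
    (hg : ∀ e ∈ s, g * e = e * g) :
    (Subalgebra.toSubmodule (Algebra.adjoin k (insert g s))).FG := by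
  set E := Algebra.adjoin k s with hE
  set P := Algebra.adjoin k ({g} : Set A) with hP
  have hg' : ∀ e ∈ E, g * e ∈ Subalgebra.toSubmodule E * Subalgebra.toSubmodule P := by
    intro e he
    rw [comm_of_mem_adjoin hg he]
    exact Submodule.mul_mem_mul he (Algebra.subset_adjoin rfl)
  have hPE := adjoin_mul_le E g hg'
  rw [← hP] at hPE
  set W : Submodule k A := Subalgebra.toSubmodule E * Subalgebra.toSubmodule P with hW
  have hWW : W * W ≤ W := by
    calc W * W = Subalgebra.toSubmodule E * (Subalgebra.toSubmodule P * Subalgebra.toSubmodule E)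
          * Subalgebra.toSubmodule P := by rw [hW]; simp only [mul_assoc]
      _ ≤ Subalgebra.toSubmodule E * (Subalgebra.toSubmodule E * Subalgebra.toSubmodule P)
          * Subalgebra.toSubmodule P := mul_le_mul_left (mul_le_mul_right hPE _) _
      _ = W := by
          rw [← mul_assoc, (Subalgebra.isIdempotentElem_toSubmodule _).eq, mul_assoc,
            (Subalgebra.isIdempotentElem_toSubmodule _).eq]
  have h1 : (1 : A) ∈ W := by
    have : (1 : A) * 1 ∈ W := Submodule.mul_mem_mul E.one_mem P.one_mem
    rwa [mul_one] at this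
  let W' : Subalgebra k A := W.toSubalgebra h1 (fun x y hx hy => hWW (Submodule.mul_mem_mul hx hy))
  have hEW : E ≤ W' := by
    intro e he
    have : e * 1 ∈ W := Submodule.mul_mem_mul he P.one_mem
    rwa [mul_one] at this
  have hgW : g ∈ W' := by
    have : 1 * g ∈ W := Submodule.mul_mem_mul E.one_mem (Algebra.subset_adjoin rfl)
    rwa [one_mul] at this
  have hWfg : W.FG := hfg.mul hint.fg_adjoin_singleton
  have hle : Subalgebra.toSubmodule (Algebra.adjoin k (insert g s)) ≤ W := by
    have : Algebra.adjoin k (insert g s) ≤ W' := by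
      apply Algebra.adjoin_le
      intro y hy
      rcases hy with rfl | hy
      · exact hgW
      · exact hEW (Algebra.subset_adjoin hy)
    exact this
  exact Submodule.FG.of_le hWfg hle

theorem fg_adjoin_union_list {s : Set A}
    (hfg : (Subalgebra.toSubmodule (Algebra.adjoin k s)).FG) (L : List A)
    (hint : ∀ z ∈ L, IsIntegral k z) (hs : ∀ z ∈ L, ∀ e ∈ s, z * e = e * z)
    (hL : ∀ z ∈ L, ∀ z' ∈ L, z * z' = z' * z) :
    (Subalgebra.toSubmodule (Algebra.adjoin k (s ∪ {z | z ∈ L}))).FG := by
  induction L with
  | nil => simpa using hfg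
  | cons z L ih =>
    have h1 := ih (fun y hy => hint y (List.mem_cons_of_mem _ hy))
      (fun y hy => hs y (List.mem_cons_of_mem _ hy))
      (fun y hy y' hy' => hL y (List.mem_cons_of_mem _ hy) y' (List.mem_cons_of_mem _ hy'))
    have h2 : s ∪ {y | y ∈ z :: L} = insert z (s ∪ {y | y ∈ L}) := by
      ext y
      simp only [Set.mem_union, Set.mem_ofPred_eq, List.mem_cons, Set.mem_insert_iff]
      tauto
    rw [h2]
    apply fg_adjoin_insert_of_comm h1 (hint z List.mem_cons_self)
    intro e he
    rcases he with he | he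
    · exact hs z List.mem_cons_self e he
    · exact hL z List.mem_cons_self e (List.mem_cons_of_mem _ he)

end basic

variable {k D : Type*} [Field k] [DivisionRing D] [Algebra k D]

/-- Relative version of `exists_comm_eq_one`. -/
theorem exists_comm_eq_one_rel (q : ℕ) [ExpChar k q] {a u : D} (hne : a * u ≠ u * a) (n : ℕ)
    (hc : a ^ q ^ n * u = u * a ^ q ^ n) :
    ∃ c : D, a * c - c * a = 1 ∧ ∀ g : D, g * a = a * g → g * u = u * g → g * c = c * g := by
  classical
  have hqD : ExpChar D q := expChar_of_injective_algebraMap (algebraMap k D).injective q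
  have hqE : ExpChar (Module.End k D) q :=
    expChar_of_injective_ringHom (Algebra.lmul k D).toRingHom.injective q
  set δ : Module.End k D := LinearMap.mulLeft k a - LinearMap.mulRight k a with hδ
  have hδapp : ∀ d, δ d = a * d - d * a := fun d => rfl
  have hnil : (δ ^ (q ^ n)) u = 0 := by
    rw [hδ, sub_pow_expChar_pow_of_commute q n (LinearMap.commute_mulLeft_right a a)]
    simp only [LinearMap.sub_apply, LinearMap.pow_mulLeft, LinearMap.pow_mulRight,
      LinearMap.mulLeft_apply, LinearMap.mulRight_apply]
    rw [hc, sub_self]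
  have hex : ∃ N, (δ ^ N) u = 0 := ⟨_, hnil⟩
  set N := Nat.find hex with hN
  have hN0 : (δ ^ N) u = 0 := Nat.find_spec hex
  have hN2 : 2 ≤ N := by
    by_contra hlt
    have : N = 0 ∨ N = 1 := by omega
    rcases this with h | h
    · rw [h, pow_zero] at hN0
      apply hne
      have : u = 0 := hN0
      rw [this, mul_zero, zero_mul]
    · rw [h, pow_one, hδapp] at hN0
      exact hne (sub_eq_zero.1 hN0)
  have hN1 : (δ ^ (N - 1)) u ≠ 0 := Nat.find_min hex (by omega)
  set u' := (δ ^ (N - 2)) u with hu'
  have hu1 : δ u' = (δ ^ (N - 1)) u := by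
    rw [hu', ← Module.End.mul_apply, ← pow_succ']
    congr 2
    omega
  have hu2 : δ (δ u') = 0 := by
    rw [hu1, ← Module.End.mul_apply, ← pow_succ']
    have : N - 1 + 1 = N := by omega
    rw [this, hN0]
  set w := δ u' with hw
  have hw0 : w ≠ 0 := by rw [hu1]; exact hN1
  have hwa : a * w = w * a := by
    have := hu2
    rw [hδapp] at this
    exact sub_eq_zero.1 this
  have hwinv : a * w⁻¹ = w⁻¹ * a := ((show Commute a w from hwa).inv_right₀).eq
  refine ⟨w⁻¹ * u', ?_, ?_⟩
  · have h1 : a * u' - u' * a = w := (hδapp u').symm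
    calc a * (w⁻¹ * u') - w⁻¹ * u' * a = w⁻¹ * (a * u' - u' * a) := by
          rw [← mul_assoc, hwinv, mul_sub, mul_assoc, mul_assoc]
      _ = 1 := by rw [h1, inv_mul_cancel₀ hw0]
  · intro g hga hgu
    have hpow : ∀ j : ℕ, Commute g ((δ ^ j) u) := by
      intro j
      induction j with
      | zero => exact hgu
      | succ j ih =>
        rw [pow_succ', Module.End.mul_apply, hδapp]
        have hga' : Commute g a := hga
        exact (hga'.mul_right ih).sub_right (ih.mul_right hga')
    have h1 : Commute g u' := hpow _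
    have h2 : Commute g w := by
      rw [hu1]
      exact hpow _
    exact (h2.inv_right₀.mul_right h1).eq

/-- A noncentral element `a` with a `q`-power commuting with `u` shifts a separable element. -/
theorem exists_separable_shift [Algebra.IsAlgebraic k D] (q : ℕ) [ExpChar k q] {a u : D}
    (hne : a * u ≠ u * a) (n : ℕ) (hc : a ^ q ^ n * u = u * a ^ q ^ n) :
    ∃ ϑ : D, (minpoly k ϑ).Separable ∧ a * ϑ = (ϑ + 1) * a ∧
      ∀ g : D, g * a = a * g → g * u = u * g → g * ϑ = ϑ * g := by
  have hqD : ExpChar D q := expChar_of_injective_algebraMap (algebraMap k D).injective q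
  obtain ⟨c, hc1, hc2⟩ := exists_comm_eq_one_rel (k := k) q hne n hc
  set θ := c * a with hθ
  have h1 : a * θ = (θ + 1) * a := by
    have : a * c = c * a + 1 := by rw [← hc1]; abel
    rw [hθ, ← mul_assoc, this]
  have h2 : ∀ m : ℕ, a * θ ^ m = (θ + 1) ^ m * a := by
    intro m
    induction m with
    | zero => simp
    | succ m ih => rw [pow_succ, ← mul_assoc, ih, mul_assoc, h1, ← mul_assoc, ← pow_succ]
  obtain ⟨N, hN⟩ := exists_pow_separable q (Algebra.IsIntegral.isIntegral (R := k) θ)
  refine ⟨θ ^ q ^ N, hN, ?_, ?_⟩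
  · rw [h2, add_pow_expChar_pow_of_commute q N (Commute.one_right θ), one_pow]
  · intro g hga hgu
    have h3 : Commute g θ := (show Commute g c from hc2 g hga hgu).mul_right hga
    exact (h3.pow_right _).eq

/-- A well-placed pair of generators relative to `κ`. -/
def IsState (k : Type*) {D : Type*} [Field k] [DivisionRing D] [Algebra k D] (κ x v : D) : Prop :=
  (minpoly k x).Separable ∧ κ ∈ Algebra.adjoin k {x} ∧ (∃ d, v = κ * d - d * κ) ∧
    κ * v ≠ v * κ

/-- Absorption lemma. -/
theorem exists_state_absorb
    (hcen : ∀ c : D, (∀ d, d * c = c * d) → c ∈ Set.range (algebraMap k D))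
    (h2 : ∀ x y : D, FiniteDimensional k (Algebra.adjoin k ({x, y} : Set D)))
    (q : ℕ) [ExpChar k q] {κ : D} :
    ∀ (L : List D) (x v : D), IsState k κ x v → (∀ z ∈ L, z * x = x * z ∧ z * v = v * z) →
      (∀ z ∈ L, ∀ z' ∈ L, z * z' = z' * z) →
      (∀ z ∈ L, ∃ n : ℕ, z ^ q ^ n ∈ Algebra.adjoin k ({x, v} : Set D)) →
      ∃ x' v' : D, IsState k κ x' v' ∧ x ∈ Algebra.adjoin k ({x', v'} : Set D) ∧
        v ∈ Algebra.adjoin k ({x', v'} : Set D) ∧
        ∀ z ∈ L, z ∈ Algebra.adjoin k ({x', v'} : Set D) := by
  classical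
  have hint : ∀ a : D, IsIntegral k a := by
    intro a
    have := h2 a a
    rw [Set.pair_eq_singleton] at this
    have h3 : IsIntegral k (⟨a, Algebra.subset_adjoin rfl⟩ : Algebra.adjoin k ({a} : Set D)) :=
      Algebra.IsIntegral.isIntegral _
    exact h3.map (Algebra.adjoin k ({a} : Set D)).val
  have halg : Algebra.IsAlgebraic k D := ⟨fun a => (hint a).isAlgebraic⟩
  intro L
  induction L with
  | nil =>
    intro x v hst _ _ _
    exact ⟨x, v, hst, Algebra.subset_adjoin (by simp), Algebra.subset_adjoin (by simp), by simp⟩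
  | cons z L ih =>
    intro x v hst hxv hLL hpow
    have hxvL : ∀ y ∈ L, y * x = x * y ∧ y * v = v * y :=
      fun y hy => hxv y (List.mem_cons_of_mem _ hy)
    have hLLL : ∀ y ∈ L, ∀ y' ∈ L, y * y' = y' * y :=
      fun y hy y' hy' => hLL y (List.mem_cons_of_mem _ hy) y' (List.mem_cons_of_mem _ hy')
    have hpowL : ∀ y ∈ L, ∃ n : ℕ, y ^ q ^ n ∈ Algebra.adjoin k ({x, v} : Set D) :=
      fun y hy => hpow y (List.mem_cons_of_mem _ hy)
    set A := Algebra.adjoin k (({x, v} : Set D) ∪ {y | y ∈ L}) with hA
    by_cases hzA : z ∈ A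
    · obtain ⟨x', v', hst', hx', hv', hL'⟩ := ih x v hst hxvL hLLL hpowL
      refine ⟨x', v', hst', hx', hv', ?_⟩
      have hle : A ≤ Algebra.adjoin k ({x', v'} : Set D) := by
        apply Algebra.adjoin_le
        rintro y (hy | hy)
        · rcases hy with rfl | rfl
          · exact hx'
          · exact hv'
        · exact hL' y hy
      intro y hy
      rcases List.mem_cons.1 hy with rfl | hy
      · exact hle hzA
      · exact hL' y hy
    · have hAfg : (Subalgebra.toSubmodule A).FG :=
        fg_adjoin_union_list (Module.Finite.iff_fg.1 (h2 x v)) L (fun y _ => hint y)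
          (by
            intro y hy e he
            rcases he with rfl | rfl
            · exact (hxvL y hy).1
            · exact (hxvL y hy).2) hLLL
      have hAfd : FiniteDimensional k A := Module.Finite.of_fg hAfg
      obtain ⟨u, huA, hzu⟩ : ∃ u, (∀ a ∈ A, a * u = u * a) ∧ z * u ≠ u * z := by
        by_contra hcon
        push Not at hcon
        exact hzA (mem_of_commute_centralizer hcen A z hcon)
      have hxA : x ∈ A := Algebra.subset_adjoin (Or.inl (by simp))
      have hvA : v ∈ A := Algebra.subset_adjoin (Or.inl (by simp))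
      have hLA : ∀ y ∈ L, y ∈ A := fun y hy => Algebra.subset_adjoin (Or.inr hy)
      have hxvA : Algebra.adjoin k ({x, v} : Set D) ≤ A := Algebra.adjoin_mono (by simp)
      obtain ⟨n, hn⟩ := hpow z List.mem_cons_self
      obtain ⟨ϑ, hϑsep, hzϑ, hϑc⟩ := exists_separable_shift (k := k) q hzu n (huA _ (hxvA hn))
      have hzx := (hxv z List.mem_cons_self).1
      have hzv := (hxv z List.mem_cons_self).2
      have hxϑ : x * ϑ = ϑ * x := hϑc x hzx.symm (huA x hxA)
      have hvϑ : v * ϑ = ϑ * v := hϑc v hzv.symm (huA v hvA)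
      have hLϑ : ∀ y ∈ L, y * ϑ = ϑ * y := fun y hy =>
        hϑc y (hLL y (List.mem_cons_of_mem _ hy) z List.mem_cons_self) (huA y (hLA y hy))
      obtain ⟨hxsep, hκx, ⟨d, hd⟩, hκv⟩ := hst
      obtain ⟨x₁, hx₁sep, hx₁⟩ := exists_primitive_pair hxsep hϑsep hxϑ.symm (h2 x ϑ)
      have hzκ : z * κ = κ * z :=
        comm_of_mem_adjoin (s := {x}) (by
          intro a ha
          rw [Set.mem_singleton_iff.1 ha]
          exact hzx) hκx
      set v₁ := v + v * z with hv₁
      have hz1 : 1 + z ≠ 0 := by
        intro h
        apply hzA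
        have : z = -1 := by
          rw [eq_neg_iff_add_eq_zero, add_comm]
          exact h
        rw [this]
        exact A.neg_mem A.one_mem
      have hst₁ : IsState k κ x₁ v₁ := by
        refine ⟨hx₁sep, ?_, ⟨d + d * z, ?_⟩, ?_⟩
        · rw [hx₁]
          exact (Algebra.adjoin_mono (by simp) : Algebra.adjoin k ({x} : Set D) ≤ _) hκx
        · rw [hv₁, hd, mul_add, add_mul, sub_mul, mul_assoc d z κ, hzκ]
          simp only [mul_assoc]
          abel
        · intro h
          apply hκv
          have h3 : (κ * v - v * κ) * (1 + z) = 0 := by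
            have h6 : v * z * κ = v * κ * z := by rw [mul_assoc, hzκ, mul_assoc]
            have h4 : (κ * v - v * κ) * (1 + z) = κ * v₁ - v₁ * κ := by
              calc (κ * v - v * κ) * (1 + z) = κ * v + κ * (v * z) - v * κ - v * κ * z := by
                    noncomm_ring
                _ = κ * v₁ - v₁ * κ := by
                    rw [← h6, hv₁]
                    noncomm_ring
            rw [h4, h, sub_self]
          rcases mul_eq_zero.1 h3 with h5 | h5
          · exact sub_eq_zero.1 h5
          · exact absurd h5 hz1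
      set B₁ := Algebra.adjoin k ({x₁, v₁} : Set D) with hB₁
      have hle₁ : Algebra.adjoin k ({x, ϑ} : Set D) ≤ B₁ := by
        rw [← hx₁]
        exact Algebra.adjoin_mono (by simp)
      have hxB : x ∈ B₁ := hle₁ (Algebra.subset_adjoin (by simp))
      have hϑB : ϑ ∈ B₁ := hle₁ (Algebra.subset_adjoin (by simp))
      have hv₁B : v₁ ∈ B₁ := Algebra.subset_adjoin (by simp)
      have hvz : v₁ * ϑ - ϑ * v₁ = v * z := by
        rw [hv₁, add_mul, mul_add, mul_assoc v z ϑ, hzϑ, hvϑ, add_mul, one_mul, mul_add,
          ← mul_assoc v ϑ z, hvϑ]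
        simp only [mul_assoc]
        abel
      have hvzB : v * z ∈ B₁ := by
        rw [← hvz]
        exact B₁.sub_mem (B₁.mul_mem hv₁B hϑB) (B₁.mul_mem hϑB hv₁B)
      have hvB : v ∈ B₁ := by
        have := B₁.sub_mem hv₁B hvzB
        rwa [hv₁, add_sub_cancel_right] at this
      have hv0 : v ≠ 0 := by
        rintro rfl
        apply hκv
        rw [mul_zero, zero_mul]
      have hzB : z ∈ B₁ := by
        have := B₁.mul_mem ((hint v).inv_mem hvB) hvzB
        rwa [← mul_assoc, inv_mul_cancel₀ hv0, one_mul] at this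
      obtain ⟨x', v', hst', hx', hv', hL'⟩ := ih x₁ v₁ hst₁
        (by
          intro y hy
          constructor
          · apply comm_of_mem_adjoin (k := k) (s := {x, ϑ})
            · intro a ha
              rcases ha with rfl | rfl
              · exact (hxvL y hy).1
              · exact hLϑ y hy
            · rw [← hx₁]
              exact Algebra.subset_adjoin rfl
          · have h5 : y * z = z * y := hLL y (List.mem_cons_of_mem _ hy) z List.mem_cons_self
            rw [hv₁, mul_add, add_mul, (hxvL y hy).2, ← mul_assoc, (hxvL y hy).2, mul_assoc, h5,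
              mul_assoc])
        hLLL
        (by
          intro y hy
          obtain ⟨m, hm⟩ := hpowL y hy
          refine ⟨m, ?_⟩
          have : Algebra.adjoin k ({x, v} : Set D) ≤ B₁ := by
            apply Algebra.adjoin_le
            intro a ha
            rcases ha with rfl | rfl
            · exact hxB
            · exact hvB
          exact this hm)
      have hle : B₁ ≤ Algebra.adjoin k ({x', v'} : Set D) := by
        apply Algebra.adjoin_le
        intro a ha
        rcases ha with rfl | rfl
        · exact hx'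
        · exact hv'
      refine ⟨x', v', hst', hle hxB, hle hvB, ?_⟩
      intro y hy
      rcases List.mem_cons.1 hy with rfl | hy
      · exact hle hzB
      · exact hL' y hy

end Vale.Agent.Lib.P199
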