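import Vale.Agent.Lib.P199.LocFin

/-!
# A division ring is a finite left module over the centraliser of a finite-dimensional subalgebra
-/

namespace Vale.Agent.Lib.P199

open Submodule Module

variable {k D : Type*} [Field k] [DivisionRing D] [Algebra k D]

open Classical in
/-- Descent step of the Artin-type argument. -/
theorem exists_centralizing_aux (E : Subalgebra k D) {ι : Type*} [Fintype ι] (x : ι → D) :
    ∀ (N : ℕ) (y : ι → D), y ≠ 0 → (∀ s ∈ E, ∑ j, y j * (s * x j) = 0) →
      (Finset.univ.filter (fun j => y j ≠ 0)).card = N →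
      ∃ z : ι → D, z ≠ 0 ∧ (∀ s ∈ E, ∑ j, z j * (s * x j) = 0) ∧
        ∀ j, ∀ s ∈ E, s * z j = z j * s := by
  classical
  intro N
  induction N using Nat.strong_induction_on with
  | _ N ih =>
    intro y hy hP hN
    obtain ⟨j0, hj0⟩ : ∃ j, y j ≠ 0 := by
      by_contra h
      push Not at h
      exact hy (funext h)
    set y' : ι → D := fun j => (y j0)⁻¹ * y j with hy'
    have hy'0 : y' j0 = 1 := inv_mul_cancel₀ hj0
    have hP' : ∀ s ∈ E, ∑ j, y' j * (s * x j) = 0 := by
      intro s hs
      have := hP s hs
      simp only [hy', mul_assoc]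
      rw [← Finset.mul_sum, this, mul_zero]
    have hsupp' : ∀ j, y' j ≠ 0 → y j ≠ 0 := by
      intro j hj h
      apply hj
      simp [hy', h]
    by_cases hc : ∀ j, ∀ s ∈ E, s * y' j = y' j * s
    · refine ⟨y', ?_, hP', hc⟩
      intro h
      have := congrFun h j0
      rw [hy'0] at this
      exact one_ne_zero this
    · push Not at hc
      obtain ⟨j1, s, hs, hne⟩ := hc
      have hs0 : s ≠ 0 := by
        rintro rfl
        simp at hne
      set w : ι → D := fun j => y' j - s⁻¹ * y' j * s with hw
      have hw1 : w j1 ≠ 0 := by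
        intro h
        apply hne
        have h1 : y' j1 = s⁻¹ * y' j1 * s := sub_eq_zero.1 h
        calc s * y' j1 = s * (s⁻¹ * y' j1 * s) := by rw [← h1]
          _ = y' j1 * s := by rw [← mul_assoc, ← mul_assoc, mul_inv_cancel₀ hs0, one_mul]
      have hw0 : w j0 = 0 := by
        simp [hw, hy'0, hs0]
      have hPw : ∀ t ∈ E, ∑ j, w j * (t * x j) = 0 := by
        intro t ht
        have h1 := hP' t ht
        have h2 := hP' (s * t) (E.mul_mem hs ht)
        have h3 : ∑ j, (s⁻¹ * y' j * s) * (t * x j) = s⁻¹ * ∑ j, y' j * (s * t * x j) := by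
          rw [Finset.mul_sum]
          refine Finset.sum_congr rfl fun j _ => ?_
          simp only [mul_assoc]
        simp only [hw, sub_mul]
        rw [Finset.sum_sub_distrib, h1, h3, h2, mul_zero, sub_zero]
      have hcard : (Finset.univ.filter (fun j => w j ≠ 0)).card < N := by
        rw [← hN]
        apply Finset.card_lt_card
        rw [Finset.ssubset_iff_of_subset]
        · exact ⟨j0, by simp [hj0], by simp [hw0]⟩
        · intro j hj
          simp only [Finset.mem_filter, Finset.mem_univ, true_and] at hj ⊢
          apply hsupp'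
          intro h
          apply hj
          simp [hw, h]
      exact ih _ hcard w (fun h => hw1 (congrFun h j1)) hPw rfl

/-- Artin-type lemma: more than `[E : k]` elements of `D` are left linearly dependent over the
centraliser of `E`. -/
theorem exists_centralizing_relation (E : Subalgebra k D) [FiniteDimensional k E]
    {ι : Type*} [Fintype ι] (x : ι → D) (h : finrank k E < Fintype.card ι) :
    ∃ z : ι → D, z ≠ 0 ∧ (∀ j, ∀ s ∈ E, s * z j = z j * s) ∧ ∑ j, z j * x j = 0 := by
  classical
  let b := Module.finBasis k E
  let φ : (ι → D) →ₗ[D] (Fin (finrank k E) → D) :=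
    LinearMap.pi (fun i => Fintype.linearCombination D (fun j => ((b i : E) : D) * x j))
  have hker : LinearMap.ker φ ≠ ⊥ := by
    apply LinearMap.ker_ne_bot_of_finrank_lt
    rw [Module.finrank_fintype_fun_eq_card, Module.finrank_fintype_fun_eq_card, Fintype.card_fin]
    exact h
  obtain ⟨y, hyker, hy0⟩ := Submodule.exists_mem_ne_zero_of_ne_bot hker
  have hyb : ∀ i, ∑ j, y j * (((b i : E) : D) * x j) = 0 := by
    intro i
    have := congrFun (LinearMap.mem_ker.1 hyker) i
    simpa [φ, Fintype.linearCombination_apply] using this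
  have hP : ∀ s ∈ E, ∑ j, y j * (s * x j) = 0 := by
    intro s hs
    have hrepr : s = ∑ i, (b.repr ⟨s, hs⟩ i) • ((b i : E) : D) := by
      have h1 : (((∑ i, (b.repr ⟨s, hs⟩ i) • b i : E)) : D) = s :=
        congrArg (Subtype.val) (b.sum_repr ⟨s, hs⟩)
      refine h1.symm.trans ?_
      push_cast
      rfl
    rw [hrepr]
    simp only [Finset.sum_mul, Finset.mul_sum, smul_mul_assoc, mul_smul_comm]
    rw [Finset.sum_comm]
    refine Finset.sum_eq_zero fun i _ => ?_
    rw [← Finset.smul_sum, hyb i, smul_zero]
  obtain ⟨z, hz0, hzP, hzc⟩ := exists_centralizing_aux E x _ y hy0 hP rfl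
  refine ⟨z, hz0, hzc, ?_⟩
  have := hzP 1 E.one_mem
  simpa using this

end Vale.Agent.Lib.P199

namespace Vale.Agent.Lib.P199

open Submodule Module

variable {k D : Type*} [Field k] [DivisionRing D] [Algebra k D]

/-- The centraliser of a set in a division ring, as a division subring. -/
def centSubfield (S : Set D) : Subfield D where
  toSubring := Subring.centralizer S
  inv_mem' := by
    intro c hc
    rw [Subring.mem_carrier, Subring.mem_centralizer_iff] at hc ⊢
    intro g hg
    rcases eq_or_ne c 0 with rfl | hc0
    · simp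
    · have h := hc g hg
      calc g * c⁻¹ = c⁻¹ * (c * g) * c⁻¹ := by
            rw [← mul_assoc, inv_mul_cancel₀ hc0, one_mul]
        _ = c⁻¹ * (g * c) * c⁻¹ := by rw [h]
        _ = c⁻¹ * g := by rw [mul_assoc, mul_assoc, mul_inv_cancel₀ hc0, mul_one]

theorem mem_centSubfield {S : Set D} {c : D} : c ∈ centSubfield S ↔ ∀ g ∈ S, g * c = c * g :=
  Subring.mem_centralizer_iff

theorem rank_centSubfield_le (E : Subalgebra k D) [FiniteDimensional k E] :
    Module.rank (centSubfield (E : Set D)) D ≤ (finrank k E : ℕ) := by
  classical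
  apply _root_.rank_le
  intro s hs
  by_contra hlt
  push Not at hlt
  obtain ⟨z, hz0, hzc, hz⟩ := exists_centralizing_relation E (fun i : s => (i : D))
    (by simpa using hlt)
  rw [Fintype.linearIndependent_iff] at hs
  have := hs (fun j => ⟨z j, mem_centSubfield.2 (fun g hg => hzc j g hg)⟩) (by
    simpa [Subfield.smul_def] using hz)
  apply hz0
  funext j
  exact congrArg Subtype.val (this j)

/-- `D` is a finitely generated left module over the centraliser of a finite-dimensional
subalgebra, phrased with products of `k`-submodules. -/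
theorem exists_fg_top_le_centralizer_mul (E : Subalgebra k D) [FiniteDimensional k E] :
    ∃ X : Submodule k D, X.FG ∧
      (⊤ : Submodule k D) ≤ Subalgebra.toSubmodule (Subalgebra.centralizer k (E : Set D)) * X := by
  have hfin : Module.Finite (centSubfield (E : Set D)) D := by
    rw [← Module.rank_lt_aleph0_iff]
    exact lt_of_le_of_lt (rank_centSubfield_le E) (Cardinal.natCast_lt_aleph0)
  obtain ⟨X0, hX0⟩ := hfin.fg_top
  refine ⟨span k (X0 : Set D), fg_span X0.finite_toSet, ?_⟩
  intro d _
  have hd : d ∈ span (centSubfield (E : Set D)) (X0 : Set D) := by rw [hX0]; trivial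
  induction hd using Submodule.span_induction with
  | mem x hx =>
    have : (1 : D) * x ∈ Subalgebra.toSubmodule (Subalgebra.centralizer k (E : Set D)) *
        span k (X0 : Set D) := Submodule.mul_mem_mul (Subalgebra.one_mem _) (subset_span hx)
    rwa [one_mul] at this
  | zero => exact Submodule.zero_mem _
  | add x y _ _ hx hy => exact Submodule.add_mem _ (hx trivial) (hy trivial)
  | smul c x _ hx =>
    have hc : (c : D) ∈ Subalgebra.centralizer k (E : Set D) := by
      rw [Subalgebra.mem_centralizer_iff]
      exact mem_centSubfield.1 c.2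
    have h1 : (c : D) * x ∈ Subalgebra.toSubmodule (Subalgebra.centralizer k (E : Set D)) *
        (Subalgebra.toSubmodule (Subalgebra.centralizer k (E : Set D)) * span k (X0 : Set D)) :=
      Submodule.mul_mem_mul hc (hx trivial)
    rw [← mul_assoc, (Subalgebra.isIdempotentElem_toSubmodule _).eq] at h1
    rw [Subfield.smul_def]
    exact h1

/-- If the centraliser of a finite-dimensional subalgebra is locally finite, so is `D`. -/
theorem locFin_top_of_centralizer (E : Subalgebra k D) [FiniteDimensional k E]
    (h : LocFin (Subalgebra.centralizer k (E : Set D))) : LocFin (⊤ : Subalgebra k D) := by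
  obtain ⟨X, hX, hle⟩ := exists_fg_top_le_centralizer_mul E
  refine h.of_le_mul X hX ?_ ?_
  · intro x _
    trivial
  · intro x _
    exact hle trivial

end Vale.Agent.Lib.P199
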