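import Vale.Agent.Lib.P199.Step

/-!
# Subalgebras generated by groups of units in an algebraic division algebra
-/

namespace Vale.Agent.Lib.P199

open Submodule
open scoped commutatorElement

section general

variable {F A : Type*} [Field F] [Ring A] [Algebra F A]

/-- every element of `adjoin F X` lies in `adjoin F S` for a finite `S ⊆ X`. -/
theorem exists_finset_mem_adjoin (X : Set A) {x : A} (hx : x ∈ Algebra.adjoin F X) :
    ∃ S : Finset A, (S : Set A) ⊆ X ∧ x ∈ Algebra.adjoin F (S : Set A) := by
  classical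
  induction hx using Algebra.adjoin_induction with
  | mem x hx => exact ⟨{x}, by simpa using hx, Algebra.subset_adjoin (by simp)⟩
  | algebraMap r => exact ⟨∅, by simp, Subalgebra.algebraMap_mem _ r⟩
  | add x y _ _ hx hy =>
    obtain ⟨S, hS, hxS⟩ := hx
    obtain ⟨S', hS', hyS⟩ := hy
    refine ⟨S ∪ S', by simp [hS, hS'], Subalgebra.add_mem _ ?_ ?_⟩
    · exact Algebra.adjoin_mono (by simp) hxS
    · exact Algebra.adjoin_mono (by simp) hyS
  | mul x y _ _ hx hy =>
    obtain ⟨S, hS, hxS⟩ := hx
    obtain ⟨S', hS', hyS⟩ := hy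
    refine ⟨S ∪ S', by simp [hS, hS'], Subalgebra.mul_mem _ ?_ ?_⟩
    · exact Algebra.adjoin_mono (by simp) hxS
    · exact Algebra.adjoin_mono (by simp) hyS

theorem exists_finset_subset_adjoin (X : Set A) (T : Finset A)
    (hT : (T : Set A) ⊆ Algebra.adjoin F X) :
    ∃ S : Finset A, (S : Set A) ⊆ X ∧ (T : Set A) ⊆ Algebra.adjoin F (S : Set A) := by
  classical
  induction T using Finset.induction_on with
  | empty => exact ⟨∅, by simp, by simp⟩
  | insert t T _ ih =>
    obtain ⟨S, hS, hTS⟩ := ih (fun x hx => hT (by simp [Finset.mem_coe.1 hx]))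
    obtain ⟨S', hS', htS⟩ := exists_finset_mem_adjoin (F := F) X (hT (by simp : t ∈ _))
    refine ⟨S ∪ S', by simp [hS, hS'], ?_⟩
    intro x hx
    simp only [Finset.coe_insert, Set.mem_insert_iff, Finset.mem_coe] at hx
    rcases hx with rfl | hx
    · exact Algebra.adjoin_mono (by simp) htS
    · exact Algebra.adjoin_mono (by simp) (hTS hx)

/-- Local finiteness can be tested on finite subsets of a generating set. -/
theorem locFin_adjoin_of_finite (X : Set A)
    (h : ∀ S : Finset A, (S : Set A) ⊆ X → ∃ E : Subalgebra F A, LocFin E ∧ (S : Set A) ⊆ E) :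
    LocFin (Algebra.adjoin F X) := by
  intro T hT
  obtain ⟨S, hS, hTS⟩ := exists_finset_subset_adjoin X T hT
  obtain ⟨E, hE, hSE⟩ := h S hS
  exact hE T (hTS.trans (Algebra.adjoin_le hSE))

end general

variable {F D : Type*} [Field F] [DivisionRing D] [Algebra F D]

variable (F) in
/-- The `F`-subalgebra of `D` generated by a group of units. -/
def alg (G : Subgroup Dˣ) : Subalgebra F D :=
  Algebra.adjoin F (Units.val '' (G : Set Dˣ))

theorem alg_mono {G H : Subgroup Dˣ} (h : G ≤ H) : alg F G ≤ alg F H :=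
  Algebra.adjoin_mono (Set.image_mono h)

theorem mem_alg {G : Subgroup Dˣ} {g : Dˣ} (h : g ∈ G) : (g : D) ∈ alg F G :=
  Algebra.subset_adjoin ⟨g, h, rfl⟩

theorem alg_bot : alg F (⊥ : Subgroup Dˣ) = ⊥ := by
  apply le_antisymm _ bot_le
  apply Algebra.adjoin_le
  rintro _ ⟨u, hu, rfl⟩
  rw [SetLike.mem_coe, Subgroup.mem_bot] at hu
  subst hu
  exact Subalgebra.one_mem _

theorem conj_mem_alg {H : Subgroup Dˣ} {g : Dˣ} (hg : ∀ h ∈ H, g * h * g⁻¹ ∈ H) {e : D}
    (he : e ∈ alg F H) : (g : D) * e * ((g⁻¹ : Dˣ) : D) ∈ alg F H := by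
  induction he using Algebra.adjoin_induction with
  | mem x hx =>
    obtain ⟨h, hh, rfl⟩ := hx
    have := mem_alg (F := F) (hg h hh)
    simpa using this
  | algebraMap r =>
    rw [← Algebra.commutes, mul_assoc, Units.mul_inv, mul_one]
    exact Subalgebra.algebraMap_mem _ r
  | add x y _ _ hx hy =>
    rw [mul_add, add_mul]
    exact Subalgebra.add_mem _ hx hy
  | mul x y _ _ hx hy =>
    have : (g : D) * (x * y) * ((g⁻¹ : Dˣ) : D)
        = ((g : D) * x * ((g⁻¹ : Dˣ) : D)) * ((g : D) * y * ((g⁻¹ : Dˣ) : D)) := by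
      simp only [mul_assoc, Units.inv_mul_cancel_left]
    rw [this]
    exact Subalgebra.mul_mem _ hx hy

variable [Algebra.IsAlgebraic F D]

/-- a subalgebra containing a generating set of a group of units contains the group -/
theorem alg_closure_le {S : Set Dˣ} {B : Subalgebra F D} (h : ∀ s ∈ S, (s : D) ∈ B) :
    alg F (Subgroup.closure S) ≤ B := by
  apply Algebra.adjoin_le
  rintro _ ⟨u, hu, rfl⟩
  rw [SetLike.mem_coe] at hu ⊢
  induction hu using Subgroup.closure_induction with
  | mem x hx => exact h x hx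
  | one => simp
  | mul x y _ _ hx hy => simpa using B.mul_mem hx hy
  | inv x _ hx =>
    rw [Units.val_inv_eq_inv_val]
    exact (Algebra.IsIntegral.isIntegral (R := F) (x : D)).inv_mem hx

/-- Cyclic extension step. -/
theorem locFin_alg_sup_zpowers {H : Subgroup Dˣ} {g : Dˣ} (hg : ∀ h ∈ H, g * h * g⁻¹ ∈ H)
    (hH : LocFin (alg F H)) : LocFin (alg F (H ⊔ Subgroup.zpowers g)) := by
  have hint : IsIntegral F (g : D) := Algebra.IsIntegral.isIntegral _
  have key : LocFin (alg F H ⊔ Algebra.adjoin F {(g : D)}) := by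
    refine hH.sup_adjoin_singleton hint ?_
    intro e he
    have h1 : (g : D) * e = ((g : D) * e * ((g⁻¹ : Dˣ) : D)) * (g : D) := by
      simp [mul_assoc]
    rw [h1]
    exact Submodule.mul_mem_mul (conj_mem_alg hg he) (Algebra.subset_adjoin rfl)
  refine key.mono ?_
  have h2 : H ⊔ Subgroup.zpowers g = Subgroup.closure ((H : Set Dˣ) ∪ {g}) := by
    rw [Subgroup.closure_union, Subgroup.closure_eq, Subgroup.zpowers_eq_closure]
  rw [h2]
  apply alg_closure_le
  rintro s (hs | hs)
  · exact (le_sup_left : alg F H ≤ _) (mem_alg hs)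
  · rw [Set.mem_singleton_iff] at hs
    subst hs
    exact (le_sup_right : Algebra.adjoin F {(s : D)} ≤ _) (Algebra.subset_adjoin rfl)

/-- Abelian extension step. -/
theorem locFin_alg_of_commutator_le {N G : Subgroup Dˣ} (hNG : N ≤ G) (hc : ⁅G, G⁆ ≤ N)
    (hN : LocFin (alg F N)) : LocFin (alg F G) := by
  classical
  have step : ∀ S : Finset Dˣ, (S : Set Dˣ) ⊆ G →
      LocFin (alg F (N ⊔ Subgroup.closure (S : Set Dˣ))) := by
    intro S
    induction S using Finset.induction_on with
    | empty => intro _; simpa using hN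
    | insert g S _ ih =>
      intro hS
      have hgG : g ∈ G := hS (by simp)
      have hSG : (S : Set Dˣ) ⊆ G := fun x hx => hS (by simp [Finset.mem_coe.1 hx])
      have hH := ih hSG
      set H := N ⊔ Subgroup.closure (S : Set Dˣ) with hHdef
      have hHG : H ≤ G := sup_le hNG ((Subgroup.closure_le G).2 hSG)
      have hnorm : ∀ h ∈ H, g * h * g⁻¹ ∈ H := by
        intro h hh
        have h1 : ⁅g, h⁆ ∈ H :=
          (le_sup_left : N ≤ H) (hc (Subgroup.commutator_mem_commutator hgG (hHG hh)))
        have h2 : g * h * g⁻¹ = ⁅g, h⁆ * h := by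
          simp [commutatorElement_def]
        rw [h2]
        exact H.mul_mem h1 hh
      have := locFin_alg_sup_zpowers (F := F) hnorm hH
      have h3 : N ⊔ Subgroup.closure ((insert g S : Finset Dˣ) : Set Dˣ)
          = H ⊔ Subgroup.zpowers g := by
        rw [Finset.coe_insert, Set.insert_eq, Subgroup.closure_union,
          ← Subgroup.zpowers_eq_closure, hHdef, sup_assoc, sup_comm (Subgroup.zpowers g)]
      rw [h3]
      exact this
  apply locFin_adjoin_of_finite
  intro S hS
  -- lift `S` to a finite set of units in `G`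
  have : ∀ x : S, ∃ u : Dˣ, u ∈ G ∧ (u : D) = x := by
    intro x
    obtain ⟨u, hu, hux⟩ := hS x.2
    exact ⟨u, hu, hux⟩
  choose u hu hux using this
  refine ⟨alg F (N ⊔ Subgroup.closure ((Finset.univ.image u : Finset Dˣ) : Set Dˣ)),
    step _ ?_, ?_⟩
  · intro x hx
    simp only [Finset.coe_image, Finset.coe_univ, Set.image_univ, Set.mem_range] at hx
    obtain ⟨y, rfl⟩ := hx
    exact hu y
  · intro x hx
    have h4 : u ⟨x, hx⟩ ∈ N ⊔ Subgroup.closure ((Finset.univ.image u : Finset Dˣ) : Set Dˣ) := by
      apply (le_sup_right : Subgroup.closure _ ≤ _)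
      apply Subgroup.subset_closure
      simp
    have := mem_alg (F := F) h4
    rwa [hux] at this

/-- The algebra generated by a solvable group of units of an algebraic division algebra is
locally finite. -/
theorem locFin_alg_of_isSolvable (G : Subgroup Dˣ) [hG : Group.IsSolvable G] : LocFin (alg F G) := by
  obtain ⟨n, hn⟩ := hG.solvable
  have key : ∀ j i, i + j = n → LocFin (alg F ((derivedSeries G i).map G.subtype)) := by
    intro j
    induction j with
    | zero =>
      intro i hi
      rw [add_zero] at hi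
      subst hi
      rw [hn, Subgroup.map_bot, alg_bot]
      exact locFin_bot
    | succ j ih =>
      intro i hi
      have h1 := ih (i + 1) (by omega)
      refine locFin_alg_of_commutator_le ?_ ?_ h1
      · apply Subgroup.map_mono
        rw [derivedSeries_succ]
        exact Subgroup.commutator_le_left _ _
      · rw [derivedSeries_succ, Subgroup.map_commutator]
  have := key n 0 (by omega)
  rw [derivedSeries_zero, ← MonoidHom.range_eq_map, Subgroup.range_subtype] at this
  exact this

end Vale.Agent.Lib.P199
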