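import Vale.Agent.Lib.P199.Tame
import Vale.Agent.Lib.P199.Groups

/-!
# Local finiteness can be tested on a conjugation-invariant noncentral set
-/

namespace Vale.Agent.Lib.P199

variable {k D : Type*} [Field k] [DivisionRing D] [Algebra k D] [Algebra.IsAlgebraic k D]

/-- A conjugation-invariant set that is not central generates `D` as a `k`-algebra. -/
theorem adjoin_eq_top_of_conj_invariant (X : Set D)
    (hconj : ∀ x ∈ X, ∀ u : D, u ≠ 0 → u * x * u⁻¹ ∈ X)
    (hnc : ∃ x ∈ X, ∃ y : D, x * y ≠ y * x) : Algebra.adjoin k X = ⊤ := by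
  by_contra hne
  obtain ⟨x, hxX, y, hxy⟩ := hnc
  have hex : ∃ c : D, c ∉ (Algebra.adjoin k X).toSubring := by
    by_contra hall
    push Not at hall
    apply hne
    rw [eq_top_iff]
    intro c _
    exact hall c
  have hstable : ∀ c ∈ Algebra.adjoin k X, ∀ u : D, u ≠ 0 → u * c * u⁻¹ ∈ Algebra.adjoin k X := by
    intro c hc u hu
    induction hc using Algebra.adjoin_induction with
    | mem c hc => exact Algebra.subset_adjoin (hconj c hc u hu)
    | algebraMap r =>
      rw [← Algebra.commutes, mul_assoc, mul_inv_cancel₀ hu, mul_one]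
      exact Subalgebra.algebraMap_mem _ r
    | add c d _ _ hc hd =>
      rw [mul_add, add_mul]
      exact Subalgebra.add_mem _ hc hd
    | mul c d _ _ hc hd =>
      have : u * (c * d) * u⁻¹ = (u * c * u⁻¹) * (u * d * u⁻¹) := by
        simp only [mul_assoc]
        rw [inv_mul_cancel_left₀ hu]
      rw [this]
      exact Subalgebra.mul_mem _ hc hd
  have := cartan_brauer_hua (Algebra.adjoin k X).toSubring
    (fun c hc => (Algebra.IsIntegral.isIntegral (R := k) c).inv_mem hc)
    (fun c hc u hu => hstable c hc u hu)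
    hex x (Algebra.subset_adjoin hxX) y
  exact hxy this

/-- Local finiteness can be tested on a conjugation-invariant noncentral set. -/
theorem locFin_top_of_conj_invariant (X : Set D)
    (hconj : ∀ x ∈ X, ∀ u : D, u ≠ 0 → u * x * u⁻¹ ∈ X)
    (hnc : ∃ x ∈ X, ∃ y : D, x * y ≠ y * x)
    (hfin : ∀ T : Finset D, (T : Set D) ⊆ X →
      (Subalgebra.toSubmodule (Algebra.adjoin k (T : Set D))).FG) :
    LocFin (⊤ : Subalgebra k D) := by
  rw [← adjoin_eq_top_of_conj_invariant (k := k) X hconj hnc]
  apply locFin_adjoin_of_finite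
  intro S hS
  refine ⟨Algebra.adjoin k (S : Set D), ?_, Algebra.subset_adjoin⟩
  intro T hT
  exact Submodule.FG.of_le (hfin S hS) (Subalgebra.toSubmodule.monotone (Algebra.adjoin_le hT))

end Vale.Agent.Lib.P199
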