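import Vale.Agent.Lib.P199.Centralizer

/-!
# Conjugacy of roots of a minimal polynomial over the centre (Dickson / Skolem-Noether type lemma)
-/

namespace Vale.Agent.Lib.P199

open Polynomial

variable {D : Type*} [DivisionRing D]

/-- Independence lemma: if `x j` are linearly independent over the centre and
`∑ y j * d * x j = 0` for all `d`, then `y = 0`. -/
theorem eq_zero_of_forall_sum_mul_eq_zero {ι : Type*} [Fintype ι] (x : ι → D)
    (hx : LinearIndependent (Subring.center D) x) (y : ι → D)
    (h : ∀ d, ∑ j, y j * (d * x j) = 0) : y = 0 := by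
  classical
  by_contra hy
  obtain ⟨z, hz0, hzP, hzc⟩ := exists_centralizing_aux (k := Subring.center D)
    (⊤ : Subalgebra (Subring.center D) D) x _ y hy (fun s _ => h s) rfl
  rw [Fintype.linearIndependent_iff] at hx
  have hzmem : ∀ j, z j ∈ Subring.center D := by
    intro j
    rw [Subring.mem_center_iff]
    intro g
    exact hzc j g trivial
  have h1 := hx (fun j => ⟨z j, hzmem j⟩) (by
    have := hzP 1 trivial
    simpa [Subring.smul_def] using this)
  apply hz0
  funext j
  exact congrArg Subtype.val (h1 j)

/-- If `a'` is a root of the minimal polynomial of `a` over the centre then `a' * b = b * a` for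
some nonzero `b`. -/
theorem exists_conj_of_aeval_minpoly_eq_zero (a a' : D)
    (ha : IsIntegral (Subring.center D) a)
    (ha' : aeval a' (minpoly (Subring.center D) a) = 0) :
    ∃ b : D, b ≠ 0 ∧ a' * b = b * a := by
  classical
  set Z := Subring.center D with hZ
  set f := minpoly Z a with hf
  set n := f.natDegree with hn
  have hnpos : 0 < n := minpoly.natDegree_pos ha
  let L : Module.End Z D := LinearMap.mulLeft Z a'
  let R : Module.End Z D := LinearMap.mulRight Z a
  have hLR : Commute L R := LinearMap.commute_mulLeft_right a' a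
  let G : Module.End Z D :=
    ∑ m ∈ Finset.range (n + 1), f.coeff m • ∑ i ∈ Finset.range m, L ^ i * R ^ (m - 1 - i)
  have hG : (L - R) * G = 0 := by
    have h1 : (L - R) * G = ∑ m ∈ Finset.range (n + 1), f.coeff m • (L ^ m - R ^ m) := by
      simp only [G, Finset.mul_sum, mul_smul_comm]
      refine Finset.sum_congr rfl fun m _ => ?_
      rw [← Finset.mul_sum, hLR.mul_geom_sum₂]
    rw [h1]
    ext d
    simp only [LinearMap.sum_apply, LinearMap.smul_apply, LinearMap.sub_apply, L, R,
      LinearMap.pow_mulLeft, LinearMap.pow_mulRight, LinearMap.mulLeft_apply,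
      LinearMap.mulRight_apply, LinearMap.zero_apply, smul_sub, Finset.sum_sub_distrib]
    have e1 : ∑ m ∈ Finset.range (n + 1), f.coeff m • (a' ^ m * d) = aeval a' f * d := by
      rw [aeval_eq_sum_range, Finset.sum_mul]
      exact Finset.sum_congr rfl fun m _ => (smul_mul_assoc _ _ _).symm
    have e2 : ∑ m ∈ Finset.range (n + 1), f.coeff m • (d * a ^ m) = d * aeval a f := by
      rw [aeval_eq_sum_range, Finset.mul_sum]
      exact Finset.sum_congr rfl fun m _ => (mul_smul_comm _ _ _).symm
    rw [e1, e2, ha', hf, minpoly.aeval, zero_mul, mul_zero, sub_zero]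
  -- `G ≠ 0` by the independence lemma
  have hG0 : G ≠ 0 := by
    intro hG0
    let y : Fin n → D := fun j => ∑ m ∈ Finset.Ioc (j : ℕ) n, f.coeff m • a' ^ (m - 1 - j)
    have hy : y = 0 := by
      refine eq_zero_of_forall_sum_mul_eq_zero (fun j : Fin n => a ^ (j : ℕ))
        (linearIndependent_pow a) y ?_
      intro d
      have h2 : G d = 0 := by rw [hG0]; rfl
      have h3 : G d = ∑ m ∈ Finset.range (n + 1), ∑ j ∈ Finset.range m,
          f.coeff m • (a' ^ (m - 1 - j) * (d * a ^ j)) := by
        simp only [G, LinearMap.sum_apply, LinearMap.smul_apply, Module.End.mul_apply, L, R,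
          LinearMap.pow_mulLeft, LinearMap.pow_mulRight, LinearMap.mulLeft_apply,
          LinearMap.mulRight_apply]
        refine Finset.sum_congr rfl fun m _ => ?_
        rw [Finset.smul_sum, ← Finset.sum_range_reflect]
        refine Finset.sum_congr rfl fun j hj => ?_
        have hj' : j < m := Finset.mem_range.1 hj
        have : m - 1 - (m - 1 - j) = j := by omega
        rw [this]
      rw [h3, Finset.sum_comm' (s' := fun j => Finset.Ioc j n) (t' := Finset.range n)] at h2
      · rw [Finset.sum_range] at h2
        rw [← h2]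
        refine Finset.sum_congr rfl fun j _ => ?_
        simp only [y, Finset.sum_mul, smul_mul_assoc]
      · intro m j
        simp only [Finset.mem_range, Finset.mem_Ioc]
        omega
    have h4 : y ⟨n - 1, by omega⟩ = 1 := by
      have h5 : Finset.Ioc (n - 1) n = {n} := by
        ext m
        simp only [Finset.mem_Ioc, Finset.mem_singleton]
        omega
      simp only [y, h5, Finset.sum_singleton]
      have h6 : f.coeff n = 1 := (minpoly.monic ha).coeff_natDegree
      rw [h6, Nat.sub_self, pow_zero, one_smul]
    rw [hy] at h4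
    exact zero_ne_one h4
  obtain ⟨d, hd⟩ : ∃ d, G d ≠ 0 := by
    by_contra hcon
    push Not at hcon
    exact hG0 (LinearMap.ext hcon)
  refine ⟨G d, hd, ?_⟩
  have h7 : ((L - R) * G) d = 0 := by rw [hG]; rfl
  have h8 : a' * G d - G d * a = 0 := h7
  exact sub_eq_zero.1 h8

end Vale.Agent.Lib.P199
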