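import Vale.Agent.Lib.P199.Centralizer

/-!
# The double centraliser property for finite-dimensional subalgebras of a division ring
-/

namespace Vale.Agent.Lib.P199

open Submodule Module

variable {k D : Type*} [Field k] [DivisionRing D] [Algebra k D]

open Classical in
/-- Descent step for the independence of the maps `x ↦ a i * x * d`. -/
theorem exists_central_aux {ι : Type*} [Fintype ι] (a : ι → D) :
    ∀ (N : ℕ) (y : ι → D), y ≠ 0 → (∀ x, ∑ j, a j * x * y j = 0) →
      (Finset.univ.filter (fun j => y j ≠ 0)).card = N →
      ∃ z : ι → D, z ≠ 0 ∧ (∀ x, ∑ j, a j * x * z j = 0) ∧ ∀ j, ∀ s, s * z j = z j * s := by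
  classical
  intro N
  induction N using Nat.strong_induction_on with
  | _ N ih =>
    intro y hy hP hN
    obtain ⟨j0, hj0⟩ : ∃ j, y j ≠ 0 := by
      by_contra h
      push Not at h
      exact hy (funext h)
    set y' : ι → D := fun j => y j * (y j0)⁻¹ with hy'
    have hy'0 : y' j0 = 1 := mul_inv_cancel₀ hj0
    have hP' : ∀ x, ∑ j, a j * x * y' j = 0 := by
      intro x
      have := hP x
      simp only [hy', ← mul_assoc]
      rw [← Finset.sum_mul, this, zero_mul]
    have hsupp' : ∀ j, y' j ≠ 0 → y j ≠ 0 := by
      intro j hj h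
      apply hj
      simp [hy', h]
    by_cases hc : ∀ j, ∀ s, s * y' j = y' j * s
    · refine ⟨y', ?_, hP', hc⟩
      intro h
      have := congrFun h j0
      rw [hy'0] at this
      exact one_ne_zero this
    · push Not at hc
      obtain ⟨j1, s, hne⟩ := hc
      set w : ι → D := fun j => y' j * s - s * y' j with hw
      have hw1 : w j1 ≠ 0 := by
        intro h
        exact hne (sub_eq_zero.1 h).symm
      have hw0 : w j0 = 0 := by
        simp [hw, hy'0]
      have hPw : ∀ x, ∑ j, a j * x * w j = 0 := by
        intro x
        have h1 := hP' x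
        have h2 := hP' (x * s)
        have h3 : ∑ j, a j * x * (y' j * s) = (∑ j, a j * x * y' j) * s := by
          rw [Finset.sum_mul]
          refine Finset.sum_congr rfl fun j _ => ?_
          simp only [mul_assoc]
        have h4 : ∑ j, a j * x * (s * y' j) = ∑ j, a j * (x * s) * y' j := by
          refine Finset.sum_congr rfl fun j _ => ?_
          simp only [mul_assoc]
        simp only [hw, mul_sub]
        rw [Finset.sum_sub_distrib, h3, h1, h4, h2, zero_mul, sub_zero]
      have hcard : (Finset.univ.filter (fun j => w j ≠ 0)).card < N := by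
        rw [← hN]
        apply Finset.card_lt_card
        rw [Finset.ssubset_iff_of_subset]
        · exact ⟨j0, by simp [hj0], by simp [hw0]⟩
        · intro j hj
          simp only [Finset.mem_filter, Finset.mem_univ, true_and] at hj ⊢
          apply hsupp'
          intro h
          apply hj
          simp [hw, h]
      exact ih _ hcard w (fun h => hw1 (congrFun h j1)) hPw rfl

/-- If `k` is the whole centre of `D` and the `a i` are linearly independent over `k`, the maps
`x ↦ a i * x` are right linearly independent over `D`. -/
theorem eq_zero_of_forall_sum_eq_zero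
    (hcen : ∀ c : D, (∀ d, d * c = c * d) → c ∈ Set.range (algebraMap k D))
    {ι : Type*} [Fintype ι] (a : ι → D) (ha : LinearIndependent k a) (d : ι → D)
    (h : ∀ x, ∑ j, a j * x * d j = 0) : d = 0 := by
  classical
  by_contra hd
  obtain ⟨z, hz0, hzP, hzc⟩ := exists_central_aux a _ d hd h rfl
  choose r hr using fun j => hcen (z j) (hzc j)
  rw [Fintype.linearIndependent_iff] at ha
  have h1 := hzP 1
  have h2 : ∑ j, r j • a j = 0 := by
    rw [← h1]
    refine Finset.sum_congr rfl fun j _ => ?_
    rw [mul_one, ← hr j, Algebra.smul_def, Algebra.commutes]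
  apply hz0
  funext j
  rw [← hr j, ha r h2 j, map_zero]
  rfl

/-- Double centraliser property: if `k` is the whole centre of `D`, `A` is a finite-dimensional
subalgebra and `z` commutes with the centraliser of `A`, then `z ∈ A`. -/
theorem mem_of_commute_centralizer
    (hcen : ∀ c : D, (∀ d, d * c = c * d) → c ∈ Set.range (algebraMap k D))
    (A : Subalgebra k D) [FiniteDimensional k A] (z : D)
    (hzC : ∀ c, (∀ a ∈ A, a * c = c * a) → z * c = c * z) : z ∈ A := by
  classical
  by_contra hz
  set n := finrank k A with hn
  let b := Module.finBasis k A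
  let a : Fin (n + 1) → D := Fin.cons z (fun i => ((b i : A) : D))
  have hspan : span k (Set.range (fun i => ((b i : A) : D))) = Subalgebra.toSubmodule A := by
    have h1 : (fun i => ((b i : A) : D)) = (Subalgebra.toSubmodule A).subtype ∘ b := rfl
    rw [h1, Set.range_comp, Submodule.span_image, b.span_eq, Submodule.map_top,
      Submodule.range_subtype]
  have ha : LinearIndependent k a := by
    rw [linearIndependent_finCons]
    refine ⟨?_, ?_⟩
    · exact b.linearIndependent.map' (Subalgebra.toSubmodule A).subtype
        (Submodule.ker_subtype _)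
    · rw [hspan]
      exact hz
  set C := centSubfield (A : Set D) with hC
  have hac : ∀ i, ∀ c : C, a i * (c : D) = (c : D) * a i := by
    intro i c
    have hc := mem_centSubfield.1 c.2
    refine Fin.cases ?_ (fun i => ?_) i
    · exact hzC c (fun a ha => hc a ha)
    · exact hc _ (b i).2
  have hrank := rank_centSubfield_le A
  have hfin : Module.Finite C D := by
    rw [← Module.rank_lt_aleph0_iff]
    exact lt_of_le_of_lt hrank (Cardinal.natCast_lt_aleph0)
  have hm : finrank C D ≤ n := Module.finrank_le_of_rank_le hrank
  let xb := Module.finBasis C D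
  let φ : (Fin (n + 1) → Dᵐᵒᵖ) →ₗ[Dᵐᵒᵖ] (Fin (finrank C D) → Dᵐᵒᵖ) :=
    LinearMap.pi (fun j => Fintype.linearCombination Dᵐᵒᵖ
      (fun i => MulOpposite.op (a i * xb j)))
  have hker : LinearMap.ker φ ≠ ⊥ := by
    apply LinearMap.ker_ne_bot_of_finrank_lt
    rw [Module.finrank_fintype_fun_eq_card, Module.finrank_fintype_fun_eq_card, Fintype.card_fin,
      Fintype.card_fin]
    omega
  obtain ⟨y, hyker, hy0⟩ := Submodule.exists_mem_ne_zero_of_ne_bot hker
  let d : Fin (n + 1) → D := fun i => MulOpposite.unop (y i)
  have hyb : ∀ j, ∑ i, a i * xb j * d i = 0 := by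
    intro j
    have h1 := congrFun (LinearMap.mem_ker.1 hyker) j
    have h2 : ∑ i, y i * MulOpposite.op (a i * xb j) = 0 := by
      simpa [φ, Fintype.linearCombination_apply] using h1
    have h3 := congrArg MulOpposite.unop h2
    simpa [d] using h3
  have hall : ∀ x, ∑ i, a i * x * d i = 0 := by
    intro x
    have hx : x = ∑ j, ((xb.repr x j : C) : D) * xb j := by
      conv_lhs => rw [← xb.sum_repr x]
      rfl
    rw [hx]
    simp only [Finset.mul_sum, Finset.sum_mul]
    rw [Finset.sum_comm]
    refine Finset.sum_eq_zero fun j _ => ?_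
    have h4 : ∀ i, a i * (((xb.repr x j : C) : D) * xb j) * d i =
        ((xb.repr x j : C) : D) * (a i * xb j * d i) := by
      intro i
      rw [← mul_assoc (a i), hac i, mul_assoc, mul_assoc, mul_assoc]
    simp only [h4]
    rw [← Finset.mul_sum, hyb j, mul_zero]
  have hd0 := eq_zero_of_forall_sum_eq_zero hcen a ha d hall
  apply hy0
  funext i
  have := congrFun hd0 i
  exact MulOpposite.unop_injective this

end Vale.Agent.Lib.P199
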