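import Mathlib

namespace Vale.Agent.Lib.P199

universe u

/-- Day's class of elementary amenable groups: the smallest class of groups containing all finite
groups and all abelian groups and closed under subgroups, homomorphic images, group extensions and
directed unions. -/
inductive ElemAmenable : (G : Type u) → [Group G] → Prop
  | of_finite (G : Type u) [Group G] [Finite G] : ElemAmenable G
  | of_comm (G : Type u) [Group G] (h : ∀ a b : G, a * b = b * a) : ElemAmenable G
  | of_subgroup (G : Type u) [Group G] (H : Subgroup G) : ElemAmenable G → ElemAmenable H
  | of_surjective (G G' : Type u) [Group G] [Group G'] (f : G →* G')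
      (hf : Function.Surjective f) : ElemAmenable G → ElemAmenable G'
  | of_extension (G : Type u) [Group G] (N : Subgroup G) [N.Normal] :
      ElemAmenable N → ElemAmenable (G ⧸ N) → ElemAmenable G
  | of_directedUnion (G : Type u) [Group G] (ι : Type u) [Nonempty ι] (H : ι → Subgroup G)
      (hd : Directed (· ≤ ·) H) (hU : ∀ g : G, ∃ i, g ∈ H i) :
      (∀ i, ElemAmenable (H i)) → ElemAmenable G

end Vale.Agent.Lib.P199
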