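import Vale.Agent.Lib.P199.Groups
import Vale.Agent.Lib.P199.EADef

/-!
# Elementary amenable groups of units generate locally finite subalgebras
-/

namespace Vale.Agent.Lib.P199

open Submodule
open scoped commutatorElement

universe u v w

variable (F : Type w) (D : Type v) [Field F] [DivisionRing D] [Algebra F D]

/-- The transfer property: for every correspondence `R ≤ Dˣ × Q`, local finiteness passes from the
algebra generated by `{u | (u, 1) ∈ R}` to the algebra generated by the first projection of `R`. -/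
def Transfer (Q : Type u) [Group Q] : Prop :=
  ∀ R : Subgroup (Dˣ × Q), LocFin (alg F (R.comap (MonoidHom.inl Dˣ Q))) →
    LocFin (alg F (R.map (MonoidHom.fst Dˣ Q)))

variable {F D}

theorem transfer_of_surjective {Q Q' : Type u} [Group Q] [Group Q'] (f : Q →* Q')
    (hf : Function.Surjective f) (h : Transfer F D Q) : Transfer F D Q' := by
  intro R hR
  have h1 := h (R.comap (MonoidHom.prodMap (MonoidHom.id Dˣ) f)) (by
    refine hR.mono (alg_mono ?_)
    intro u hu
    simpa [Subgroup.mem_comap] using hu)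
  refine h1.mono (alg_mono ?_)
  rintro _ ⟨⟨u, q'⟩, hq, rfl⟩
  obtain ⟨q, rfl⟩ := hf q'
  exact ⟨(u, q), by simpa [Subgroup.mem_comap] using hq, rfl⟩

theorem transfer_of_injective {Q Q' : Type u} [Group Q] [Group Q'] (f : Q' →* Q)
    (hf : Function.Injective f) (h : Transfer F D Q) : Transfer F D Q' := by
  intro R hR
  have h1 := h (R.map (MonoidHom.prodMap (MonoidHom.id Dˣ) f)) (by
    refine hR.mono (alg_mono ?_)
    intro u hu
    rw [Subgroup.mem_comap] at hu ⊢
    obtain ⟨⟨u', q'⟩, hq, he⟩ := hu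
    have he1 : u' = u := congrArg Prod.fst he
    have he2 : f q' = 1 := congrArg Prod.snd he
    subst he1
    have : q' = 1 := hf (by rw [he2, map_one])
    subst this
    exact hq)
  refine h1.mono (alg_mono ?_)
  rintro _ ⟨⟨u, q'⟩, hq, rfl⟩
  exact ⟨(u, f q'), ⟨(u, q'), hq, rfl⟩, rfl⟩

variable [Algebra.IsAlgebraic F D]

theorem transfer_of_comm {Q : Type u} [Group Q] (hQ : ∀ a b : Q, a * b = b * a) :
    Transfer F D Q := by
  intro R hR
  refine locFin_alg_of_commutator_le ?_ ?_ hR
  · intro u hu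
    exact ⟨(u, 1), hu, rfl⟩
  · rw [Subgroup.commutator_le]
    rintro _ ⟨⟨u, q⟩, hq, rfl⟩ _ ⟨⟨u', q'⟩, hq', rfl⟩
    rw [Subgroup.mem_comap]
    have h1 : ⁅((u, q) : Dˣ × Q), (u', q')⁆ ∈ R := by
      rw [commutatorElement_def]
      exact R.mul_mem (R.mul_mem (R.mul_mem hq hq') (R.inv_mem hq)) (R.inv_mem hq')
    have h2 : ⁅((u, q) : Dˣ × Q), (u', q')⁆ = (⁅u, u'⁆, 1) := by
      rw [commutatorElement_def, commutatorElement_def]
      ext
      · simp
      · simp only [Prod.mk_mul_mk, Prod.inv_mk]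
        rw [hQ q q', mul_assoc, mul_assoc, mul_inv_cancel_left, mul_inv_cancel]
    rw [h2] at h1
    exact h1

omit [Algebra.IsAlgebraic F D] in
theorem transfer_of_finite {Q : Type u} [Group Q] [Finite Q] : Transfer F D Q := by
  classical
  intro R hR
  cases nonempty_fintype Q
  -- choose representatives
  have hrep : ∀ q : Q, ∃ u : Dˣ, (∃ u', (u', q) ∈ R) → (u, q) ∈ R := by
    intro q
    by_cases h : ∃ u', (u', q) ∈ R
    · obtain ⟨u', hu'⟩ := h
      exact ⟨u', fun _ => hu'⟩
    · exact ⟨1, fun h' => absurd h' h⟩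
  choose r hr using hrep
  set G := R.map (MonoidHom.fst Dˣ Q) with hG
  -- use only representatives of classes that occur
  set I : Finset Q := Finset.univ.filter (fun q => ∃ u', (u', q) ∈ R) with hI
  set X : Submodule F D := span F ((I.image (fun q => ((r q : Dˣ) : D)) : Finset D) : Set D)
    with hX
  refine hR.of_le_mul X (fg_span (Finset.finite_toSet _)) ?_ ?_
  · rw [hX, span_le]
    intro x hx
    simp only [Finset.coe_image, Set.mem_image, Finset.mem_coe] at hx
    obtain ⟨q, hq, rfl⟩ := hx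
    rw [hI, Finset.mem_filter] at hq
    exact mem_alg ⟨(r q, q), hr q hq.2, rfl⟩
  · -- `alg F G` is spanned by `G`
    have hspan : Subalgebra.toSubmodule (alg F G) = span F (Units.val '' (G : Set Dˣ)) := by
      rw [alg, Algebra.adjoin_eq_span]
      congr 1
      have : (Units.val '' (G : Set Dˣ)) = ((G.toSubmonoid.map (Units.coeHom D) : Submonoid D) : Set D) := by
        ext x
        simp
      rw [this, Submonoid.closure_eq]
    rw [hspan, span_le]
    rintro _ ⟨_, ⟨⟨u, q⟩, huq, rfl⟩, rfl⟩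
    have hq : ∃ u', (u', q) ∈ R := ⟨u, huq⟩
    have h1 : (u * (r q)⁻¹, (1 : Q)) ∈ R := by
      have := R.mul_mem huq (R.inv_mem (hr q hq))
      simpa using this
    have h2 : ((u : Dˣ) : D) = ((u * (r q)⁻¹ : Dˣ) : D) * ((r q : Dˣ) : D) := by
      rw [← Units.val_mul, inv_mul_cancel_right]
    change ((u : Dˣ) : D) ∈ _
    rw [h2]
    refine Submodule.mul_mem_mul (mem_alg h1) (subset_span ?_)
    simp only [Finset.coe_image, Set.mem_image, Finset.mem_coe]
    exact ⟨q, by rw [hI, Finset.mem_filter]; exact ⟨Finset.mem_univ _, hq⟩, rfl⟩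

omit [Algebra.IsAlgebraic F D] in
theorem transfer_of_extension {Q : Type u} [Group Q] (M : Subgroup Q) [M.Normal]
    (hM : Transfer F D M) (hQM : Transfer F D (Q ⧸ M)) : Transfer F D Q := by
  intro R hR
  have h1 := hM (R.comap (MonoidHom.prodMap (MonoidHom.id Dˣ) M.subtype)) (by
    refine hR.mono (alg_mono ?_)
    intro u hu
    simpa [Subgroup.mem_comap] using hu)
  have h2 := hQM (R.map (MonoidHom.prodMap (MonoidHom.id Dˣ) (QuotientGroup.mk' M))) (by
    refine h1.mono (alg_mono ?_)
    intro u hu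
    rw [Subgroup.mem_comap] at hu
    obtain ⟨⟨u', q⟩, hq, he⟩ := hu
    have he1 : u' = u := congrArg Prod.fst he
    have he2 : (q : Q ⧸ M) = 1 := congrArg Prod.snd he
    subst he1
    rw [QuotientGroup.eq_one_iff] at he2
    exact ⟨(u', ⟨q, he2⟩), by simpa [Subgroup.mem_comap] using hq, rfl⟩)
  refine h2.mono (alg_mono ?_)
  rintro _ ⟨⟨u, q⟩, hq, rfl⟩
  exact ⟨(u, QuotientGroup.mk' M q), ⟨(u, q), hq, rfl⟩, rfl⟩

omit [Algebra.IsAlgebraic F D] in
theorem transfer_of_directedUnion {Q : Type u} [Group Q] {ι : Type*} [Nonempty ι]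
    (H : ι → Subgroup Q) (hd : Directed (· ≤ ·) H) (hU : ∀ g : Q, ∃ i, g ∈ H i)
    (hH : ∀ i, Transfer F D (H i)) : Transfer F D Q := by
  classical
  intro R hR
  have h1 : ∀ i, LocFin (alg F ((R.comap (MonoidHom.prodMap (MonoidHom.id Dˣ)
      (H i).subtype)).map (MonoidHom.fst Dˣ (H i)))) := by
    intro i
    refine hH i _ (hR.mono (alg_mono ?_))
    intro u hu
    simpa [Subgroup.mem_comap] using hu
  apply locFin_adjoin_of_finite
  intro S hS
  -- every element of `S` comes from some `(u, q) ∈ R`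
  have : ∀ x : S, ∃ p : Dˣ × Q, p ∈ R ∧ ((p.1 : Dˣ) : D) = x := by
    intro x
    obtain ⟨_, ⟨p, hp, rfl⟩, hux⟩ := hS x.2
    exact ⟨p, hp, hux⟩
  choose p hp hpx using this
  choose j hj using fun x : S => hU (p x).2
  obtain ⟨i, hi⟩ := hd.finset_le (Finset.univ.image j)
  refine ⟨_, h1 i, ?_⟩
  intro x hx
  have hmem : (p ⟨x, hx⟩).2 ∈ H i :=
    hi (j ⟨x, hx⟩) (Finset.mem_image_of_mem _ (Finset.mem_univ _)) (hj ⟨x, hx⟩)
  have hx' : x = (((p ⟨x, hx⟩).1 : Dˣ) : D) := (hpx ⟨x, hx⟩).symm
  rw [hx']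
  refine mem_alg ⟨((p ⟨x, hx⟩).1, ⟨(p ⟨x, hx⟩).2, hmem⟩), ?_, rfl⟩
  simpa [Subgroup.mem_comap] using hp ⟨x, hx⟩

theorem transfer_of_elemAmenable {Q : Type u} [Group Q] (hQ : ElemAmenable Q) :
    Transfer F D Q := by
  induction hQ with
  | of_finite G => exact transfer_of_finite
  | of_comm G h => exact transfer_of_comm h
  | of_subgroup G H _ ih => exact transfer_of_injective H.subtype H.subtype_injective ih
  | of_surjective G G' f hf _ ih => exact transfer_of_surjective f hf ih
  | of_extension G N _ _ ih1 ih2 => exact transfer_of_extension N ih1 ih2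
  | of_directedUnion G ι H hd hU _ ih => exact transfer_of_directedUnion H hd hU ih

/-- The algebra generated by an elementary amenable group of units of an algebraic division
algebra is locally finite. -/
theorem locFin_alg_of_elemAmenable (G : Subgroup Dˣ) (hG : ElemAmenable G) :
    LocFin (alg F G) := by
  have h := transfer_of_elemAmenable (F := F) (D := D) hG
    ((G.subtype.prod (MonoidHom.id G)).range) (by
      have : (G.subtype.prod (MonoidHom.id G)).range.comap (MonoidHom.inl Dˣ G) = ⊥ := by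
        rw [eq_bot_iff]
        intro u hu
        rw [Subgroup.mem_comap] at hu
        obtain ⟨g, hg⟩ := hu
        simp only [MonoidHom.prod_apply, Subgroup.subtype_apply, MonoidHom.id_apply,
          MonoidHom.inl_apply, Prod.mk.injEq] at hg
        obtain ⟨h1, h2⟩ := hg
        rw [Subgroup.mem_bot, ← h1, h2]
        rfl
      rw [this, alg_bot]
      exact locFin_bot)
  refine h.mono (alg_mono ?_)
  intro u hu
  exact ⟨(u, ⟨u, hu⟩), ⟨⟨u, hu⟩, rfl⟩, rfl⟩

end Vale.Agent.Lib.P199
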