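import Vale.Agent.Lib.P199.LocFin

/-!
# The divided-difference operator attached to an algebraic element
-/

namespace Vale.Agent.Lib.P199

open Polynomial

variable {k A : Type*} [Field k] [Ring A] [Algebra k A]

/-- `gOp p κ d = ∑_m p_m ∑_{i<m} κ^i d κ^(m-1-i)`. -/
noncomputable def gOp (p : k[X]) (κ : A) : Module.End k A :=
  ∑ m ∈ Finset.range (p.natDegree + 1), p.coeff m •
    ∑ i ∈ Finset.range m, (LinearMap.mulLeft k κ) ^ i * (LinearMap.mulRight k κ) ^ (m - 1 - i)

theorem gOp_apply (p : k[X]) (κ d : A) :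
    gOp p κ d = ∑ m ∈ Finset.range (p.natDegree + 1), p.coeff m •
      ∑ i ∈ Finset.range m, κ ^ i * (d * κ ^ (m - 1 - i)) := by
  simp only [gOp, LinearMap.sum_apply, LinearMap.smul_apply, Module.End.mul_apply,
    LinearMap.pow_mulLeft, LinearMap.pow_mulRight, LinearMap.mulLeft_apply,
    LinearMap.mulRight_apply]

theorem mul_gOp_sub (p : k[X]) (κ d : A) :
    κ * gOp p κ d - gOp p κ d * κ = aeval κ p * d - d * aeval κ p := by
  set L : Module.End k A := LinearMap.mulLeft k κ with hL
  set R : Module.End k A := LinearMap.mulRight k κ with hR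
  have hLR : Commute L R := LinearMap.commute_mulLeft_right κ κ
  have h1 : (L - R) * gOp p κ =
      ∑ m ∈ Finset.range (p.natDegree + 1), p.coeff m • (L ^ m - R ^ m) := by
    simp only [gOp, Finset.mul_sum, mul_smul_comm]
    refine Finset.sum_congr rfl fun m _ => ?_
    rw [← Finset.mul_sum, hLR.mul_geom_sum₂]
  have h2 : ((L - R) * gOp p κ) d = κ * gOp p κ d - gOp p κ d * κ := rfl
  rw [← h2, h1]
  simp only [LinearMap.sum_apply, LinearMap.smul_apply, LinearMap.sub_apply, L, R,
    LinearMap.pow_mulLeft, LinearMap.pow_mulRight, LinearMap.mulLeft_apply,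
    LinearMap.mulRight_apply, smul_sub, Finset.sum_sub_distrib]
  have e1 : ∑ m ∈ Finset.range (p.natDegree + 1), p.coeff m • (κ ^ m * d) = aeval κ p * d := by
    rw [aeval_eq_sum_range, Finset.sum_mul]
    exact Finset.sum_congr rfl fun m _ => (smul_mul_assoc _ _ _).symm
  have e2 : ∑ m ∈ Finset.range (p.natDegree + 1), p.coeff m • (d * κ ^ m) = d * aeval κ p := by
    rw [aeval_eq_sum_range, Finset.mul_sum]
    exact Finset.sum_congr rfl fun m _ => (mul_smul_comm _ _ _).symm
  rw [e1, e2]

theorem mul_gOp_comm {p : k[X]} {κ : A} (h : aeval κ p = 0) (d : A) :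
    κ * gOp p κ d = gOp p κ d * κ := by
  have := mul_gOp_sub p κ d
  rw [h, zero_mul, mul_zero, sub_zero] at this
  exact sub_eq_zero.1 this

theorem gOp_mul_left (p : k[X]) {κ c : A} (hc : κ * c = c * κ) (d : A) :
    gOp p κ (c * d) = c * gOp p κ d := by
  rw [gOp_apply, gOp_apply, Finset.mul_sum]
  refine Finset.sum_congr rfl fun m _ => ?_
  rw [mul_smul_comm, Finset.mul_sum]
  congr 1
  refine Finset.sum_congr rfl fun i _ => ?_
  have h : Commute (κ ^ i) c := (show Commute κ c from hc).pow_left i
  rw [mul_assoc c, ← mul_assoc (κ ^ i) c, h.eq, mul_assoc]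

theorem gOp_of_comm (p : k[X]) {κ d : A} (hd : κ * d = d * κ) :
    gOp p κ d = d * aeval κ (derivative p) := by
  rw [gOp_apply, derivative_apply, Polynomial.sum_over_range _ (by intro n; simp), map_sum,
    Finset.mul_sum]
  refine Finset.sum_congr rfl fun m _ => ?_
  have h1 : ∀ i ∈ Finset.range m, κ ^ i * (d * κ ^ (m - 1 - i)) = d * κ ^ (m - 1) := by
    intro i hi
    have hi' : i < m := Finset.mem_range.1 hi
    have h : Commute (κ ^ i) d := (show Commute κ d from hd).pow_left i
    rw [← mul_assoc, h.eq, mul_assoc, ← pow_add]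
    congr 2
    omega
  rw [Finset.sum_congr rfl h1, Finset.sum_const, Finset.card_range]
  rw [map_mul, aeval_C, map_pow, aeval_X, map_mul, map_natCast, Algebra.algebraMap_eq_smul_one,
    smul_mul_assoc, one_mul, smul_mul_assoc, mul_smul_comm, nsmul_eq_mul]
  congr 1
  rw [← mul_assoc, ← mul_assoc, (Nat.cast_commute m d).eq]

theorem gOp_mem (p : k[X]) {κ d : A} (B : Subalgebra k A) (hκ : κ ∈ B) (hd : d ∈ B) :
    gOp p κ d ∈ B := by
  rw [gOp_apply]
  refine B.sum_mem fun m _ => B.smul_mem (B.sum_mem fun i _ => ?_) _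
  exact B.mul_mem (B.pow_mem hκ _) (B.mul_mem hd (B.pow_mem hκ _))

theorem map_gOp {A' : Type*} [Ring A'] [Algebra k A'] (φ : A →ₐ[k] A') (p : k[X]) (κ d : A) :
    φ (gOp p κ d) = gOp p (φ κ) (φ d) := by
  rw [gOp_apply, gOp_apply]
  simp only [map_sum, map_smul, map_mul, map_pow]

/-- For a separable annihilating polynomial, `p'(κ)` is invertible inside `k[κ]`. -/
theorem exists_aeval_mul_derivative_eq_one {p : k[X]} (hp : p.Separable) {κ : A}
    (h : aeval κ p = 0) : ∃ b : k[X], aeval κ (derivative p) * aeval κ b = 1 := by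
  obtain ⟨a, b, hab⟩ := hp
  refine ⟨b, ?_⟩
  have := congrArg (aeval κ) hab
  rw [map_add, map_mul, map_mul, h, mul_zero, zero_add, map_one] at this
  rw [← map_mul, mul_comm, map_mul]
  exact this

theorem comm_aeval {κ c : A} (hc : κ * c = c * κ) (b : k[X]) :
    aeval κ b * c = c * aeval κ b := by
  have : Commute (aeval κ b) c := by
    induction b using Polynomial.induction_on' with
    | add p q hp hq => rw [map_add]; exact hp.add_left hq
    | monomial n a =>
      rw [aeval_monomial]
      exact (show Commute (algebraMap k A a) c from Algebra.commutes a c).mul_left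
        ((show Commute κ c from hc).pow_left n)
  exact this.eq

end Vale.Agent.Lib.P199
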