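import Vale.Agent.Lib.P199.SepMax
import Vale.Agent.Lib.P199.DoubleCent

/-!
# A finite-dimensional division algebra is generated, over its centre, by a maximal separable
element and one commutator
-/

namespace Vale.Agent.Lib.P199

open Polynomial Module

section gop

variable {k A : Type*} [Field k] [Ring A] [Algebra k A]

theorem gOp_mul_right (p : k[X]) {κ c : A} (hc : κ * c = c * κ) (d : A) :
    gOp p κ (d * c) = gOp p κ d * c := by
  rw [gOp_apply, gOp_apply, Finset.sum_mul]
  refine Finset.sum_congr rfl fun m _ => ?_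
  rw [smul_mul_assoc, Finset.sum_mul]
  congr 1
  refine Finset.sum_congr rfl fun i _ => ?_
  have h : Commute (κ ^ (m - 1 - i)) c := (show Commute κ c from hc).pow_left _
  rw [mul_assoc d, ← h.eq, mul_assoc, mul_assoc]

/-- The operator attached to `κ` kills commutators with `κ`. -/
theorem gOp_commutator {p : k[X]} {κ : A} (h : aeval κ p = 0) (d : A) :
    gOp p κ (κ * d - d * κ) = 0 := by
  rw [map_sub, gOp_mul_left p rfl, gOp_mul_right p rfl, mul_gOp_sub, h, zero_mul, mul_zero,
    sub_zero]

end gop

section dec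

variable {k E : Type*} [Field k] [Ring E] [Algebra k E] [FiniteDimensional k E]

/-- `E = C(κ) + [κ, E]` for a separable element `κ` of a finite-dimensional algebra. -/
theorem exists_decomposition_commutator {p : k[X]} (hp : p.Separable) {κ : E}
    (hp0 : aeval κ p = 0) (d : E) :
    ∃ a w, κ * a = a * κ ∧ d = a + (κ * w - w * κ) := by
  obtain ⟨b, hb⟩ := exists_aeval_mul_derivative_eq_one hp hp0
  set T : E →ₗ[k] E := LinearMap.mulLeft k κ - LinearMap.mulRight k κ with hT
  have hTapp : ∀ y, T y = κ * y - y * κ := fun y => rfl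
  have hinf : LinearMap.ker T ⊓ LinearMap.range T = ⊥ := by
    rw [eq_bot_iff]
    rintro y ⟨hy1, ⟨w, rfl⟩⟩
    have h1 : κ * T w = T w * κ := by
      have := LinearMap.mem_ker.1 hy1
      rw [hTapp] at this
      exact sub_eq_zero.1 this
    have h2 : gOp p κ (T w) = T w * aeval κ (derivative p) := gOp_of_comm p h1
    rw [hTapp w, gOp_commutator hp0, ← hTapp w] at h2
    have h3 : T w * aeval κ (derivative p) * aeval κ b = 0 := by rw [← h2, zero_mul]
    rw [mul_assoc, hb, mul_one] at h3
    rw [h3]
    exact Submodule.zero_mem _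
  have h1 := LinearMap.finrank_range_add_finrank_ker T
  have h2 := Submodule.finrank_sup_add_finrank_inf_eq (LinearMap.ker T) (LinearMap.range T)
  rw [hinf, finrank_bot, add_zero] at h2
  have htop : LinearMap.ker T ⊔ LinearMap.range T = ⊤ := by
    apply Submodule.eq_top_of_finrank_eq
    omega
  have hd : d ∈ LinearMap.ker T ⊔ LinearMap.range T := by rw [htop]; trivial
  obtain ⟨a, ha, y, ⟨w, rfl⟩, rfl⟩ := Submodule.mem_sup.1 hd
  refine ⟨a, w, ?_, rfl⟩
  have := LinearMap.mem_ker.1 ha
  rw [hTapp] at this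
  exact sub_eq_zero.1 this

end dec

section generic

variable {k E : Type*} [Field k] [Infinite k] [DivisionRing E] [Algebra k E]
  [FiniteDimensional k E]

/-- If `k[x]` is its own centraliser, `κ ∈ k[x]` is not central and `E = C(κ) + [κ, E]`, then `E`
is generated by `x` and one commutator `[κ, d]`. -/
theorem exists_generic_generator {x κ e : E}
    (hmax : ∀ c, c * x = x * c → c ∈ Algebra.adjoin k {x})
    (hdec : ∀ d, ∃ a w, κ * a = a * κ ∧ d = a + (κ * w - w * κ))
    (hne : κ * e ≠ e * κ) :
    ∃ d, Algebra.adjoin k {x, κ * d - d * κ} = ⊤ := by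
  classical
  set K := Algebra.adjoin k ({x} : Set E) with hK
  have hfin : {M : Subalgebra k E | M ≤ K}.Finite :=
    finite_le_adjoin_singleton x (Algebra.IsIntegral.isIntegral x)
  set T : E →ₗ[k] E := LinearMap.mulLeft k κ - LinearMap.mulRight k κ with hT
  have hTapp : ∀ y, T y = κ * y - y * κ := fun y => rfl
  let W : Submodule k E := LinearMap.range T
  obtain ⟨v, hvW, hv⟩ := exists_mem_forall_mem_imp_le W {M : Subalgebra k E | M ≤ K} hfin
    (fun M => Subalgebra.toSubmodule (Subalgebra.centralizer k (M : Set E)))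
  obtain ⟨d, rfl⟩ := hvW
  refine ⟨d, ?_⟩
  rw [← hTapp]
  have hxle : K ≤ Algebra.adjoin k {x, T d} := Algebra.adjoin_mono (by simp)
  have hw0 : T e ≠ 0 := by
    rw [hTapp]
    exact sub_ne_zero.2 hne
  apply eq_top_of_centralizer_le_center
  · intro z hz
    exact hxle (hmax z (hz x).symm)
  · intro c hc
    have hcx : Commute c x := (hc x (Algebra.subset_adjoin (by simp))).symm
    have hcv : Commute (T d) c := hc (T d) (Algebra.subset_adjoin (by simp))
    have hcK : c ∈ K := hmax c hcx.eq
    have hM : Algebra.adjoin k {c} ≤ K := Algebra.adjoin_le (by simpa using hcK)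
    have hvM : T d ∈ Subalgebra.toSubmodule
        (Subalgebra.centralizer k ((Algebra.adjoin k {c} : Subalgebra k E) : Set E)) := by
      rw [Subalgebra.mem_toSubmodule, Subalgebra.mem_centralizer_iff]
      intro m hm
      exact (Algebra.commute_of_mem_adjoin_singleton_of_commute hm hcv).eq.symm
    have hWM := hv _ hM hvM
    have hcW : ∀ w, c * T w = T w * c := by
      intro w
      have h1 : T w ∈ Subalgebra.toSubmodule
        (Subalgebra.centralizer k ((Algebra.adjoin k {c} : Subalgebra k E) : Set E)) :=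
        hWM ⟨w, rfl⟩
      rw [Subalgebra.mem_toSubmodule, Subalgebra.mem_centralizer_iff] at h1
      exact h1 c (Algebra.subset_adjoin rfl)
    have hcC : ∀ a, κ * a = a * κ → c * a = a * c := by
      intro a ha
      have h1 : a * T e = T (a * e) := by
        rw [hTapp, hTapp, mul_sub, ← mul_assoc, ← mul_assoc, ← mul_assoc, ha]
      have h2 := hcW (a * e)
      have h3 := hcW e
      apply mul_right_cancel₀ hw0
      rw [mul_assoc, h1, h2, ← h1, mul_assoc, ← h3, mul_assoc]
    intro y
    obtain ⟨a, w, ha, rfl⟩ := hdec y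
    rw [← hTapp, add_mul, mul_add, hcC a ha, hcW w]

end generic

section state

variable {k E : Type*} [Field k] [Infinite k] [DivisionRing E] [Algebra k E]
  [FiniteDimensional k E]

/-- Structure of a finite-dimensional division algebra relative to a separable noncentral
element `κ`. -/
theorem exists_state_typelevel (q : ℕ) [ExpChar k q] {κ e : E} (hκ : (minpoly k κ).Separable)
    (hne : κ * e ≠ e * κ) :
    ∃ x d : E, (minpoly k x).Separable ∧ κ ∈ Algebra.adjoin k {x} ∧
      (∀ c, c * x = x * c → ∃ n : ℕ, c ^ q ^ n ∈ Algebra.adjoin k {x}) ∧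
      ∀ S : Subalgebra k E, x ∈ S → κ * d - d * κ ∈ S →
        (∀ z, (∀ y, y * z = z * y) → z ∈ S) → S = ⊤ := by
  classical
  obtain ⟨x, hxsep, hκx, hmax⟩ := exists_maximal_separable κ hκ
  have hdec : ∀ d, ∃ a w, κ * a = a * κ ∧ d = a + (κ * w - w * κ) :=
    fun d => exists_decomposition_commutator hκ (minpoly.aeval k κ) d
  set Z := Subring.center E with hZdef
  let algkZ : Algebra k Z := ((algebraMap k E).codRestrict Z (fun r =>
    Subring.mem_center_iff.2 (fun g => (Algebra.commutes r g).symm))).toAlgebra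
  have tower : IsScalarTower k Z E := IsScalarTower.of_algebraMap_eq (fun _ => rfl)
  have finZ : FiniteDimensional Z E := FiniteDimensional.right k Z E
  have infZ : Infinite Z := Infinite.of_injective (algebraMap k Z) (algebraMap k Z).injective
  have hcenZ : ∀ c : E, (∀ d, d * c = c * d) → c ∈ Set.range (algebraMap Z E) := by
    intro c hc
    exact ⟨⟨c, Subring.mem_center_iff.2 hc⟩, rfl⟩
  have hmaxZ : ∀ c, c * x = x * c → c ∈ Algebra.adjoin Z ({x} : Set E) := by
    intro c hc
    apply mem_of_commute_centralizer hcenZ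
    intro c' hc'
    exact comm_of_maximal_separable hmax hc (hc' x (Algebra.subset_adjoin rfl)).symm
  obtain ⟨d, hd⟩ := exists_generic_generator (k := Z) hmaxZ hdec hne
  refine ⟨x, d, hxsep, hκx, fun c hc => exists_pow_mem_of_maximal_separable q hmax hc, ?_⟩
  intro S hxS hvS hZS
  let S' : Subalgebra Z E :=
    { S.toSubsemiring with
      algebraMap_mem' := fun z => hZS z (fun y => Subring.mem_center_iff.1 z.2 y) }
  have h1 : Algebra.adjoin Z {x, κ * d - d * κ} ≤ S' := by
    apply Algebra.adjoin_le
    intro y hy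
    rcases hy with rfl | rfl
    · exact hxS
    · exact hvS
  rw [hd] at h1
  rw [eq_top_iff]
  intro y _
  exact h1 (show y ∈ (⊤ : Subalgebra Z E) from trivial)

end state

section sub

variable {k D : Type*} [Field k] [Infinite k] [DivisionRing D] [Algebra k D]

/-- The same structure statement for a finite-dimensional subalgebra of a division ring. -/
theorem exists_state_sub (q : ℕ) [ExpChar k q] (B : Subalgebra k D) [FiniteDimensional k B]
    {κ e : D} (hκsep : (minpoly k κ).Separable) (hκ : κ ∈ B) (he : e ∈ B)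
    (hne : κ * e ≠ e * κ) :
    ∃ x d : D, x ∈ B ∧ d ∈ B ∧ (minpoly k x).Separable ∧ κ ∈ Algebra.adjoin k {x} ∧
      (∀ c ∈ B, c * x = x * c → ∃ n : ℕ, c ^ q ^ n ∈ Algebra.adjoin k {x}) ∧
      ∀ S : Subalgebra k D, x ∈ S → κ * d - d * κ ∈ S →
        (∀ z ∈ B, (∀ y ∈ B, y * z = z * y) → z ∈ S) → B ≤ S := by
  let dr : DivisionRing B := divisionRingOfFiniteDimensional k B
  have hmin : ∀ a : B, minpoly k a = minpoly k (a : D) := fun a =>
    (minpoly.algHom_eq B.val Subtype.val_injective a).symm
  obtain ⟨x, d, h1, h2, h3, h4⟩ := exists_state_typelevel (k := k) (E := B) q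
    (κ := ⟨κ, hκ⟩) (e := ⟨e, he⟩) (by rw [hmin]; exact hκsep)
    (fun h => hne (congrArg Subtype.val h))
  have hmap : ∀ y : B, y ∈ Algebra.adjoin k {x} → (y : D) ∈ Algebra.adjoin k {(x : D)} := by
    intro y hy
    have h5 : B.val y ∈ (Algebra.adjoin k {x}).map B.val := ⟨_, hy, rfl⟩
    rw [AlgHom.map_adjoin, Set.image_singleton] at h5
    exact h5
  refine ⟨x, d, x.2, d.2, by rw [← hmin]; exact h1, hmap _ h2, ?_, ?_⟩
  · intro c hc hcx
    obtain ⟨n, hn⟩ := h3 ⟨c, hc⟩ (Subtype.ext hcx)
    exact ⟨n, hmap _ hn⟩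
  · intro S hxS hvS hZS
    have h5 := h4 (S.comap B.val) hxS hvS (by
      intro z hz
      exact hZS z z.2 (fun y hy => congrArg Subtype.val (hz ⟨y, hy⟩)))
    intro y hy
    have : (⟨y, hy⟩ : B) ∈ S.comap B.val := by rw [h5]; trivial
    exact this

end sub

end Vale.Agent.Lib.P199
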