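import Vale.Agent.Lib.P199.LocFin

/-!
# Cartan-Brauer-Hua and the tame-element dichotomy
-/

namespace Vale.Agent.Lib.P199

open Submodule

section CBH

variable {D : Type*} [DivisionRing D]

/-- Cartan-Brauer-Hua: a proper division subring stable under all inner automorphisms is
central. -/
theorem cartan_brauer_hua (R : Subring D) (hinv : ∀ x ∈ R, x⁻¹ ∈ R)
    (hconj : ∀ x ∈ R, ∀ u : D, u ≠ 0 → u * x * u⁻¹ ∈ R) (hne : ∃ x, x ∉ R) :
    ∀ a ∈ R, ∀ y : D, a * y = y * a := by
  -- elements of `R` commute with elements outside `R`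
  have key : ∀ a ∈ R, ∀ x : D, x ∉ R → a * x = x * a := by
    intro a ha x hx
    have hx0 : x ≠ 0 := fun h => hx (h ▸ R.zero_mem)
    have hx1 : x + 1 ≠ 0 := by
      intro h
      apply hx
      have : x = -1 := eq_neg_of_add_eq_zero_left h
      rw [this]
      exact R.neg_mem R.one_mem
    set a₁ := x * a * x⁻¹ with ha₁
    set a₂ := (x + 1) * a * (x + 1)⁻¹ with ha₂
    have h₁ : a₁ ∈ R := hconj a ha x hx0
    have h₂ : a₂ ∈ R := hconj a ha (x + 1) hx1
    have e₁ : x * a = a₁ * x := by
      rw [ha₁, mul_assoc, inv_mul_cancel₀ hx0, mul_one]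
    have e₂ : (x + 1) * a = a₂ * (x + 1) := by
      rw [ha₂, mul_assoc, inv_mul_cancel₀ hx1, mul_one]
    have e₃ : (a₁ - a₂) * x = a₂ - a := by
      have : x * a + a = a₂ * x + a₂ := by
        have := e₂
        rw [add_mul, one_mul, mul_add, mul_one] at this
        exact this
      rw [sub_mul, ← e₁]
      rw [sub_eq_sub_iff_add_eq_add]
      rw [this, add_comm]
    by_cases h : a₁ = a₂
    · rw [h, sub_self, zero_mul] at e₃
      have h3 : a₂ = a := sub_eq_zero.1 e₃.symm
      rw [e₁, h, h3]
    · exfalso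
      apply hx
      have h4 : a₁ - a₂ ≠ 0 := sub_ne_zero.2 h
      have : x = (a₁ - a₂)⁻¹ * (a₂ - a) := by
        rw [← e₃, ← mul_assoc, inv_mul_cancel₀ h4, one_mul]
      rw [this]
      exact R.mul_mem (hinv _ (R.sub_mem h₁ h₂)) (R.sub_mem h₂ ha)
  obtain ⟨x, hx⟩ := hne
  intro a ha y
  by_cases hy : y ∈ R
  · have hxy : x + y ∉ R := by
      intro h
      apply hx
      have := R.sub_mem h hy
      rwa [add_sub_cancel_right] at this
    have h1 := key a ha x hx
    have h2 := key a ha (x + y) hxy
    rw [mul_add, add_mul, h1] at h2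
    exact add_left_cancel h2
  · exact key a ha y hy

end CBH

variable {k D : Type*} [Field k] [DivisionRing D] [Algebra k D]

variable (k) in
/-- `a` is tame over `k` if adjoining `a` to any finite-dimensional subalgebra gives a
finite-dimensional subalgebra. -/
def Tame (a : D) : Prop :=
  ∀ E : Subalgebra k D, (Subalgebra.toSubmodule E).FG →
    (Subalgebra.toSubmodule (E ⊔ Algebra.adjoin k {a})).FG

theorem Tame.of_mem {a b c : D} (ha : Tame k a) (hb : Tame k b)
    (hc : c ∈ Algebra.adjoin k {a} ⊔ Algebra.adjoin k {b}) : Tame k c := by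
  intro E hE
  have h1 := hb _ (ha E hE)
  refine Submodule.FG.of_le h1 (Subalgebra.toSubmodule.monotone ?_)
  refine sup_le (le_sup_of_le_left le_sup_left) ?_
  refine Algebra.adjoin_le ?_
  rintro _ rfl
  have : Algebra.adjoin k {a} ⊔ Algebra.adjoin k {b} ≤
      E ⊔ Algebra.adjoin k {a} ⊔ Algebra.adjoin k {b} :=
    sup_le (le_sup_of_le_left le_sup_right) le_sup_right
  exact this hc

theorem tame_algebraMap (r : k) : Tame k (algebraMap k D r) := by
  intro E hE
  have : E ⊔ Algebra.adjoin k {algebraMap k D r} = E := by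
    apply le_antisymm _ le_sup_left
    refine sup_le le_rfl (Algebra.adjoin_le ?_)
    rintro _ rfl
    exact E.algebraMap_mem r
  rwa [this]

/-- conjugation by a nonzero element as an algebra automorphism -/
def conjAlg (u : D) (hu : u ≠ 0) : D →ₐ[k] D where
  toFun x := u * x * u⁻¹
  map_one' := by simp [hu]
  map_mul' x y := by
    simp only [mul_assoc]
    rw [inv_mul_cancel_left₀ hu]
  map_zero' := by simp
  map_add' x y := by rw [mul_add, add_mul]
  commutes' r := by
    rw [← Algebra.commutes, mul_assoc, mul_inv_cancel₀ hu, mul_one]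

theorem Tame.conj {a : D} (ha : Tame k a) (u : D) (hu : u ≠ 0) : Tame k (u * a * u⁻¹) := by
  intro E hE
  have hu' : u⁻¹ ≠ 0 := inv_ne_zero hu
  have h1 : (Subalgebra.toSubmodule (E.map (conjAlg (k := k) u⁻¹ hu'))).FG := by
    have := hE.map (conjAlg (k := k) u⁻¹ hu').toLinearMap
    exact this
  have h2 := (ha _ h1).map (conjAlg (k := k) u hu).toLinearMap
  have h3 : (Subalgebra.toSubmodule (E.map (conjAlg (k := k) u⁻¹ hu') ⊔ Algebra.adjoin k {a})).map
      (conjAlg (k := k) u hu).toLinearMap =
      Subalgebra.toSubmodule (E ⊔ Algebra.adjoin k {u * a * u⁻¹}) := by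
    have h4 : (E.map (conjAlg (k := k) u⁻¹ hu') ⊔ Algebra.adjoin k {a}).map (conjAlg (k := k) u hu)
        = E ⊔ Algebra.adjoin k {u * a * u⁻¹} := by
      rw [Algebra.map_sup, AlgHom.map_adjoin, Set.image_singleton, Subalgebra.map_map]
      have h5 : (conjAlg (k := k) u hu).comp (conjAlg (k := k) u⁻¹ hu') = AlgHom.id k D := by
        ext x
        change u * (u⁻¹ * x * u⁻¹⁻¹) * u⁻¹ = x
        rw [inv_inv]
        simp only [mul_assoc]
        rw [mul_inv_cancel₀ hu, mul_one, mul_inv_cancel_left₀ hu]
      rw [h5, Subalgebra.map_id]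
      rfl
    rw [← h4]
    rfl
  rwa [h3] at h2

variable [Algebra.IsAlgebraic k D]

/-- The tame elements form a division subring. -/
def tameSubring : Subring D where
  carrier := {a | Tame k a}
  mul_mem' {a b} ha hb := ha.of_mem hb
    (Subalgebra.mul_mem _ ((le_sup_left : Algebra.adjoin k {a} ≤ _) (Algebra.subset_adjoin rfl))
      ((le_sup_right : Algebra.adjoin k {b} ≤ _) (Algebra.subset_adjoin rfl)))
  one_mem' := by simpa using tame_algebraMap (k := k) (D := D) 1
  add_mem' {a b} ha hb := ha.of_mem hb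
    (Subalgebra.add_mem _ ((le_sup_left : Algebra.adjoin k {a} ≤ _) (Algebra.subset_adjoin rfl))
      ((le_sup_right : Algebra.adjoin k {b} ≤ _) (Algebra.subset_adjoin rfl)))
  zero_mem' := by simpa using tame_algebraMap (k := k) (D := D) 0
  neg_mem' {a} ha := ha.of_mem ha
    (Subalgebra.neg_mem _ ((le_sup_left : Algebra.adjoin k {a} ≤ _) (Algebra.subset_adjoin rfl)))

/-- Dichotomy: if some noncentral element is tame then every element is tame. -/
theorem tame_of_exists_noncentral {a : D} (ha : Tame k a) {b : D} (hab : a * b ≠ b * a) (c : D) :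
    Tame k c := by
  by_contra hc
  have := cartan_brauer_hua (tameSubring (k := k) (D := D))
    (fun x hx => Tame.of_mem hx hx ((le_sup_left : Algebra.adjoin k {x} ≤ _)
      (Algebra.IsIntegral.isIntegral (R := k) x).inv_mem_adjoin))
    (fun x hx u hu => Tame.conj hx u hu) ⟨c, hc⟩ a ha b
  exact hab this

omit [Algebra.IsAlgebraic k D] in
/-- If all elements are tame then `D` is locally finite. -/
theorem fg_adjoin_of_forall_tame (h : ∀ c : D, Tame k c) (T : Finset D) :
    (Subalgebra.toSubmodule (Algebra.adjoin k (T : Set D))).FG := by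
  classical
  induction T using Finset.induction_on with
  | empty =>
    rw [Finset.coe_empty, Algebra.adjoin_empty, Algebra.toSubmodule_bot, Submodule.one_eq_span]
    exact Submodule.fg_span_singleton _
  | insert t T _ ih =>
    have := h t _ ih
    rwa [← Algebra.adjoin_union, Set.union_singleton, ← Finset.coe_insert] at this

end Vale.Agent.Lib.P199
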