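import Vale.Agent.Lib.P199.Dickson
import Vale.Agent.Lib.P199.Step
import Vale.Agent.Lib.P199.Tame

/-!
# A Jacobson-type commutativity theorem
-/

namespace Vale.Agent.Lib.P199

open Polynomial

universe u v

section comm

variable {k A : Type*} [Field k] [Ring A] [Algebra k A]

/-- A commutative integral subalgebra is locally finite. -/
theorem locFin_of_comm (C : Subalgebra k A) (hC : ∀ x ∈ C, ∀ y ∈ C, x * y = y * x)
    (hint : ∀ x ∈ C, IsIntegral k x) : LocFin C := by
  classical
  have key : ∀ T : Finset A, (T : Set A) ⊆ C → LocFin (Algebra.adjoin k (T : Set A)) := by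
    intro T
    induction T using Finset.induction_on with
    | empty =>
      intro _
      rw [Finset.coe_empty, Algebra.adjoin_empty]
      exact locFin_bot
    | insert t T _ ih =>
      intro hT
      have htC : t ∈ C := hT (by simp)
      have hTC : (T : Set A) ⊆ C := fun x hx => hT (by simp [Finset.mem_coe.1 hx])
      have h1 := (ih hTC).sup_adjoin_singleton (hint t htC) (by
        intro e he
        have heC : e ∈ C := Algebra.adjoin_le hTC he
        rw [hC t htC e heC]
        exact Submodule.mul_mem_mul he (Algebra.subset_adjoin rfl))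
      rwa [← Algebra.adjoin_union, Set.union_singleton, ← Finset.coe_insert] at h1
  intro T hT
  exact key T hT T Algebra.subset_adjoin

end comm

variable {k : Type u} [Field k] {D : Type v} [DivisionRing D] [Algebra k D]
  [Algebra.IsAlgebraic k D]

/-- If `b` conjugates `a` to another element `a'` of a commutative `k`-subalgebra `C` which is
mapped into itself by conjugation with `b`, then `k[a, b]` is finite-dimensional. -/
theorem fg_adjoin_pair_of_normalizes (C : Subalgebra k D)
    (hC : ∀ x ∈ C, ∀ y ∈ C, x * y = y * x) {a b : D} (ha : a ∈ C)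
    (hb : ∀ e ∈ C, ∃ e' ∈ C, b * e = e' * b) :
    (Subalgebra.toSubmodule (Algebra.adjoin k ({a, b} : Set D))).FG := by
  classical
  have h1 : LocFin C := locFin_of_comm C hC (fun x _ => Algebra.IsIntegral.isIntegral x)
  have h2 := h1.sup_adjoin_singleton (Algebra.IsIntegral.isIntegral (R := k) b) (by
    intro e he
    obtain ⟨e', he', h⟩ := hb e he
    rw [h]
    exact Submodule.mul_mem_mul he' (Algebra.subset_adjoin rfl))
  have h3 := h2 {a, b} (by
    intro x hx
    simp only [Finset.coe_insert, Finset.coe_singleton, Set.mem_insert_iff,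
      Set.mem_singleton_iff] at hx
    rcases hx with rfl | rfl
    · exact (le_sup_left : C ≤ _) ha
    · exact (le_sup_right : Algebra.adjoin k {x} ≤ _) (Algebra.subset_adjoin rfl))
  simpa using h3

/-- Key existence statement: if every finite extension of `k` is normal and `D` is not
commutative, there are noncommuting `a`, `b` generating a finite-dimensional subalgebra. -/
theorem exists_noncomm_fg_pair
    (hnorm : ∀ (L : Type u) [Field L] [Algebra k L] [FiniteDimensional k L], Normal k L)
    (hD : Subring.center D ≠ ⊤) :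
    ∃ a b : D, a * b ≠ b * a ∧
      (Subalgebra.toSubmodule (Algebra.adjoin k ({a, b} : Set D))).FG := by
  classical
  set Z := Subring.center D with hZ
  let algkZ : Algebra k Z := ((algebraMap k D).codRestrict Z (fun r =>
    Subring.mem_center_iff.2 (fun g => (Algebra.commutes r g).symm))).toAlgebra
  have tower : IsScalarTower k Z D := IsScalarTower.of_algebraMap_eq (fun _ => rfl)
  have algZ : Algebra.IsAlgebraic Z D := Algebra.IsAlgebraic.tower_top (K := k) Z
  obtain ⟨a, haZ, hasep⟩ := JacobsonNoether.exists_separable_and_not_isCentral D hD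
  have hint : IsIntegral Z a := Algebra.IsIntegral.isIntegral a
  set f := minpoly Z a with hf
  have hfirr : Irreducible f := minpoly.irreducible hint
  have : Fact (Irreducible f) := ⟨hfirr⟩
  have hfsep : f.Separable := hasep
  have hdeg : 2 ≤ f.natDegree := by
    have h1 : 0 < f.natDegree := minpoly.natDegree_pos hint
    have h2 : f.natDegree ≠ 1 := by
      intro h
      rw [hf, minpoly.natDegree_eq_one_iff] at h
      obtain ⟨z, hz⟩ := h
      apply haZ
      rw [← hz]
      exact z.2
    omega
  -- the abstract field `K = Z[X]/(f)` and its embedding into `D`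
  let K := AdjoinRoot f
  let ψ : K →ₐ[Z] D := Ideal.Quotient.liftₐ (Ideal.span {f}) (aeval a) (by
    intro p hp
    obtain ⟨q, rfl⟩ := Ideal.mem_span_singleton.1 hp
    rw [map_mul, hf, minpoly.aeval, zero_mul])
  have hψmk : ∀ p : Z[X], ψ (AdjoinRoot.mk f p) = aeval a p := fun p => rfl
  have hψinj : Function.Injective ψ := (ψ : K →+* D).injective
  set θ : K := AdjoinRoot.root f with hθ
  have hψθ : ψ θ = a := by
    rw [hθ, ← AdjoinRoot.mk_X, hψmk, aeval_X]
  -- the minimal polynomial over `k`
  have hintk : IsIntegral k a := Algebra.IsIntegral.isIntegral a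
  set f0 := minpoly k a with hf0
  have hf0irr : Irreducible f0 := minpoly.irreducible hintk
  have : Fact (Irreducible f0) := ⟨hf0irr⟩
  have hdvd : f ∣ f0.map (algebraMap k Z) := by
    apply minpoly.dvd
    rw [aeval_map_algebraMap, hf0, minpoly.aeval]
  -- `f0` splits in `L = k[X]/(f0)` by normality, hence in `K`
  have hLfin : FiniteDimensional k (AdjoinRoot f0) :=
    (AdjoinRoot.powerBasis hf0irr.ne_zero).finite
  have hLnorm : Normal k (AdjoinRoot f0) := hnorm (AdjoinRoot f0)
  have hsplitL : (f0.map (algebraMap k (AdjoinRoot f0))).Splits := by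
    have h1 := hLnorm.splits (AdjoinRoot.root f0)
    rw [AdjoinRoot.minpoly_root hf0irr.ne_zero, (minpoly.monic hintk).leadingCoeff, inv_one,
      map_one, mul_one] at h1
    exact h1
  have hθ0 : aeval θ f0 = 0 := by
    have h1 : aeval θ (f0.map (algebraMap k Z)) = 0 := by
      obtain ⟨q, hq⟩ := hdvd
      rw [hq, map_mul]
      have : aeval θ f = 0 := by
        rw [hθ, aeval_def, AdjoinRoot.algebraMap_eq, AdjoinRoot.eval₂_root]
      rw [this, zero_mul]
    rwa [aeval_map_algebraMap] at h1
  let φ : AdjoinRoot f0 →ₐ[k] K := AdjoinRoot.liftAlgHom f0 (Algebra.ofId k K) θ hθ0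
  have hsplitK0 : (f0.map (algebraMap k K)).Splits := by
    have h1 := hsplitL.map (φ : AdjoinRoot f0 →+* K)
    rw [Polynomial.map_map] at h1
    have h2 : (φ : AdjoinRoot f0 →+* K).comp (algebraMap k (AdjoinRoot f0)) = algebraMap k K :=
      φ.comp_algebraMap
    rwa [h2] at h1
  have hsplitK : (f.map (algebraMap Z K)).Splits := by
    refine Splits.of_dvd hsplitK0 ?_ ?_
    · exact (Polynomial.map_ne_zero hf0irr.ne_zero)
    · have h1 := Polynomial.map_dvd (algebraMap Z K) hdvd
      rwa [Polynomial.map_map, ← IsScalarTower.algebraMap_eq] at h1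
  -- a second root
  have hcard : Fintype.card (f.rootSet K) = f.natDegree :=
    card_rootSet_eq_natDegree hfsep hsplitK
  obtain ⟨θ', hθ'root, hθ'ne⟩ : ∃ θ' : K, aeval θ' f = 0 ∧ θ' ≠ θ := by
    have h1 : 1 < Fintype.card (f.rootSet K) := by omega
    obtain ⟨x, y, hxy⟩ := Fintype.one_lt_card_iff.1 h1
    by_cases hx : (x : K) = θ
    · refine ⟨y, (mem_rootSet.1 y.2).2, ?_⟩
      intro hy
      exact hxy (Subtype.ext (hx.trans hy.symm))
    · exact ⟨x, (mem_rootSet.1 x.2).2, hx⟩
  set a' : D := ψ θ' with ha'
  have ha'root : aeval a' f = 0 := by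
    rw [ha', aeval_algHom_apply, hθ'root, map_zero]
  have ha'ne : a' ≠ a := by
    intro h
    apply hθ'ne
    apply hψinj
    rw [hψθ, ← h]
  obtain ⟨b, hb0, hb⟩ := exists_conj_of_aeval_minpoly_eq_zero a a' hint ha'root
  refine ⟨a, b, ?_, ?_⟩
  · intro hab
    apply ha'ne
    have : a' * b = a * b := by rw [hb, hab]
    exact mul_right_cancel₀ hb0 this
  · -- the commutative subalgebra `C = ψ(K)`
    let C : Subalgebra k D := (ψ.restrictScalars k).range
    refine fg_adjoin_pair_of_normalizes C ?_ ?_ ?_
    · rintro _ ⟨x, rfl⟩ _ ⟨y, rfl⟩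
      change ψ x * ψ y = ψ y * ψ x
      rw [← map_mul, ← map_mul, mul_comm]
    · exact ⟨θ, hψθ⟩
    · rintro _ ⟨x, rfl⟩
      obtain ⟨p, rfl⟩ := AdjoinRoot.mk_surjective x
      refine ⟨aeval a' p, ⟨aeval θ' p, ?_⟩, ?_⟩
      · change ψ (aeval θ' p) = aeval a' p
        rw [ha', aeval_algHom_apply]
      · change b * ψ (AdjoinRoot.mk f p) = aeval a' p * b
        rw [hψmk]
        have h1 : a' = conjAlg (k := Z) b hb0 a := by
          change a' = b * a * b⁻¹
          rw [← hb, mul_assoc, mul_inv_cancel₀ hb0, mul_one]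
        rw [h1, aeval_algHom_apply]
        change b * aeval a p = b * aeval a p * b⁻¹ * b
        rw [mul_assoc, inv_mul_cancel₀ hb0, mul_one]

end Vale.Agent.Lib.P199
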