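import Mathlib

/-!
# Locally finite subalgebras (helper file for P199)
-/

namespace Vale.Agent.Lib.P199

open Submodule

variable {F A : Type*} [Field F] [Ring A] [Algebra F A]

/-- A subalgebra `E` is locally finite over `F` if every finite subset of `E` generates a
finite-dimensional subalgebra. -/
def LocFin (E : Subalgebra F A) : Prop :=
  ∀ s : Finset A, (s : Set A) ⊆ E → (Subalgebra.toSubmodule (Algebra.adjoin F (s : Set A))).FG

theorem LocFin.mono {E E' : Subalgebra F A} (h : E ≤ E') (hE' : LocFin E') : LocFin E :=
  fun s hs => hE' s (hs.trans h)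

theorem locFin_bot : LocFin (⊥ : Subalgebra F A) := by
  intro s hs
  have h : Algebra.adjoin F (s : Set A) = ⊥ := by
    apply le_antisymm _ bot_le
    exact Algebra.adjoin_le hs
  rw [h, Algebra.toSubmodule_bot, Submodule.one_eq_span]
  exact Submodule.fg_span_singleton _

/-- A finitely generated submodule of `E * X` lies in `E₀ * X` with `E₀` generated by a finite
subset of `E`. -/
theorem exists_finset_le_mul (E : Subalgebra F A) (X Y : Submodule F A) (hY : Y.FG)
    (hYE : Y ≤ Subalgebra.toSubmodule E * X) :
    ∃ s : Finset A, (s : Set A) ⊆ E ∧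
      Y ≤ Subalgebra.toSubmodule (Algebra.adjoin F (s : Set A)) * X := by
  classical
  obtain ⟨t, rfl⟩ := hY
  induction t using Finset.induction_on with
  | empty => exact ⟨∅, by simp, by simp⟩
  | insert y t _ ih =>
    have h1 : span F (t : Set A) ≤ Subalgebra.toSubmodule E * X :=
      le_trans (span_mono (by simp)) hYE
    obtain ⟨s, hsE, hs⟩ := ih h1
    have hy : y ∈ Subalgebra.toSubmodule E * X := hYE (subset_span (by simp))
    obtain ⟨T, T', hT, hT', hyT⟩ := Submodule.mem_span_mul_finite_of_mem_mul hy
    refine ⟨s ∪ T, ?_, ?_⟩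
    · intro z hz
      simp only [Finset.coe_union, Set.mem_union] at hz
      rcases hz with hz | hz
      · exact hsE hz
      · exact hT hz
    · rw [Finset.coe_insert, span_insert, sup_le_iff]
      constructor
      · rw [span_singleton_le_iff_mem]
        refine (span_le.2 ?_) hyT
        rintro _ ⟨u, hu, v, hv, rfl⟩
        refine Submodule.mul_mem_mul ?_ (hT' hv)
        exact Algebra.subset_adjoin (by simp [Finset.mem_coe.1 hu])
      · refine le_trans hs (mul_le_mul_left ?_ _)
        exact Subalgebra.toSubmodule.monotone (Algebra.adjoin_mono (by simp))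

/-- Core lemma: an algebra which is a finitely generated left module over a locally finite
subalgebra is locally finite. -/
theorem LocFin.of_le_mul {E B : Subalgebra F A} (hE : LocFin E) (X : Submodule F A) (hX : X.FG)
    (hXB : X ≤ Subalgebra.toSubmodule B)
    (hB : Subalgebra.toSubmodule B ≤ Subalgebra.toSubmodule E * X) : LocFin B := by
  classical
  intro T hT
  -- the finitely generated module `Y = X * span T + span {1}` lies in `E * X`
  set ST : Submodule F A := span F (T : Set A) with hST
  have hSTB : ST ≤ Subalgebra.toSubmodule B := span_le.2 hT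
  have hY1 : X * ST ≤ Subalgebra.toSubmodule E * X := by
    refine le_trans ?_ hB
    refine le_trans (mul_le_mul' hXB hSTB) ?_
    rw [(Subalgebra.isIdempotentElem_toSubmodule _).eq]
  have hone : (1 : Submodule F A) ≤ Subalgebra.toSubmodule E * X := by
    refine le_trans ?_ hB
    rw [Submodule.one_le]
    exact B.one_mem
  have hYfg : (X * ST ⊔ 1).FG :=
    (hX.mul (fg_span T.finite_toSet)).sup (by rw [Submodule.one_eq_span]; exact fg_span_singleton _)
  obtain ⟨s, hsE, hs⟩ := exists_finset_le_mul E X _ hYfg (sup_le hY1 hone)
  set E₀ := Algebra.adjoin F (s : Set A) with hE₀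
  have hE₀fg : (Subalgebra.toSubmodule E₀).FG := hE s hsE
  set V : Submodule F A := Subalgebra.toSubmodule E₀ * X with hV
  have hVfg : V.FG := hE₀fg.mul hX
  have hV1 : (1 : A) ∈ V := by
    have : (1 : Submodule F A) ≤ V := le_trans le_sup_right hs
    exact Submodule.one_le.1 this
  have hVT : V * ST ≤ V := by
    rw [hV, mul_assoc]
    refine le_trans (mul_le_mul_right (le_trans le_sup_left hs) _) ?_
    rw [← mul_assoc, (Subalgebra.isIdempotentElem_toSubmodule _).eq]
  -- every element `a` of `adjoin F T` satisfies `V * a ⊆ V`
  have key : ∀ a ∈ Algebra.adjoin F (T : Set A), ∀ v ∈ V, v * a ∈ V := by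
    intro a ha
    induction ha using Algebra.adjoin_induction with
    | mem x hx => exact fun v hv => hVT (Submodule.mul_mem_mul hv (subset_span hx))
    | algebraMap r =>
      intro v hv
      rw [← Algebra.commutes, ← Algebra.smul_def]
      exact V.smul_mem r hv
    | add x y _ _ hx hy =>
      intro v hv
      rw [mul_add]
      exact V.add_mem (hx v hv) (hy v hv)
    | mul x y _ _ hx hy =>
      intro v hv
      rw [← mul_assoc]
      exact hy _ (hx v hv)
  have hle : Subalgebra.toSubmodule (Algebra.adjoin F (T : Set A)) ≤ V := by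
    intro a ha
    have := key a ha 1 hV1
    rwa [one_mul] at this
  exact Submodule.FG.of_le hVfg hle

end Vale.Agent.Lib.P199
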