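import Vale.Agent.Lib.P199.Centralizer

/-!
# Maximal commutative subalgebras, subspace avoidance, and a special case of the double
centraliser theorem
-/

namespace Vale.Agent.Lib.P199

open Module

section maxcomm

variable {k E : Type*} [Field k] [Ring E] [Algebra k E] [FiniteDimensional k E]

/-- Every element of a finite-dimensional algebra lies in a commutative subalgebra which
contains its own centraliser. -/
theorem exists_maximal_comm (κ : E) :
    ∃ K : Subalgebra k E, κ ∈ K ∧ (∀ a ∈ K, ∀ b ∈ K, a * b = b * a) ∧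
      ∀ c, (∀ a ∈ K, a * c = c * a) → c ∈ K := by
  classical
  let P : Subalgebra k E → Prop := fun K => κ ∈ K ∧ ∀ a ∈ K, ∀ b ∈ K, a * b = b * a
  let S : Set ℕ := {n | ∃ K, P K ∧ finrank k K = n}
  have hadj : ∀ s : Set E, (∀ a ∈ s, ∀ b ∈ s, a * b = b * a) →
      ∀ a ∈ Algebra.adjoin k s, ∀ b ∈ Algebra.adjoin k s, a * b = b * a := by
    intro s hs a ha b hb
    have := Algebra.isMulCommutative_adjoin k hs
    exact setLike_mul_comm ha hb
  have hne : S.Nonempty := by
    refine ⟨_, Algebra.adjoin k {κ}, ⟨Algebra.subset_adjoin rfl, hadj _ ?_⟩, rfl⟩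
    intro a ha b hb
    rw [Set.mem_singleton_iff.1 ha, Set.mem_singleton_iff.1 hb]
  have hbdd : BddAbove S := by
    refine ⟨finrank k E, ?_⟩
    rintro _ ⟨K, _, rfl⟩
    exact (Subalgebra.toSubmodule K).finrank_le
  obtain ⟨K, hK, hKn⟩ := Nat.sSup_mem hne hbdd
  refine ⟨K, hK.1, hK.2, ?_⟩
  intro c hc
  set K' := Algebra.adjoin k (insert c (K : Set E)) with hK'
  have hKK' : K ≤ K' := fun a ha => Algebra.subset_adjoin (Set.mem_insert_of_mem _ ha)
  have hP' : P K' := by
    refine ⟨hKK' hK.1, hadj _ ?_⟩
    intro a ha b hb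
    rcases ha with rfl | ha <;> rcases hb with rfl | hb
    · rfl
    · exact (hc b hb).symm
    · exact hc a ha
    · exact hK.2 a ha b hb
  have hle : finrank k K' ≤ finrank k K := by
    rw [hKn]
    exact le_csSup hbdd ⟨K', hP', rfl⟩
  have : K = K' := Subalgebra.eq_of_le_of_finrank_le hKK' hle
  rw [this]
  exact Algebra.subset_adjoin (Set.mem_insert _ _)

end maxcomm

section avoid

variable {k V : Type*} [Field k] [Infinite k] [AddCommGroup V] [Module k V]

/-- Subspace avoidance relative to a subspace `W`. -/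
theorem exists_mem_forall_mem_imp_le (W : Submodule k V) {ι : Type*} (s : Set ι) (hs : s.Finite)
    (U : ι → Submodule k V) : ∃ v ∈ W, ∀ i ∈ s, v ∈ U i → W ≤ U i := by
  classical
  let t : Finset (Submodule k W) :=
    (hs.toFinset.image (fun i => (U i).comap W.subtype)).filter (fun p => p ≠ ⊤)
  have ht : (⊤ : Submodule k W) ∉ t := by simp [t]
  have h1 := Subspace.biUnion_ne_univ_of_top_notMem (s := t) ht
  rw [Ne, Set.eq_univ_iff_forall] at h1
  push Not at h1
  obtain ⟨v, hv⟩ := h1
  refine ⟨v, v.2, ?_⟩
  intro i hi hvi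
  by_contra hW
  apply hv
  simp only [Set.mem_iUnion]
  refine ⟨(U i).comap W.subtype, ?_, hvi⟩
  simp only [t, Finset.mem_filter, Finset.mem_image, Set.Finite.mem_toFinset]
  refine ⟨⟨i, hi, rfl⟩, ?_⟩
  intro htop
  apply hW
  intro w hw
  have : (⟨w, hw⟩ : W) ∈ (U i).comap W.subtype := by rw [htop]; trivial
  exact this

end avoid

section dct

variable {k E : Type*} [Field k] [DivisionRing E] [Algebra k E] [FiniteDimensional k E]

/-- Special case of the double centraliser theorem: a subalgebra containing the centre whose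
centraliser is central is everything. -/
theorem eq_top_of_centralizer_le_center (B : Subalgebra k E)
    (hZ : ∀ z, (∀ d, d * z = z * d) → z ∈ B)
    (hc : ∀ c, (∀ b ∈ B, b * c = c * b) → ∀ d, d * c = c * d) : B = ⊤ := by
  classical
  set Z := Subring.center E with hZdef
  let algkZ : Algebra k Z := ((algebraMap k E).codRestrict Z (fun r =>
    Subring.mem_center_iff.2 (fun g => (Algebra.commutes r g).symm))).toAlgebra
  have tower : IsScalarTower k Z E := IsScalarTower.of_algebraMap_eq (fun _ => rfl)
  have finZ : FiniteDimensional Z E := FiniteDimensional.right k Z E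
  let B' : Subalgebra Z E :=
    { B.toSubsemiring with
      algebraMap_mem' := fun z => hZ z (fun d => Subring.mem_center_iff.1 z.2 d) }
  have hmem : ∀ x, x ∈ B' ↔ x ∈ B := fun x => Iff.rfl
  by_contra hB
  have hB' : Subalgebra.toSubmodule B' ≠ ⊤ := by
    intro h
    apply hB
    rw [eq_top_iff]
    intro x _
    have : x ∈ Subalgebra.toSubmodule B' := by rw [h]; trivial
    exact this
  have hlt : finrank Z B' < finrank Z E := Submodule.finrank_lt hB'
  let b := Module.finBasis Z E
  obtain ⟨z, hz0, hzc, hz⟩ := exists_centralizing_relation B' (fun i => b i)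
    (by simpa using hlt)
  have hzmem : ∀ j, z j ∈ Z := by
    intro j
    rw [Subring.mem_center_iff]
    intro g
    exact hc (z j) (fun s hs => hzc j s hs) g
  have hli := b.linearIndependent
  rw [Fintype.linearIndependent_iff] at hli
  have h1 := hli (fun j => ⟨z j, hzmem j⟩) (by simpa [Subring.smul_def] using hz)
  apply hz0
  funext j
  exact congrArg Subtype.val (h1 j)

end dct

end Vale.Agent.Lib.P199
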