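import Vale.Agent.Lib.P199.TwoGenS

/-!
# The one-element criterion for arbitrary noncentral elements
-/

namespace Vale.Agent.Lib.P199

open Polynomial Module

variable {k D : Type*} [Field k] [DivisionRing D] [Algebra k D]

/-- If `a` is not central but some `q`-power of `a` is central (`q` the exponential
characteristic), there is `c` with `a * c - c * a = 1`. -/
theorem exists_comm_eq_one (q : ℕ) [ExpChar k q] {a e : D} (hne : a * e ≠ e * a) (n : ℕ)
    (hc : ∀ d : D, a ^ q ^ n * d = d * a ^ q ^ n) : ∃ c : D, a * c - c * a = 1 := by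
  classical
  have hqD : ExpChar D q := expChar_of_injective_algebraMap (algebraMap k D).injective q
  have hqE : ExpChar (Module.End k D) q :=
    expChar_of_injective_ringHom (Algebra.lmul k D).toRingHom.injective q
  set δ : Module.End k D := LinearMap.mulLeft k a - LinearMap.mulRight k a with hδ
  have hδapp : ∀ d, δ d = a * d - d * a := fun d => rfl
  have hnil : δ ^ (q ^ n) = 0 := by
    rw [hδ, sub_pow_expChar_pow_of_commute q n (LinearMap.commute_mulLeft_right a a)]
    ext d
    simp only [LinearMap.sub_apply, LinearMap.pow_mulLeft, LinearMap.pow_mulRight,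
      LinearMap.mulLeft_apply, LinearMap.mulRight_apply, LinearMap.zero_apply]
    rw [hc d, sub_self]
  have hex : ∃ N, δ ^ N = 0 := ⟨_, hnil⟩
  set N := Nat.find hex with hN
  have hN0 : δ ^ N = 0 := Nat.find_spec hex
  have hδ0 : δ ≠ 0 := by
    intro h
    apply hne
    have : δ e = 0 := by rw [h]; rfl
    rw [hδapp] at this
    exact sub_eq_zero.1 this
  have hN2 : 2 ≤ N := by
    by_contra hlt
    have : N = 0 ∨ N = 1 := by omega
    rcases this with h | h
    · rw [h, pow_zero] at hN0
      have : (1 : Module.End k D) (1 : D) = 0 := by rw [hN0]; rfl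
      exact one_ne_zero this
    · rw [h, pow_one] at hN0
      exact hδ0 hN0
  have hN1 : δ ^ (N - 1) ≠ 0 := Nat.find_min hex (by omega)
  obtain ⟨d, hd⟩ : ∃ d, (δ ^ (N - 1)) d ≠ 0 := by
    by_contra hcon
    push Not at hcon
    exact hN1 (LinearMap.ext hcon)
  set u := (δ ^ (N - 2)) d with hu
  have hu1 : δ u = (δ ^ (N - 1)) d := by
    rw [hu, ← Module.End.mul_apply, ← pow_succ']
    congr 2
    omega
  have hu2 : δ (δ u) = 0 := by
    rw [hu1, ← Module.End.mul_apply, ← pow_succ']
    have : N - 1 + 1 = N := by omega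
    rw [this, hN0]
    rfl
  set w := δ u with hw
  have hw0 : w ≠ 0 := by rw [hu1]; exact hd
  have hwa : a * w = w * a := by
    have := hu2
    rw [hδapp] at this
    exact sub_eq_zero.1 this
  have hwinv : a * w⁻¹ = w⁻¹ * a := by
    calc a * w⁻¹ = w⁻¹ * (w * a) * w⁻¹ := by
          rw [← mul_assoc, inv_mul_cancel₀ hw0, one_mul]
      _ = w⁻¹ * (a * w) * w⁻¹ := by rw [hwa]
      _ = w⁻¹ * a := by rw [mul_assoc, mul_assoc, mul_inv_cancel₀ hw0, mul_one]
  refine ⟨w⁻¹ * u, ?_⟩
  have h1 : a * u - u * a = w := (hδapp u).symm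
  calc a * (w⁻¹ * u) - w⁻¹ * u * a = w⁻¹ * (a * u - u * a) := by
        rw [← mul_assoc, hwinv, mul_sub, mul_assoc, mul_assoc]
    _ = 1 := by rw [h1, inv_mul_cancel₀ hw0]

/-- One-element criterion when `a * c - c * a = 1` for some `c`. -/
theorem locFin_top_of_one_element_of_comm_eq_one [Algebra.IsAlgebraic k D]
    (hsimple : SimpleSub k D) {a c : D} (hac : a * c - c * a = 1)
    (h1 : ∀ y : D, FiniteDimensional k (Algebra.adjoin k ({a, y} : Set D))) :
    LocFin (⊤ : Subalgebra k D) := by
  classical
  have hint : ∀ a : D, IsIntegral k a := fun a => Algebra.IsIntegral.isIntegral a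
  set E0 := Algebra.adjoin k ({a, c} : Set D) with hE0
  have hE0fin : FiniteDimensional k E0 := h1 c
  have haE0 : a ∈ E0 := Algebra.subset_adjoin (by simp)
  have hcE0 : c ∈ E0 := Algebra.subset_adjoin (by simp)
  refine locFin_top_of_centralizer E0 ?_
  intro T hT
  refine fg_adjoin_of_two_generated_subfield_of_simple hsimple (centSubfield (E0 : Set D))
    ?_ ?_ T ?_
  · intro r
    rw [mem_centSubfield]
    intro g _
    exact (Algebra.commutes r g).symm
  · intro t1 ht1 t2 ht2
    rw [mem_centSubfield] at ht1 ht2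
    have h1a : a * t1 = t1 * a := ht1 a haE0
    have h2a : a * t2 = t2 * a := ht2 a haE0
    have h1c : c * t1 = t1 * c := ht1 c hcE0
    have h2c : c * t2 = t2 * c := ht2 c hcE0
    set s := t1 + a * t2 with hs
    have hsa : a * s = s * a := by
      rw [hs, mul_add, add_mul, h1a, mul_assoc a t2 a, ← h2a]
    have hsc : s * c - c * s = t2 := by
      have : s * c - c * s = (a * c - c * a) * t2 := by
        rw [hs, add_mul, mul_add, h1c, sub_mul, mul_assoc a t2 c, ← h2c]
        simp only [mul_assoc]
        abel
      rw [this, hac, one_mul]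
    by_cases hs0 : s = 0
    · have ht2 : t2 = 0 := by rw [← hsc, hs0]; simp
      have ht1 : t1 = 0 := by
        have := hs0
        rw [hs, ht2, mul_zero, add_zero] at this
        exact this
      rw [ht1, ht2, Set.pair_eq_singleton]
      exact Module.Finite.of_fg (hint 0).fg_adjoin_singleton
    set B := Algebra.adjoin k ({a, s * c} : Set D) with hB
    have hBfin : FiniteDimensional k B := h1 (s * c)
    have haB : a ∈ B := Algebra.subset_adjoin (by simp)
    have hscB : s * c ∈ B := Algebra.subset_adjoin (by simp)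
    have hsB : s ∈ B := by
      have h3 : a * (s * c) - s * c * a = s := by
        rw [← mul_assoc, hsa, mul_assoc, mul_assoc, ← mul_sub, hac, mul_one]
      rw [← h3]
      exact B.sub_mem (B.mul_mem haB hscB) (B.mul_mem hscB haB)
    have hcB : c ∈ B := by
      have := B.mul_mem ((hint s).inv_mem hsB) hscB
      rwa [← mul_assoc, inv_mul_cancel₀ hs0, one_mul] at this
    have ht2B : t2 ∈ B := by
      rw [← hsc]
      exact B.sub_mem (B.mul_mem hsB hcB) (B.mul_mem hcB hsB)
    have ht1B : t1 ∈ B := by
      have := B.sub_mem hsB (B.mul_mem haB ht2B)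
      rwa [hs, add_sub_cancel_right] at this
    have hle : Algebra.adjoin k ({t1, t2} : Set D) ≤ B := by
      apply Algebra.adjoin_le
      intro y hy
      rcases hy with rfl | rfl
      · exact ht1B
      · exact ht2B
    have hBfg : (Subalgebra.toSubmodule B).FG := Module.Finite.iff_fg.1 hBfin
    have hfg : (Subalgebra.toSubmodule (Algebra.adjoin k ({t1, t2} : Set D))).FG :=
      Submodule.FG.of_le hBfg hle
    exact Module.Finite.of_fg hfg
  · intro x hx
    have h1 := hT hx
    rw [SetLike.mem_coe, Subalgebra.mem_centralizer_iff] at h1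
    exact mem_centSubfield.2 h1

/-- One-element criterion for an arbitrary noncentral element. -/
theorem locFin_top_of_one_element_general [Algebra.IsAlgebraic k D] (hsimple : SimpleSub k D)
    {a e : D} (hne : a * e ≠ e * a)
    (h1 : ∀ y : D, FiniteDimensional k (Algebra.adjoin k ({a, y} : Set D))) :
    LocFin (⊤ : Subalgebra k D) := by
  classical
  obtain ⟨q, hq⟩ := ExpChar.exists k
  obtain ⟨n, hn⟩ := exists_pow_separable q (Algebra.IsIntegral.isIntegral (R := k) a)
  by_cases hc : ∀ d : D, a ^ q ^ n * d = d * a ^ q ^ n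
  · obtain ⟨c, hac⟩ := exists_comm_eq_one (k := k) q hne n hc
    exact locFin_top_of_one_element_of_comm_eq_one hsimple hac h1
  · push Not at hc
    obtain ⟨d, hd⟩ := hc
    refine locFin_top_of_one_element_of_simple hsimple hn hd ?_
    intro y
    have hfg : (Subalgebra.toSubmodule (Algebra.adjoin k ({a, y} : Set D))).FG :=
      Module.Finite.iff_fg.1 (h1 y)
    have hle : Algebra.adjoin k ({a ^ q ^ n, y} : Set D) ≤ Algebra.adjoin k ({a, y} : Set D) := by
      apply Algebra.adjoin_le
      intro z hz
      rcases hz with rfl | rfl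
      · exact Subalgebra.pow_mem _ (Algebra.subset_adjoin (by simp)) _
      · exact Algebra.subset_adjoin (by simp)
    have hfg' : (Subalgebra.toSubmodule (Algebra.adjoin k ({a ^ q ^ n, y} : Set D))).FG :=
      Submodule.FG.of_le hfg hle
    exact Module.Finite.of_fg hfg'

end Vale.Agent.Lib.P199
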