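import Vale.Agent.Lib.P199.TwoGenGeneral
import Vale.Agent.Lib.P199.OneElementS

/-!
# The one-element criterion over an arbitrary central subfield
-/

namespace Vale.Agent.Lib.P199

open Polynomial Module

variable {k D : Type*} [Field k] [DivisionRing D] [Algebra k D]

/-- The two-generator theorem relative to a division subring containing `k`. -/
theorem fg_adjoin_of_two_generated_subfield_general [Algebra.IsAlgebraic k D]
    (C : Subfield D) (hk : ∀ r : k, algebraMap k D r ∈ C)
    (h2 : ∀ x ∈ C, ∀ y ∈ C, FiniteDimensional k (Algebra.adjoin k ({x, y} : Set D)))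
    (T : Finset D) (hT : (T : Set D) ⊆ C) :
    (Subalgebra.toSubmodule (Algebra.adjoin k (T : Set D))).FG := by
  classical
  let alg : Algebra k C := RingHom.toAlgebra' ((algebraMap k D).codRestrict C hk)
    (fun r x => Subtype.ext (Algebra.commutes r (x : D)))
  let φ : C →ₐ[k] D := { C.subtype with commutes' := fun r => rfl }
  have hφ : Function.Injective φ := Subtype.val_injective
  have halgC : Algebra.IsAlgebraic k C := Algebra.IsAlgebraic.of_injective φ hφ
  have h2C : ∀ x y : C, FiniteDimensional k (Algebra.adjoin k ({x, y} : Set C)) := by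
    intro x y
    have h := h2 x x.2 y y.2
    have h3 : (Subalgebra.toSubmodule (Algebra.adjoin k ({(x : D), (y : D)} : Set D))).FG :=
      Module.Finite.iff_fg.1 h
    have h4 : (Subalgebra.toSubmodule (Algebra.adjoin k ({x, y} : Set C))).map φ.toLinearMap =
        Subalgebra.toSubmodule (Algebra.adjoin k ({(x : D), (y : D)} : Set D)) := by
      rw [← Subalgebra.map_toSubmodule, AlgHom.map_adjoin, Set.image_pair]
      rfl
    rw [← h4] at h3
    exact Module.Finite.of_fg (Submodule.fg_of_fg_map_injective φ.toLinearMap hφ h3)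
  have h5 := locFin_top_of_two_generated_general h2C
    (T.subtype (· ∈ C)) (fun _ _ => trivial)
  have h6 := h5.map φ.toLinearMap
  rw [← Subalgebra.map_toSubmodule, AlgHom.map_adjoin] at h6
  have h7 : φ '' ((T.subtype (· ∈ C) : Finset C) : Set C) = (T : Set D) := by
    ext d
    constructor
    · rintro ⟨c, hc, rfl⟩
      exact Finset.mem_subtype.1 hc
    · intro hd
      exact ⟨⟨d, hT hd⟩, Finset.mem_subtype.2 hd, rfl⟩
  rwa [h7] at h6

/-- One-element criterion for a separable noncentral element. -/
theorem locFin_top_of_one_element_separable [Algebra.IsAlgebraic k D]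
    {κ e : D} (hκsep : (minpoly k κ).Separable) (hne : κ * e ≠ e * κ)
    (h1 : ∀ y : D, FiniteDimensional k (Algebra.adjoin k ({κ, y} : Set D))) :
    LocFin (⊤ : Subalgebra k D) := by
  classical
  have hint : ∀ a : D, IsIntegral k a := fun a => Algebra.IsIntegral.isIntegral a
  set p := minpoly k κ with hp
  have hp0 : aeval κ p = 0 := minpoly.aeval k κ
  obtain ⟨b, hb⟩ := exists_aeval_mul_derivative_eq_one hκsep hp0
  obtain ⟨a, w, ha, hw, he⟩ := exists_decomposition hκsep hp0 e
  have hwκ : w * κ - κ * w ≠ 0 := by
    intro h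
    apply hne
    rw [he, mul_add, add_mul, ha, sub_eq_zero.1 h]
  set E0 := Algebra.adjoin k ({κ, w} : Set D) with hE0
  have hE0fin : FiniteDimensional k E0 := h1 w
  have hκE0 : κ ∈ E0 := Algebra.subset_adjoin (by simp)
  have hwE0 : w ∈ E0 := Algebra.subset_adjoin (by simp)
  refine locFin_top_of_centralizer E0 ?_
  intro T hT
  refine fg_adjoin_of_two_generated_subfield_general (centSubfield (E0 : Set D))
    ?_ ?_ T ?_
  · intro r
    rw [mem_centSubfield]
    intro g _
    exact (Algebra.commutes r g).symm
  · intro t1 ht1 t2 ht2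
    rw [mem_centSubfield] at ht1 ht2
    have h1κ : κ * t1 = t1 * κ := ht1 κ hκE0
    have h2κ : κ * t2 = t2 * κ := ht2 κ hκE0
    have h1w : w * t1 = t1 * w := ht1 w hwE0
    have h2w : w * t2 = t2 * w := ht2 w hwE0
    set t := t1 + κ * t2 with ht
    have htκ : κ * t = t * κ := by
      rw [ht, mul_add, add_mul, h1κ, mul_assoc κ t2 κ, ← h2κ]
    set B := Algebra.adjoin k ({κ, t + w} : Set D) with hB
    have hBfin : FiniteDimensional k B := h1 (t + w)
    have hκB : κ ∈ B := Algebra.subset_adjoin (by simp)
    have htwB : t + w ∈ B := Algebra.subset_adjoin (by simp)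
    have h3 : gOp p κ (t + w) = t * aeval κ (derivative p) := by
      rw [map_add, hw, add_zero, gOp_of_comm p htκ]
    have h4 : t * aeval κ (derivative p) ∈ B := h3 ▸ gOp_mem p B hκB htwB
    have h5 : aeval κ b ∈ B :=
      (Algebra.adjoin_le (by simpa using hκB) : Algebra.adjoin k {κ} ≤ B)
        (aeval_mem_adjoin_singleton k κ)
    have htB : t ∈ B := by
      have := B.mul_mem h4 h5
      rwa [mul_assoc, hb, mul_one] at this
    have hwB : w ∈ B := by
      have := B.sub_mem htwB htB
      rwa [add_sub_cancel_left] at this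
    have hcB : w * κ - κ * w ∈ B := B.sub_mem (B.mul_mem hwB hκB) (B.mul_mem hκB hwB)
    have hct2 : (w * κ - κ * w) * t2 = w * t - t * w := by
      rw [ht, mul_add, add_mul, h1w, sub_mul, mul_assoc κ t2 w, ← h2w]
      simp only [mul_assoc]
      abel
    have hct2B : (w * κ - κ * w) * t2 ∈ B := by
      rw [hct2]
      exact B.sub_mem (B.mul_mem hwB htB) (B.mul_mem htB hwB)
    have hinvB : (w * κ - κ * w)⁻¹ ∈ B := (hint _).inv_mem hcB
    have ht2B : t2 ∈ B := by
      have := B.mul_mem hinvB hct2B
      rwa [← mul_assoc, inv_mul_cancel₀ hwκ, one_mul] at this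
    have ht1B : t1 ∈ B := by
      have := B.sub_mem htB (B.mul_mem hκB ht2B)
      rwa [ht, add_sub_cancel_right] at this
    have hle : Algebra.adjoin k ({t1, t2} : Set D) ≤ B := by
      apply Algebra.adjoin_le
      intro y hy
      rcases hy with rfl | rfl
      · exact ht1B
      · exact ht2B
    have hBfg : (Subalgebra.toSubmodule B).FG := Module.Finite.iff_fg.1 hBfin
    have hfg : (Subalgebra.toSubmodule (Algebra.adjoin k ({t1, t2} : Set D))).FG :=
      Submodule.FG.of_le hBfg hle
    exact Module.Finite.of_fg hfg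
  · intro x hx
    have h1 := hT hx
    rw [SetLike.mem_coe, Subalgebra.mem_centralizer_iff] at h1
    exact mem_centSubfield.2 h1

/-- One-element criterion when `a * c - c * a = 1` for some `c`. -/
theorem locFin_top_of_one_element_of_comm_eq_one' [Algebra.IsAlgebraic k D]
    {a c : D} (hac : a * c - c * a = 1)
    (h1 : ∀ y : D, FiniteDimensional k (Algebra.adjoin k ({a, y} : Set D))) :
    LocFin (⊤ : Subalgebra k D) := by
  classical
  have hint : ∀ a : D, IsIntegral k a := fun a => Algebra.IsIntegral.isIntegral a
  set E0 := Algebra.adjoin k ({a, c} : Set D) with hE0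
  have hE0fin : FiniteDimensional k E0 := h1 c
  have haE0 : a ∈ E0 := Algebra.subset_adjoin (by simp)
  have hcE0 : c ∈ E0 := Algebra.subset_adjoin (by simp)
  refine locFin_top_of_centralizer E0 ?_
  intro T hT
  refine fg_adjoin_of_two_generated_subfield_general (centSubfield (E0 : Set D))
    ?_ ?_ T ?_
  · intro r
    rw [mem_centSubfield]
    intro g _
    exact (Algebra.commutes r g).symm
  · intro t1 ht1 t2 ht2
    rw [mem_centSubfield] at ht1 ht2
    have h1a : a * t1 = t1 * a := ht1 a haE0
    have h2a : a * t2 = t2 * a := ht2 a haE0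
    have h1c : c * t1 = t1 * c := ht1 c hcE0
    have h2c : c * t2 = t2 * c := ht2 c hcE0
    set s := t1 + a * t2 with hs
    have hsa : a * s = s * a := by
      rw [hs, mul_add, add_mul, h1a, mul_assoc a t2 a, ← h2a]
    have hsc : s * c - c * s = t2 := by
      have : s * c - c * s = (a * c - c * a) * t2 := by
        rw [hs, add_mul, mul_add, h1c, sub_mul, mul_assoc a t2 c, ← h2c]
        simp only [mul_assoc]
        abel
      rw [this, hac, one_mul]
    by_cases hs0 : s = 0
    · have ht2 : t2 = 0 := by rw [← hsc, hs0]; simp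
      have ht1 : t1 = 0 := by
        have := hs0
        rw [hs, ht2, mul_zero, add_zero] at this
        exact this
      rw [ht1, ht2, Set.pair_eq_singleton]
      exact Module.Finite.of_fg (hint 0).fg_adjoin_singleton
    set B := Algebra.adjoin k ({a, s * c} : Set D) with hB
    have hBfin : FiniteDimensional k B := h1 (s * c)
    have haB : a ∈ B := Algebra.subset_adjoin (by simp)
    have hscB : s * c ∈ B := Algebra.subset_adjoin (by simp)
    have hsB : s ∈ B := by
      have h3 : a * (s * c) - s * c * a = s := by
        rw [← mul_assoc, hsa, mul_assoc, mul_assoc, ← mul_sub, hac, mul_one]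
      rw [← h3]
      exact B.sub_mem (B.mul_mem haB hscB) (B.mul_mem hscB haB)
    have hcB : c ∈ B := by
      have := B.mul_mem ((hint s).inv_mem hsB) hscB
      rwa [← mul_assoc, inv_mul_cancel₀ hs0, one_mul] at this
    have ht2B : t2 ∈ B := by
      rw [← hsc]
      exact B.sub_mem (B.mul_mem hsB hcB) (B.mul_mem hcB hsB)
    have ht1B : t1 ∈ B := by
      have := B.sub_mem hsB (B.mul_mem haB ht2B)
      rwa [hs, add_sub_cancel_right] at this
    have hle : Algebra.adjoin k ({t1, t2} : Set D) ≤ B := by
      apply Algebra.adjoin_le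
      intro y hy
      rcases hy with rfl | rfl
      · exact ht1B
      · exact ht2B
    have hBfg : (Subalgebra.toSubmodule B).FG := Module.Finite.iff_fg.1 hBfin
    have hfg : (Subalgebra.toSubmodule (Algebra.adjoin k ({t1, t2} : Set D))).FG :=
      Submodule.FG.of_le hBfg hle
    exact Module.Finite.of_fg hfg
  · intro x hx
    have h1 := hT hx
    rw [SetLike.mem_coe, Subalgebra.mem_centralizer_iff] at h1
    exact mem_centSubfield.2 h1

/-- One-element criterion for an arbitrary noncentral element. -/
theorem locFin_top_of_one_element_all [Algebra.IsAlgebraic k D]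
    {a e : D} (hne : a * e ≠ e * a)
    (h1 : ∀ y : D, FiniteDimensional k (Algebra.adjoin k ({a, y} : Set D))) :
    LocFin (⊤ : Subalgebra k D) := by
  classical
  obtain ⟨q, hq⟩ := ExpChar.exists k
  obtain ⟨n, hn⟩ := exists_pow_separable q (Algebra.IsIntegral.isIntegral (R := k) a)
  by_cases hc : ∀ d : D, a ^ q ^ n * d = d * a ^ q ^ n
  · obtain ⟨c, hac⟩ := exists_comm_eq_one (k := k) q hne n hc
    exact locFin_top_of_one_element_of_comm_eq_one' hac h1
  · push Not at hc
    obtain ⟨d, hd⟩ := hc
    refine locFin_top_of_one_element_separable hn hd ?_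
    intro y
    have hfg : (Subalgebra.toSubmodule (Algebra.adjoin k ({a, y} : Set D))).FG :=
      Module.Finite.iff_fg.1 (h1 y)
    have hle : Algebra.adjoin k ({a ^ q ^ n, y} : Set D) ≤ Algebra.adjoin k ({a, y} : Set D) := by
      apply Algebra.adjoin_le
      intro z hz
      rcases hz with rfl | rfl
      · exact Subalgebra.pow_mem _ (Algebra.subset_adjoin (by simp)) _
      · exact Algebra.subset_adjoin (by simp)
    have hfg' : (Subalgebra.toSubmodule (Algebra.adjoin k ({a ^ q ^ n, y} : Set D))).FG :=
      Submodule.FG.of_le hfg hle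
    exact Module.Finite.of_fg hfg'

end Vale.Agent.Lib.P199
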