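import Vale.Agent.Lib.P199.TwoGenS

/-!
# Maximal separable elements of a finite-dimensional division algebra
-/

namespace Vale.Agent.Lib.P199

open Polynomial Module

section domain

variable {k A : Type*} [Field k] [Ring A] [IsDomain A] [Algebra k A]

/-- A finite-dimensional commutative subalgebra generated by separable elements consists of
separable elements. -/
theorem separable_of_mem_adjoin {s : Set A} (hcomm : ∀ a ∈ s, ∀ b ∈ s, a * b = b * a)
    (hsep : ∀ a ∈ s, (minpoly k a).Separable) (hfd : FiniteDimensional k (Algebra.adjoin k s)) :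
    ∀ y ∈ Algebra.adjoin k s, (minpoly k y).Separable := by
  classical
  set K := Algebra.adjoin k s with hK
  have hc : ∀ a ∈ K, ∀ b ∈ K, a * b = b * a := by
    intro a ha b hb
    have := Algebra.isMulCommutative_adjoin k hcomm
    exact setLike_mul_comm ha hb
  let cr : CommRing K := { K.toRing with
    mul_comm := fun a b => Subtype.ext (hc a a.2 b b.2) }
  let fld : Field K := fieldOfFiniteDimensional k K
  have hmin : ∀ a : K, minpoly k a = minpoly k (a : A) := fun a =>
    (minpoly.algHom_eq K.val Subtype.val_injective a).symm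
  have htop : Algebra.adjoin k (((↑) : K → A) ⁻¹' s) = ⊤ :=
    Algebra.adjoin_adjoin_coe_preimage (R := k) (s := s)
  have hle : Algebra.adjoin k (((↑) : K → A) ⁻¹' s) ≤ (separableClosure k K).toSubalgebra := by
    apply Algebra.adjoin_le
    intro a ha
    change a ∈ separableClosure k K
    rw [mem_separableClosure_iff]
    change (minpoly k a).Separable
    rw [hmin]
    exact hsep _ ha
  intro y hy
  have h1 : (⟨y, hy⟩ : K) ∈ (separableClosure k K).toSubalgebra := by
    apply hle
    rw [htop]
    trivial
  have h2 : (⟨y, hy⟩ : K) ∈ separableClosure k K := h1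
  rw [mem_separableClosure_iff] at h2
  have h3 : (minpoly k (⟨y, hy⟩ : K)).Separable := h2
  rwa [hmin] at h3

/-- Two commuting separable elements generate a simple separable subalgebra. -/
theorem exists_primitive_pair {x θ : A} (hx : (minpoly k x).Separable)
    (hθ : (minpoly k θ).Separable) (hc : θ * x = x * θ)
    (hfd : FiniteDimensional k (Algebra.adjoin k ({x, θ} : Set A))) :
    ∃ x' : A, (minpoly k x').Separable ∧ Algebra.adjoin k {x'} = Algebra.adjoin k {x, θ} := by
  have hcomm : ∀ a ∈ ({x, θ} : Set A), ∀ b ∈ ({x, θ} : Set A), a * b = b * a := by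
    intro a ha b hb
    rcases ha with rfl | rfl <;> rcases hb with rfl | rfl
    · rfl
    · exact hc.symm
    · exact hc
    · rfl
  have hs : ∀ a ∈ ({x, θ} : Set A), (minpoly k a).Separable := by
    intro a ha
    rcases ha with rfl | rfl
    · exact hx
    · exact hθ
  have hall := separable_of_mem_adjoin hcomm hs hfd
  have hc' : ∀ a ∈ Algebra.adjoin k ({x, θ} : Set A), ∀ b ∈ Algebra.adjoin k ({x, θ} : Set A),
      a * b = b * a := by
    intro a ha b hb
    have := Algebra.isMulCommutative_adjoin k hcomm
    exact setLike_mul_comm ha hb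
  obtain ⟨⟨x', hx'⟩, -⟩ := exists_primitive_and_finite (Algebra.adjoin k ({x, θ} : Set A)) hc' hall
  refine ⟨x', hall x' ?_, hx'⟩
  rw [← hx']
  exact Algebra.subset_adjoin rfl

end domain

section typelevel

variable {k E : Type*} [Field k] [DivisionRing E] [Algebra k E] [FiniteDimensional k E]

/-- A separable element lies in `k[x]` for a separable `x` such that `k[x]` contains every
separable element commuting with `x`. -/
theorem exists_maximal_separable (κ : E) (hκ : (minpoly k κ).Separable) :
    ∃ x : E, (minpoly k x).Separable ∧ κ ∈ Algebra.adjoin k {x} ∧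
      ∀ θ : E, (minpoly k θ).Separable → θ * x = x * θ → θ ∈ Algebra.adjoin k {x} := by
  classical
  let P : E → Prop := fun x => (minpoly k x).Separable ∧ κ ∈ Algebra.adjoin k {x}
  let S : Set ℕ := {n | ∃ x, P x ∧ finrank k (Algebra.adjoin k ({x} : Set E)) = n}
  have hne : S.Nonempty := ⟨_, κ, ⟨hκ, Algebra.subset_adjoin rfl⟩, rfl⟩
  have hbdd : BddAbove S := by
    refine ⟨finrank k E, ?_⟩
    rintro _ ⟨x, _, rfl⟩
    exact (Subalgebra.toSubmodule (Algebra.adjoin k ({x} : Set E))).finrank_le
  obtain ⟨x, hx, hxn⟩ := Nat.sSup_mem hne hbdd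
  refine ⟨x, hx.1, hx.2, ?_⟩
  intro θ hθ hc
  obtain ⟨x', hx's, hx'⟩ := exists_primitive_pair hx.1 hθ hc inferInstance
  have hle : Algebra.adjoin k ({x} : Set E) ≤ Algebra.adjoin k {x'} := by
    rw [hx']
    exact Algebra.adjoin_mono (by simp)
  have hP' : P x' := ⟨hx's, hle hx.2⟩
  have hfr : finrank k (Algebra.adjoin k ({x'} : Set E)) ≤
      finrank k (Algebra.adjoin k ({x} : Set E)) := by
    rw [hxn]
    exact le_csSup hbdd ⟨x', hP', rfl⟩
  have : Algebra.adjoin k ({x} : Set E) = Algebra.adjoin k {x'} :=
    Subalgebra.eq_of_le_of_finrank_le hle hfr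
  rw [this, hx']
  exact Algebra.subset_adjoin (by simp)

/-- The centraliser of a maximal separable element is commutative. -/
theorem comm_of_maximal_separable {x : E}
    (hmax : ∀ θ : E, (minpoly k θ).Separable → θ * x = x * θ → θ ∈ Algebra.adjoin k {x})
    {c c' : E} (hc : c * x = x * c) (hc' : c' * x = x * c') : c * c' = c' * c := by
  classical
  by_contra hne
  let C : Subfield E := centSubfield ({x} : Set E)
  have hmem : ∀ y : E, y ∈ C ↔ y * x = x * y := by
    intro y
    rw [mem_centSubfield]
    constructor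
    · intro h
      exact (h x rfl).symm
    · intro h g hg
      rw [Set.mem_singleton_iff.1 hg]
      exact h.symm
  have hk : ∀ r : k, algebraMap k E r ∈ C := fun r => (hmem _).2 (Algebra.commutes r x)
  let alg : Algebra k C := RingHom.toAlgebra' ((algebraMap k E).codRestrict C hk)
    (fun r y => Subtype.ext (Algebra.commutes r (y : E)))
  let φ : C →ₐ[k] E := { C.subtype with commutes' := fun r => rfl }
  have hφ : Function.Injective φ := Subtype.val_injective
  have halgC : Algebra.IsAlgebraic k C := Algebra.IsAlgebraic.of_injective φ hφ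
  obtain ⟨κ', e', hne', hsep'⟩ := exists_noncentral_separable (k := k) (D := C)
    ⟨⟨c, (hmem c).2 hc⟩, ⟨c', (hmem c').2 hc'⟩, fun h => hne (congrArg Subtype.val h)⟩
  have h1 : minpoly k (κ' : E) = minpoly k κ' := minpoly.algHom_eq φ hφ κ'
  have h2 : (κ' : E) ∈ Algebra.adjoin k {x} := hmax _ (by rw [h1]; exact hsep') ((hmem _).1 κ'.2)
  have h3 : Commute (e' : E) x := (hmem _).1 e'.2
  have h4 := Algebra.commute_of_mem_adjoin_singleton_of_commute h2 h3
  exact hne' (Subtype.ext h4.eq.symm)

/-- Every element commuting with a maximal separable element is purely inseparable over it. -/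
theorem exists_pow_mem_of_maximal_separable (q : ℕ) [ExpChar k q] {x : E}
    (hmax : ∀ θ : E, (minpoly k θ).Separable → θ * x = x * θ → θ ∈ Algebra.adjoin k {x})
    {c : E} (hc : c * x = x * c) : ∃ n : ℕ, c ^ q ^ n ∈ Algebra.adjoin k {x} := by
  obtain ⟨n, hn⟩ := exists_pow_separable q (Algebra.IsIntegral.isIntegral (R := k) c)
  exact ⟨n, hmax _ hn ((show Commute c x from hc).pow_left _).eq⟩

end typelevel

end Vale.Agent.Lib.P199
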