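import Vale.Agent.Lib.P199.LocFin

/-!
# Commutative finite-dimensional separable subalgebras of a domain are simple extensions
-/

namespace Vale.Agent.Lib.P199

open Polynomial

variable {k A : Type*} [Field k] [Ring A] [IsDomain A] [Algebra k A]

theorem exists_primitive_and_finite (K : Subalgebra k A) [FiniteDimensional k K]
    (hcomm : ∀ a ∈ K, ∀ b ∈ K, a * b = b * a)
    (hsep : ∀ a ∈ K, (minpoly k a).Separable) :
    (∃ x, Algebra.adjoin k {x} = K) ∧ {M : Subalgebra k A | M ≤ K}.Finite := by
  classical
  let cr : CommRing K := { K.toRing with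
    mul_comm := fun a b => Subtype.ext (hcomm a a.2 b b.2) }
  let fld : Field K := fieldOfFiniteDimensional k K
  have sep : Algebra.IsSeparable k K := ⟨fun a => by
    have h1 : minpoly k a = minpoly k (a : A) :=
      (minpoly.algHom_eq K.val Subtype.val_injective a).symm
    change (minpoly k a).Separable
    rw [h1]
    exact hsep a a.2⟩
  obtain ⟨α, hα⟩ := Field.exists_primitive_element k K
  have hfin : Finite (IntermediateField k K) :=
    Field.finite_intermediateField_of_exists_primitive_element k K ⟨α, hα⟩
  have hfin' : Finite (Subalgebra k K) :=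
    Finite.of_equiv _ (subalgebraEquivIntermediateField (K := k) (L := K)).symm.toEquiv
  constructor
  · refine ⟨(α : A), ?_⟩
    have h1 : Algebra.adjoin k {α} = (⊤ : Subalgebra k K) := by
      rw [← IntermediateField.adjoin_simple_toSubalgebra_of_isAlgebraic
        (Algebra.IsAlgebraic.isAlgebraic α), hα, IntermediateField.top_toSubalgebra]
    have h2 := congrArg (Subalgebra.map K.val) h1
    rw [AlgHom.map_adjoin, Algebra.map_top, Subalgebra.range_val, Set.image_singleton] at h2
    exact h2
  · refine (Set.finite_range (fun N : Subalgebra k K => N.map K.val)).subset ?_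
    intro M hM
    refine ⟨M.comap K.val, ?_⟩
    apply le_antisymm
    · rintro _ ⟨n, hn, rfl⟩
      exact hn
    · intro m hm
      exact ⟨⟨m, hM hm⟩, hm, rfl⟩

end Vale.Agent.Lib.P199
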