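import Vale.Agent.Lib.P199.LocFin

/-!
# Simple commutative subalgebras; separable noncentral elements
-/

namespace Vale.Agent.Lib.P199

open Polynomial

section finite

variable {k A : Type*} [Field k] [Ring A] [IsDomain A] [Algebra k A]

/-- A singly generated finite-dimensional subalgebra of a domain has only finitely many
subalgebras. -/
theorem finite_le_adjoin_singleton (x : A) (hx : IsIntegral k x) :
    {M : Subalgebra k A | M ≤ Algebra.adjoin k {x}}.Finite := by
  classical
  set K := Algebra.adjoin k ({x} : Set A) with hK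
  have hfd : FiniteDimensional k K := Module.Finite.of_fg hx.fg_adjoin_singleton
  have hcomm : ∀ a ∈ K, ∀ b ∈ K, a * b = b * a := fun a ha b hb => setLike_mul_comm ha hb
  let cr : CommRing K := { K.toRing with
    mul_comm := fun a b => Subtype.ext (hcomm a a.2 b b.2) }
  let fld : Field K := fieldOfFiniteDimensional k K
  let α : K := ⟨x, Algebra.subset_adjoin rfl⟩
  have h1 : Algebra.adjoin k {α} = (⊤ : Subalgebra k K) := by
    have h2 := Algebra.adjoin_adjoin_coe_preimage (R := k) (s := ({x} : Set A))
    have h3 : ((↑) : Algebra.adjoin k ({x} : Set A) → A) ⁻¹' {x} = {α} := by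
      ext y
      simp only [Set.mem_preimage, Set.mem_singleton_iff]
      exact ⟨fun h => Subtype.ext h, fun h => congrArg Subtype.val h⟩
    rw [h3] at h2
    exact h2
  have hα : IntermediateField.adjoin k {α} = ⊤ := by
    apply IntermediateField.toSubalgebra_injective
    rw [IntermediateField.adjoin_simple_toSubalgebra_of_isAlgebraic
      (Algebra.IsAlgebraic.isAlgebraic α), h1, IntermediateField.top_toSubalgebra]
  have hfin : Finite (IntermediateField k K) :=
    Field.finite_intermediateField_of_exists_primitive_element k K ⟨α, hα⟩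
  have hfin' : Finite (Subalgebra k K) :=
    Finite.of_equiv _ (subalgebraEquivIntermediateField (K := k) (L := K)).symm.toEquiv
  refine (Set.finite_range (fun N : Subalgebra k K => N.map K.val)).subset ?_
  intro M hM
  refine ⟨M.comap K.val, ?_⟩
  apply le_antisymm
  · rintro _ ⟨n, hn, rfl⟩
    exact hn
  · intro m hm
    exact ⟨⟨m, hM hm⟩, hm, rfl⟩

/-- If every finite field extension of `k` is generated by one element, so is every commutative
finite-dimensional subalgebra of a domain. -/
theorem exists_adjoin_singleton_eq_of_field.{u, v} {k : Type u} {A : Type v} [Field k] [Ring A]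
    [IsDomain A] [Algebra k A]
    (hk : ∀ (L : Type v) [Field L] [Algebra k L] [FiniteDimensional k L],
      ∃ α : L, Algebra.adjoin k {α} = ⊤)
    (K : Subalgebra k A) [FiniteDimensional k K]
    (hcomm : ∀ a ∈ K, ∀ b ∈ K, a * b = b * a) : ∃ x, Algebra.adjoin k {x} = K := by
  classical
  let cr : CommRing K := { K.toRing with
    mul_comm := fun a b => Subtype.ext (hcomm a a.2 b b.2) }
  let fld : Field K := fieldOfFiniteDimensional k K
  obtain ⟨α, h1⟩ := hk K
  refine ⟨(α : A), ?_⟩
  have h2 := congrArg (Subalgebra.map K.val) h1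
  rw [AlgHom.map_adjoin, Algebra.map_top, Subalgebra.range_val, Set.image_singleton] at h2
  exact h2

end finite

section separable

variable {k D : Type*} [Field k] [DivisionRing D] [Algebra k D]

/-- Some `q`-power of an integral element is separable. -/
theorem exists_pow_separable (q : ℕ) [ExpChar k q] {x : D} (hx : IsIntegral k x) :
    ∃ n : ℕ, (minpoly k (x ^ q ^ n)).Separable := by
  obtain ⟨g, hg, m, hm⟩ := (minpoly.irreducible hx).hasSeparableContraction q
  refine ⟨m, hg.of_dvd (minpoly.dvd k _ ?_)⟩
  rw [← expand_aeval, hm, minpoly.aeval]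

/-- A noncommutative division ring algebraic over a central subfield `k` contains a noncentral
element which is separable over `k`. -/
theorem exists_noncentral_separable [Algebra.IsAlgebraic k D] (hD : ∃ x y : D, x * y ≠ y * x) :
    ∃ κ e : D, κ * e ≠ e * κ ∧ (minpoly k κ).Separable := by
  classical
  obtain ⟨q, hq⟩ := ExpChar.exists k
  set Z := Subring.center D with hZ
  let algkZ : Algebra k Z := ((algebraMap k D).codRestrict Z (fun r =>
    Subring.mem_center_iff.2 (fun g => (Algebra.commutes r g).symm))).toAlgebra
  have tower : IsScalarTower k Z D := IsScalarTower.of_algebraMap_eq (fun _ => rfl)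
  have algZ : Algebra.IsAlgebraic Z D := Algebra.IsAlgebraic.tower_top (K := k) Z
  have hqZ : ExpChar Z q := expChar_of_injective_algebraMap (algebraMap k Z).injective q
  have hne : Z ≠ ⊤ := by
    obtain ⟨x, y, hxy⟩ := hD
    intro h
    apply hxy
    have hx : x ∈ Z := by rw [h]; trivial
    exact (Subring.mem_center_iff.1 hx y).symm
  obtain ⟨x, hxZ, hxsep⟩ := JacobsonNoether.exists_separable_and_not_isCentral D hne
  obtain ⟨n, hn⟩ := exists_pow_separable q (Algebra.IsIntegral.isIntegral (R := k) x)
  have hpow : x ^ q ^ n ∉ Z := by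
    intro hmem
    apply hxZ
    have h1 : (minpoly Z x).natSepDegree = 1 :=
      (minpoly.natSepDegree_eq_one_iff_pow_mem q).2 ⟨n, ⟨⟨_, hmem⟩, rfl⟩⟩
    have h2 : (minpoly Z x).natDegree = 1 := by
      rw [← h1]
      exact (Polynomial.Separable.natSepDegree_eq_natDegree hxsep).symm
    rw [minpoly.natDegree_eq_one_iff] at h2
    obtain ⟨z, hz⟩ := h2
    rw [← hz]
    exact z.2
  have : ∃ e, x ^ q ^ n * e ≠ e * x ^ q ^ n := by
    by_contra hcon
    push Not at hcon
    exact hpow (Subring.mem_center_iff.2 (fun g => (hcon g).symm))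
  obtain ⟨e, he⟩ := this
  exact ⟨_, e, he, hn⟩

end separable

end Vale.Agent.Lib.P199
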