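import Vale.Agent.Lib.P199.GOp
import Vale.Agent.Lib.P199.Simple
import Vale.Agent.Lib.P199.MaxComm

/-!
# Two well-placed generators of a finite-dimensional division algebra
-/

namespace Vale.Agent.Lib.P199

open Polynomial Module

section decomposition

variable {k A : Type*} [Field k] [Ring A] [Algebra k A]

/-- `A = C(κ) + ker G` for a separable element `κ`. -/
theorem exists_decomposition {p : k[X]} (hp : p.Separable) {κ : A} (hp0 : aeval κ p = 0) (d : A) :
    ∃ a w, κ * a = a * κ ∧ gOp p κ w = 0 ∧ d = a + w := by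
  obtain ⟨b, hb⟩ := exists_aeval_mul_derivative_eq_one hp hp0
  have hb' : aeval κ b * aeval κ (derivative p) = 1 := by
    rw [← map_mul, mul_comm, map_mul, hb]
  have hcomm : κ * (gOp p κ d * aeval κ b) = gOp p κ d * aeval κ b * κ := by
    rw [← mul_assoc, mul_gOp_comm hp0, mul_assoc, mul_assoc, comm_aeval rfl b]
  refine ⟨gOp p κ d * aeval κ b, d - gOp p κ d * aeval κ b, hcomm, ?_, by abel⟩
  rw [map_sub, gOp_of_comm p hcomm, mul_assoc, hb', mul_one, sub_self]

end decomposition

variable {k E : Type*} [Field k] [Infinite k] [DivisionRing E] [Algebra k E]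
  [FiniteDimensional k E]

/-- A finite-dimensional separable division algebra over an infinite field, with a noncentral
element `κ`, is generated by an element `x` with `κ ∈ k[x]` and an element `v` killed by the
operator attached to `κ`. -/
theorem exists_two_generators (hsep : ∀ a : E, (minpoly k a).Separable) (κ e : E)
    (hne : κ * e ≠ e * κ) :
    ∃ x v : E, κ ∈ Algebra.adjoin k {x} ∧ gOp (minpoly k κ) κ v = 0 ∧
      Algebra.adjoin k {x, v} = ⊤ := by
  classical
  set p := minpoly k κ with hp
  have hp0 : aeval κ p = 0 := minpoly.aeval k κ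
  obtain ⟨K, hκK, hKc, hKmax⟩ := exists_maximal_comm (k := k) κ
  obtain ⟨⟨x, hx⟩, hfin⟩ := exists_primitive_and_finite K hKc (fun a _ => hsep a)
  let W : Submodule k E := LinearMap.ker (gOp p κ)
  -- `W` is nonzero
  obtain ⟨w0, hw0W, hw0⟩ : ∃ w0, gOp p κ w0 = 0 ∧ w0 ≠ 0 := by
    obtain ⟨a, w, ha, hw, he⟩ := exists_decomposition (hsep κ) hp0 e
    refine ⟨w, hw, ?_⟩
    rintro rfl
    apply hne
    rw [he, add_zero, ha]
  obtain ⟨v, hvW, hv⟩ := exists_mem_forall_mem_imp_le W {M : Subalgebra k E | M ≤ K} hfin
    (fun M => Subalgebra.toSubmodule (Subalgebra.centralizer k (M : Set E)))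
  refine ⟨x, v, by rw [hx]; exact hκK, hvW, ?_⟩
  have hxle : K ≤ Algebra.adjoin k {x, v} := by
    rw [← hx]
    exact Algebra.adjoin_mono (by simp)
  apply eq_top_of_centralizer_le_center
  · intro z hz
    exact hxle (hKmax z (fun a _ => hz a))
  · intro c hc
    have hcx : Commute c x := (hc x (Algebra.subset_adjoin (by simp))).symm
    have hcv : Commute v c := hc v (Algebra.subset_adjoin (by simp))
    have hcK : c ∈ K := by
      apply hKmax
      intro a ha
      rw [← hx] at ha
      exact (Algebra.commute_of_mem_adjoin_singleton_of_commute ha hcx).eq.symm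
    have hM : Algebra.adjoin k {c} ≤ K := Algebra.adjoin_le (by simpa using hcK)
    have hvM : v ∈ Subalgebra.toSubmodule
        (Subalgebra.centralizer k ((Algebra.adjoin k {c} : Subalgebra k E) : Set E)) := by
      rw [Subalgebra.mem_toSubmodule, Subalgebra.mem_centralizer_iff]
      intro m hm
      exact (Algebra.commute_of_mem_adjoin_singleton_of_commute hm hcv).eq.symm
    have hWM := hv _ hM hvM
    have hcW : ∀ w, gOp p κ w = 0 → c * w = w * c := by
      intro w hw
      have h1 : w ∈ Subalgebra.toSubmodule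
        (Subalgebra.centralizer k ((Algebra.adjoin k {c} : Subalgebra k E) : Set E)) :=
        hWM (LinearMap.mem_ker.2 hw)
      rw [Subalgebra.mem_toSubmodule, Subalgebra.mem_centralizer_iff] at h1
      exact h1 c (Algebra.subset_adjoin rfl)
    have hcC : ∀ a, κ * a = a * κ → c * a = a * c := by
      intro a ha
      have h1 : gOp p κ (a * w0) = 0 := by rw [gOp_mul_left p ha, hw0W, mul_zero]
      have h2 := hcW _ h1
      have h3 := hcW _ hw0W
      apply mul_right_cancel₀ hw0
      rw [mul_assoc, h2, mul_assoc, ← h3, mul_assoc]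
    intro d
    obtain ⟨a, w, ha, hw, rfl⟩ := exists_decomposition (hsep κ) hp0 d
    rw [add_mul, mul_add, hcC a ha, hcW w hw]

end Vale.Agent.Lib.P199
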