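import Vale.Agent.Lib.P199.Absorb

/-!
# The two-generator theorem over an arbitrary central subfield
-/

namespace Vale.Agent.Lib.P199

open Polynomial Module Submodule

section center

variable {k D : Type*} [Field k] [DivisionRing D] [Algebra k D]

/-- The output of `exists_state_sub` is a well-placed pair. -/
theorem isState_of_sub (B : Subalgebra k D) {κ e x d : D} (hκ : κ ∈ B) (he : e ∈ B)
    (hne : κ * e ≠ e * κ) (hxsep : (minpoly k x).Separable) (hκx : κ ∈ Algebra.adjoin k {x})
    (hS : ∀ S : Subalgebra k D, x ∈ S → κ * d - d * κ ∈ S →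
        (∀ z ∈ B, (∀ y ∈ B, y * z = z * y) → z ∈ S) → B ≤ S) :
    IsState k κ x (κ * d - d * κ) := by
  refine ⟨hxsep, hκx, ⟨d, rfl⟩, ?_⟩
  intro h
  apply hne
  have h1 := hS (Subalgebra.centralizer k ({κ} : Set D))
    (by
      rw [Subalgebra.mem_centralizer_iff]
      intro g hg
      rw [Set.mem_singleton_iff.1 hg]
      exact (comm_of_mem_adjoin (k := k) (s := {x}) (g := x)
        (by intro a ha; rw [Set.mem_singleton_iff.1 ha]) hκx).symm)
    (by
      rw [Subalgebra.mem_centralizer_iff]
      intro g hg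
      rw [Set.mem_singleton_iff.1 hg]
      exact h)
    (by
      intro z _ hz
      rw [Subalgebra.mem_centralizer_iff]
      intro g hg
      rw [Set.mem_singleton_iff.1 hg]
      exact hz κ hκ)
  have h2 := h1 he
  rw [Subalgebra.mem_centralizer_iff] at h2
  exact h2 κ rfl

/-- Extension step: a well-placed pair can be enlarged to capture one more element commuting
with `κ`. -/
theorem exists_state_extend [Infinite k]
    (hcen : ∀ c : D, (∀ d, d * c = c * d) → c ∈ Set.range (algebraMap k D))
    (h2 : ∀ x y : D, FiniteDimensional k (Algebra.adjoin k ({x, y} : Set D)))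
    (q : ℕ) [ExpChar k q] {κ x v t : D} (hκsep : (minpoly k κ).Separable)
    (hst : IsState k κ x v) (ht : κ * t = t * κ) :
    ∃ x' v' : D, IsState k κ x' v' ∧ x ∈ Algebra.adjoin k ({x', v'} : Set D) ∧
      v ∈ Algebra.adjoin k ({x', v'} : Set D) ∧ t ∈ Algebra.adjoin k ({x', v'} : Set D) := by
  classical
  obtain ⟨-, hκx, ⟨d, hd⟩, hκv⟩ := hst
  set p := minpoly k κ with hp
  have hp0 : aeval κ p = 0 := minpoly.aeval k κ
  have hv : gOp p κ v = 0 := by rw [hd]; exact gOp_commutator hp0 d
  obtain ⟨b, hb⟩ := exists_aeval_mul_derivative_eq_one hκsep hp0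
  set B := Algebra.adjoin k ({x, v + t} : Set D) with hB
  have hBfd : FiniteDimensional k B := h2 _ _
  have hxB : x ∈ B := Algebra.subset_adjoin (by simp)
  have hvtB : v + t ∈ B := Algebra.subset_adjoin (by simp)
  have hκB : κ ∈ B := (Algebra.adjoin_le (by simpa using hxB) : Algebra.adjoin k {x} ≤ B) hκx
  have h3 : gOp p κ (v + t) = t * aeval κ (derivative p) := by
    rw [map_add, hv, zero_add, gOp_of_comm p ht]
  have h4 : t * aeval κ (derivative p) ∈ B := h3 ▸ gOp_mem p B hκB hvtB
  have h5 : aeval κ b ∈ B :=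
    (Algebra.adjoin_le (by simpa using hκB) : Algebra.adjoin k {κ} ≤ B)
      (aeval_mem_adjoin_singleton k κ)
  have htB : t ∈ B := by
    have := B.mul_mem h4 h5
    rwa [mul_assoc, hb, mul_one] at this
  have hvB : v ∈ B := by
    have := B.sub_mem hvtB htB
    rwa [add_sub_cancel_right] at this
  obtain ⟨x₁, d₁, hx₁B, hd₁B, hx₁sep, hκx₁, hpow, hS⟩ :=
    exists_state_sub q B hκsep hκB hvB hκv
  have hst₁ := isState_of_sub B hκB hvB hκv hx₁sep hκx₁ hS
  set v₁ := κ * d₁ - d₁ * κ with hv₁
  have hv₁B : v₁ ∈ B := B.sub_mem (B.mul_mem hκB hd₁B) (B.mul_mem hd₁B hκB)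
  let ZB : Submodule k D := Subalgebra.toSubmodule B ⊓
    Subalgebra.toSubmodule (Subalgebra.centralizer k (B : Set D))
  have hBfg : (Subalgebra.toSubmodule B).FG := Module.Finite.iff_fg.1 hBfd
  have hZle : ZB ≤ Subalgebra.toSubmodule B := inf_le_left
  have hZfg : ZB.FG := Submodule.FG.of_le hBfg hZle
  obtain ⟨t0, ht0⟩ := hZfg
  have hmemZ : ∀ z ∈ t0.toList, z ∈ B ∧ ∀ y ∈ B, y * z = z * y := by
    intro z hz
    have h6 : z ∈ ZB := by
      rw [← ht0]
      exact subset_span (Finset.mem_toList.1 hz)
    refine ⟨h6.1, ?_⟩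
    have h7 : z ∈ Subalgebra.centralizer k (B : Set D) := h6.2
    rw [Subalgebra.mem_centralizer_iff] at h7
    exact h7
  obtain ⟨x', v', hst', hx', hv', hL'⟩ := exists_state_absorb hcen h2 q t0.toList x₁ v₁ hst₁
    (fun z hz => ⟨((hmemZ z hz).2 x₁ hx₁B).symm, ((hmemZ z hz).2 v₁ hv₁B).symm⟩)
    (fun z hz z' hz' => (hmemZ z' hz').2 z (hmemZ z hz).1)
    (by
      intro z hz
      obtain ⟨n, hn⟩ := hpow z (hmemZ z hz).1 ((hmemZ z hz).2 x₁ hx₁B).symm
      exact ⟨n, (Algebra.adjoin_mono (by simp) :
        Algebra.adjoin k ({x₁} : Set D) ≤ Algebra.adjoin k {x₁, v₁}) hn⟩)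
  have hle : B ≤ Algebra.adjoin k ({x', v'} : Set D) := by
    apply hS _ hx' hv'
    intro z hzB hz
    have h6 : z ∈ ZB := by
      refine ⟨hzB, ?_⟩
      change z ∈ Subalgebra.centralizer k (B : Set D)
      rw [Subalgebra.mem_centralizer_iff]
      exact hz
    rw [← ht0] at h6
    have h7 : span k (t0 : Set D) ≤
        Subalgebra.toSubmodule (Algebra.adjoin k ({x', v'} : Set D)) := by
      rw [span_le]
      intro y hy
      exact hL' y (Finset.mem_toList.2 hy)
    exact h7 h6
  exact ⟨x', v', hst', hle hxB, hle hvB, hle htB⟩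

/-- The two-generator theorem when `k` is the whole centre. -/
theorem locFin_top_of_two_generated_center
    (hcen : ∀ c : D, (∀ d, d * c = c * d) → c ∈ Set.range (algebraMap k D))
    (h2 : ∀ x y : D, FiniteDimensional k (Algebra.adjoin k ({x, y} : Set D))) :
    LocFin (⊤ : Subalgebra k D) := by
  classical
  have hint : ∀ a : D, IsIntegral k a := by
    intro a
    have := h2 a a
    rw [Set.pair_eq_singleton] at this
    have h3 : IsIntegral k (⟨a, Algebra.subset_adjoin rfl⟩ : Algebra.adjoin k ({a} : Set D)) :=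
      Algebra.IsIntegral.isIntegral _
    exact h3.map (Algebra.adjoin k ({a} : Set D)).val
  have halg : Algebra.IsAlgebraic k D := ⟨fun a => (hint a).isAlgebraic⟩
  by_cases hcomm : ∀ x y : D, x * y = y * x
  · exact locFin_of_comm ⊤ (fun x _ y _ => hcomm x y) (fun x _ => hint x)
  push Not at hcomm
  obtain ⟨κ, e, hne, hκsep⟩ := exists_noncentral_separable (k := k) hcomm
  obtain ⟨q, hq⟩ := ExpChar.exists k
  have hinf : Infinite k := by
    by_contra hfin
    rw [not_infinite_iff_finite] at hfin
    have := h2 κ e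
    have hF : Finite (Algebra.adjoin k ({κ, e} : Set D)) := Module.finite_of_finite k
    have h3 := (Finite.isDomain_to_isField (Algebra.adjoin k ({κ, e} : Set D))).mul_comm
      ⟨κ, Algebra.subset_adjoin (by simp)⟩ ⟨e, Algebra.subset_adjoin (by simp)⟩
    exact hne (congrArg Subtype.val h3)
  obtain ⟨x₀, v₀, hst₀⟩ : ∃ x v, IsState k κ x v := by
    have hfd := h2 κ e
    have hκB : κ ∈ Algebra.adjoin k ({κ, e} : Set D) := Algebra.subset_adjoin (by simp)
    have heB : e ∈ Algebra.adjoin k ({κ, e} : Set D) := Algebra.subset_adjoin (by simp)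
    obtain ⟨x, d, -, -, hxsep, hκx, -, hS⟩ :=
      exists_state_sub q (Algebra.adjoin k ({κ, e} : Set D)) hκsep hκB heB hne
    exact ⟨x, _, isState_of_sub _ hκB heB hne hxsep hκx hS⟩
  have key : ∀ T : Finset D, (∀ t ∈ T, κ * t = t * κ) →
      ∃ x v : D, IsState k κ x v ∧ (T : Set D) ⊆ Algebra.adjoin k ({x, v} : Set D) := by
    intro T
    induction T using Finset.induction_on with
    | empty =>
      intro _
      exact ⟨x₀, v₀, hst₀, by simp⟩
    | insert t T _ ih =>
      intro hT
      obtain ⟨x, v, hst, hTE⟩ := ih (fun s hs => hT s (Finset.mem_insert_of_mem hs))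
      obtain ⟨x', v', hst', hx', hv', ht'⟩ := exists_state_extend hcen h2 q hκsep hst
        (hT t (Finset.mem_insert_self _ _))
      refine ⟨x', v', hst', ?_⟩
      have hle : Algebra.adjoin k ({x, v} : Set D) ≤ Algebra.adjoin k ({x', v'} : Set D) := by
        apply Algebra.adjoin_le
        intro a ha
        rcases ha with rfl | rfl
        · exact hx'
        · exact hv'
      intro s hs
      rw [Finset.coe_insert] at hs
      rcases hs with rfl | hs
      · exact ht'
      · exact hle (hTE hs)
  have hfinκ : FiniteDimensional k (Algebra.adjoin k ({κ} : Set D)) := by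
    have := h2 κ κ
    rwa [Set.pair_eq_singleton] at this
  refine locFin_top_of_centralizer (Algebra.adjoin k ({κ} : Set D)) ?_
  intro T hT
  obtain ⟨x, v, -, hTE⟩ := key T (by
    intro t ht
    have h1 := hT ht
    rw [SetLike.mem_coe, Subalgebra.mem_centralizer_iff] at h1
    exact h1 κ (Algebra.subset_adjoin rfl))
  have hfg : (Subalgebra.toSubmodule (Algebra.adjoin k ({x, v} : Set D))).FG :=
    Module.Finite.iff_fg.1 (h2 x v)
  exact Submodule.FG.of_le hfg (Algebra.adjoin_le hTE)

end center

section tower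

theorem fg_adjoin_tower {k F A : Type*} [Field k] [Field F] [Ring A] [Algebra k F] [Algebra k A]
    [Algebra F A] [IsScalarTower k F A] (s : Set A)
    (h : (Subalgebra.toSubmodule (Algebra.adjoin k s)).FG) :
    (Subalgebra.toSubmodule (Algebra.adjoin F s)).FG := by
  obtain ⟨t, ht⟩ := h
  refine ⟨t, ?_⟩
  rw [Algebra.adjoin_eq_span] at ht ⊢
  rw [← Submodule.span_span_of_tower k F (t : Set A), ht, Submodule.span_span_of_tower]

end tower

variable {k D : Type*} [Field k] [DivisionRing D] [Algebra k D]

/-- **Two-generator theorem**, no hypothesis on the central subfield `k`. -/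
theorem locFin_top_of_two_generated_general
    (h2 : ∀ x y : D, FiniteDimensional k (Algebra.adjoin k ({x, y} : Set D))) :
    LocFin (⊤ : Subalgebra k D) := by
  classical
  have hint : ∀ a : D, IsIntegral k a := by
    intro a
    have := h2 a a
    rw [Set.pair_eq_singleton] at this
    have h3 : IsIntegral k (⟨a, Algebra.subset_adjoin rfl⟩ : Algebra.adjoin k ({a} : Set D)) :=
      Algebra.IsIntegral.isIntegral _
    exact h3.map (Algebra.adjoin k ({a} : Set D)).val
  set F := Subring.center D with hF
  let algkF : Algebra k F := ((algebraMap k D).codRestrict F (fun r =>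
    Subring.mem_center_iff.2 (fun g => (Algebra.commutes r g).symm))).toAlgebra
  have tower : IsScalarTower k F D := IsScalarTower.of_algebraMap_eq (fun _ => rfl)
  have hcenF : ∀ c : D, (∀ d, d * c = c * d) → c ∈ Set.range (algebraMap F D) := by
    intro c hc
    exact ⟨⟨c, Subring.mem_center_iff.2 hc⟩, rfl⟩
  have h2F : ∀ x y : D, FiniteDimensional F (Algebra.adjoin F ({x, y} : Set D)) := by
    intro x y
    exact Module.Finite.of_fg (fg_adjoin_tower (k := k) _ (Module.Finite.iff_fg.1 (h2 x y)))
  have hLF := locFin_top_of_two_generated_center (k := F) hcenF h2F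
  intro T _
  obtain ⟨t, ht⟩ := hLF T (fun _ _ => trivial)
  have hE : LocFin (Subalgebra.center k D) :=
    locFin_of_comm _ (fun x hx y _ => (Subalgebra.mem_center_iff.1 hx y).symm)
      (fun x _ => hint x)
  set B : Subalgebra k D := (Algebra.adjoin F (T : Set D)).restrictScalars k with hB
  have hmemB : ∀ y, y ∈ B ↔ y ∈ span F (t : Set D) := by
    intro y
    rw [ht]
    rfl
  have hXB : span k (t : Set D) ≤ Subalgebra.toSubmodule B := by
    rw [span_le]
    intro y hy
    exact (hmemB y).2 (subset_span hy)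
  have hBle : Subalgebra.toSubmodule B ≤
      Subalgebra.toSubmodule (Subalgebra.center k D) * span k (t : Set D) := by
    have key : ∀ y ∈ span F (t : Set D),
        y ∈ Subalgebra.toSubmodule (Subalgebra.center k D) * span k (t : Set D) := by
      intro y hy'
      induction hy' using Submodule.span_induction with
      | mem x hx =>
        have : (1 : D) * x ∈
            Subalgebra.toSubmodule (Subalgebra.center k D) * span k (t : Set D) :=
          Submodule.mul_mem_mul (Subalgebra.one_mem _) (subset_span hx)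
        rwa [one_mul] at this
      | zero => exact Submodule.zero_mem _
      | add x y _ _ hx hy => exact Submodule.add_mem _ hx hy
      | smul c x _ hx =>
        have hc : (c : D) ∈ Subalgebra.center k D :=
          Subalgebra.mem_center_iff.2 (Subring.mem_center_iff.1 c.2)
        have h1 : (c : D) * x ∈ Subalgebra.toSubmodule (Subalgebra.center k D) *
            (Subalgebra.toSubmodule (Subalgebra.center k D) * span k (t : Set D)) :=
          Submodule.mul_mem_mul hc hx
        rw [← mul_assoc, (Subalgebra.isIdempotentElem_toSubmodule _).eq] at h1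
        exact h1
    intro y hy
    exact key y ((hmemB y).1 hy)
  have hLB := hE.of_le_mul (span k (t : Set D)) (fg_span t.finite_toSet) hXB hBle
  exact hLB T (fun y hy => (Algebra.subset_adjoin hy : y ∈ Algebra.adjoin F (T : Set D)))

end Vale.Agent.Lib.P199
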