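import Vale.Agent.Lib.P199.TwoGen
import Vale.Agent.Lib.P199.SimpleGen
import Vale.Agent.Lib.P199.Jacobson

/-!
# The two-generator and one-element theorems when all finite-dimensional subfields are simple
-/

namespace Vale.Agent.Lib.P199

open Polynomial Module

/-- Every commutative finite-dimensional subalgebra is generated by one element. -/
def SimpleSub (k A : Type*) [Field k] [Ring A] [Algebra k A] : Prop :=
  ∀ K : Subalgebra k A, (Subalgebra.toSubmodule K).FG → (∀ a ∈ K, ∀ b ∈ K, a * b = b * a) →
    ∃ x, Algebra.adjoin k {x} = K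

theorem SimpleSub.of_injective {k A B : Type*} [Field k] [Ring A] [Ring B] [Algebra k A]
    [Algebra k B] (φ : A →ₐ[k] B) (hφ : Function.Injective φ) (hB : SimpleSub k B) :
    SimpleSub k A := by
  intro K hK hcomm
  have h1 : (Subalgebra.toSubmodule (K.map φ)).FG := by
    rw [Subalgebra.map_toSubmodule]
    exact hK.map _
  obtain ⟨x, hx⟩ := hB (K.map φ) h1 (by
    rintro _ ⟨a, ha, rfl⟩ _ ⟨b, hb, rfl⟩
    change φ a * φ b = φ b * φ a
    rw [← map_mul, ← map_mul, hcomm a ha b hb])
  have hxmem : x ∈ K.map φ := by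
    rw [← hx]
    exact Algebra.subset_adjoin rfl
  obtain ⟨x', _, rfl⟩ := hxmem
  refine ⟨x', Subalgebra.map_injective hφ ?_⟩
  rw [AlgHom.map_adjoin, Set.image_singleton]
  exact hx

section typelevel

variable {k E : Type*} [Field k] [Infinite k] [DivisionRing E] [Algebra k E]
  [FiniteDimensional k E]

theorem exists_two_generators_of_simple (hsimple : SimpleSub k E) (κ e : E)
    (hκ : (minpoly k κ).Separable) (hne : κ * e ≠ e * κ) :
    ∃ x v : E, κ ∈ Algebra.adjoin k {x} ∧ gOp (minpoly k κ) κ v = 0 ∧
      Algebra.adjoin k {x, v} = ⊤ := by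
  classical
  set p := minpoly k κ with hp
  have hp0 : aeval κ p = 0 := minpoly.aeval k κ
  obtain ⟨K, hκK, hKc, hKmax⟩ := exists_maximal_comm (k := k) κ
  obtain ⟨x, hx⟩ := hsimple K (Module.Finite.iff_fg.1 inferInstance) hKc
  have hfin : {M : Subalgebra k E | M ≤ K}.Finite := by
    rw [← hx]
    exact finite_le_adjoin_singleton x (Algebra.IsIntegral.isIntegral x)
  let W : Submodule k E := LinearMap.ker (gOp p κ)
  obtain ⟨w0, hw0W, hw0⟩ : ∃ w0, gOp p κ w0 = 0 ∧ w0 ≠ 0 := by
    obtain ⟨a, w, ha, hw, he⟩ := exists_decomposition hκ hp0 e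
    refine ⟨w, hw, ?_⟩
    rintro rfl
    apply hne
    rw [he, add_zero, ha]
  obtain ⟨v, hvW, hv⟩ := exists_mem_forall_mem_imp_le W {M : Subalgebra k E | M ≤ K} hfin
    (fun M => Subalgebra.toSubmodule (Subalgebra.centralizer k (M : Set E)))
  refine ⟨x, v, by rw [hx]; exact hκK, hvW, ?_⟩
  have hxle : K ≤ Algebra.adjoin k {x, v} := by
    rw [← hx]
    exact Algebra.adjoin_mono (by simp)
  apply eq_top_of_centralizer_le_center
  · intro z hz
    exact hxle (hKmax z (fun a _ => hz a))
  · intro c hc
    have hcx : Commute c x := (hc x (Algebra.subset_adjoin (by simp))).symm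
    have hcv : Commute v c := hc v (Algebra.subset_adjoin (by simp))
    have hcK : c ∈ K := by
      apply hKmax
      intro a ha
      rw [← hx] at ha
      exact (Algebra.commute_of_mem_adjoin_singleton_of_commute ha hcx).eq.symm
    have hM : Algebra.adjoin k {c} ≤ K := Algebra.adjoin_le (by simpa using hcK)
    have hvM : v ∈ Subalgebra.toSubmodule
        (Subalgebra.centralizer k ((Algebra.adjoin k {c} : Subalgebra k E) : Set E)) := by
      rw [Subalgebra.mem_toSubmodule, Subalgebra.mem_centralizer_iff]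
      intro m hm
      exact (Algebra.commute_of_mem_adjoin_singleton_of_commute hm hcv).eq.symm
    have hWM := hv _ hM hvM
    have hcW : ∀ w, gOp p κ w = 0 → c * w = w * c := by
      intro w hw
      have h1 : w ∈ Subalgebra.toSubmodule
        (Subalgebra.centralizer k ((Algebra.adjoin k {c} : Subalgebra k E) : Set E)) :=
        hWM (LinearMap.mem_ker.2 hw)
      rw [Subalgebra.mem_toSubmodule, Subalgebra.mem_centralizer_iff] at h1
      exact h1 c (Algebra.subset_adjoin rfl)
    have hcC : ∀ a, κ * a = a * κ → c * a = a * c := by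
      intro a ha
      have h1 : gOp p κ (a * w0) = 0 := by rw [gOp_mul_left p ha, hw0W, mul_zero]
      have h2 := hcW _ h1
      have h3 := hcW _ hw0W
      apply mul_right_cancel₀ hw0
      rw [mul_assoc, h2, mul_assoc, ← h3, mul_assoc]
    intro d
    obtain ⟨a, w, ha, hw, rfl⟩ := exists_decomposition hκ hp0 d
    rw [add_mul, mul_add, hcC a ha, hcW w hw]

end typelevel

variable {k D : Type*} [Field k] [DivisionRing D] [Algebra k D]

theorem exists_two_generators_sub_of_simple [Infinite k] (hsimple : SimpleSub k D)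
    (E : Subalgebra k D) [FiniteDimensional k E] {κ e : D} (hκsep : (minpoly k κ).Separable)
    (hκ : κ ∈ E) (he : e ∈ E) (hne : κ * e ≠ e * κ) :
    ∃ x v : D, κ ∈ Algebra.adjoin k {x} ∧ gOp (minpoly k κ) κ v = 0 ∧
      Algebra.adjoin k {x, v} = E := by
  let dr : DivisionRing E := divisionRingOfFiniteDimensional k E
  have hmin : ∀ a : E, minpoly k a = minpoly k (a : D) := fun a =>
    (minpoly.algHom_eq E.val Subtype.val_injective a).symm
  obtain ⟨x, v, h1, h2, h3⟩ := exists_two_generators_of_simple (k := k) (E := E)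
    (hsimple.of_injective E.val Subtype.val_injective) ⟨κ, hκ⟩ ⟨e, he⟩
    (by rw [hmin]; exact hκsep) (fun h => hne (congrArg Subtype.val h))
  refine ⟨x, v, ?_, ?_, ?_⟩
  · have h4 : E.val ⟨κ, hκ⟩ ∈ (Algebra.adjoin k {x}).map E.val := ⟨_, h1, rfl⟩
    rw [AlgHom.map_adjoin, Set.image_singleton] at h4
    exact h4
  · have h4 := congrArg E.val h2
    rw [map_gOp, map_zero, hmin] at h4
    exact h4
  · have h4 := congrArg (Subalgebra.map E.val) h3
    rw [AlgHom.map_adjoin, Algebra.map_top, Subalgebra.range_val, Set.image_pair] at h4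
    exact h4

theorem exists_finiteDimensional_extension_of_simple [Infinite k] (hsimple : SimpleSub k D)
    {κ e : D} (hκsep : (minpoly k κ).Separable)
    (h2 : ∀ x y : D, κ ∈ Algebra.adjoin k {x} →
      FiniteDimensional k (Algebra.adjoin k ({x, y} : Set D)))
    (E : Subalgebra k D) [FiniteDimensional k E] (hκ : κ ∈ E) (he : e ∈ E)
    (hne : κ * e ≠ e * κ) {t : D} (ht : κ * t = t * κ) :
    ∃ E' : Subalgebra k D, FiniteDimensional k E' ∧ E ≤ E' ∧ t ∈ E' := by
  obtain ⟨x, v, hκx, hv, hE⟩ := exists_two_generators_sub_of_simple hsimple E hκsep hκ he hne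
  set p := minpoly k κ with hp
  have hp0 : aeval κ p = 0 := minpoly.aeval k κ
  obtain ⟨b, hb⟩ := exists_aeval_mul_derivative_eq_one hκsep hp0
  set B := Algebra.adjoin k ({x, v + t} : Set D) with hB
  have hxB : x ∈ B := Algebra.subset_adjoin (by simp)
  have hvtB : v + t ∈ B := Algebra.subset_adjoin (by simp)
  have hκB : κ ∈ B := (Algebra.adjoin_le (by simpa using hxB) : Algebra.adjoin k {x} ≤ B) hκx
  have h3 : gOp p κ (v + t) = t * aeval κ (derivative p) := by
    rw [map_add, hv, zero_add, gOp_of_comm p ht]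
  have h4 : t * aeval κ (derivative p) ∈ B := h3 ▸ gOp_mem p B hκB hvtB
  have h5 : aeval κ b ∈ B :=
    (Algebra.adjoin_le (by simpa using hκB) : Algebra.adjoin k {κ} ≤ B)
      (aeval_mem_adjoin_singleton k κ)
  have htB : t ∈ B := by
    have := B.mul_mem h4 h5
    rwa [mul_assoc, hb, mul_one] at this
  have hvB : v ∈ B := by
    have := B.sub_mem hvtB htB
    rwa [add_sub_cancel_right] at this
  refine ⟨B, h2 _ _ hκx, ?_, htB⟩
  rw [← hE]
  apply Algebra.adjoin_le
  intro y hy
  rcases hy with rfl | rfl
  · exact hxB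
  · exact hvB

/-- Two-generator theorem at a fixed noncentral separable element `κ`: only pairs `(x, y)` with
`κ ∈ k[x]` are needed. -/
theorem locFin_top_of_two_generated_at (hsimple : SimpleSub k D) {κ e : D}
    (hκsep : (minpoly k κ).Separable) (hne : κ * e ≠ e * κ)
    (h2 : ∀ x y : D, κ ∈ Algebra.adjoin k {x} →
      FiniteDimensional k (Algebra.adjoin k ({x, y} : Set D))) :
    LocFin (⊤ : Subalgebra k D) := by
  classical
  have hκκ : κ ∈ Algebra.adjoin k ({κ} : Set D) := Algebra.subset_adjoin rfl
  have hinf : Infinite k := by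
    by_contra hfin
    rw [not_infinite_iff_finite] at hfin
    have := h2 κ e hκκ
    have hF : Finite (Algebra.adjoin k ({κ, e} : Set D)) := Module.finite_of_finite k
    have h3 := (Finite.isDomain_to_isField (Algebra.adjoin k ({κ, e} : Set D))).mul_comm
      ⟨κ, Algebra.subset_adjoin (by simp)⟩ ⟨e, Algebra.subset_adjoin (by simp)⟩
    exact hne (congrArg Subtype.val h3)
  have key : ∀ T : Finset D, (∀ t ∈ T, κ * t = t * κ) →
      ∃ E : Subalgebra k D, FiniteDimensional k E ∧ κ ∈ E ∧ e ∈ E ∧ (T : Set D) ⊆ E := by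
    intro T
    induction T using Finset.induction_on with
    | empty =>
      intro _
      exact ⟨Algebra.adjoin k {κ, e}, h2 κ e hκκ, Algebra.subset_adjoin (by simp),
        Algebra.subset_adjoin (by simp), by simp⟩
    | insert t T _ ih =>
      intro hT
      obtain ⟨E, hE, hκ, he, hTE⟩ := ih (fun s hs => hT s (Finset.mem_insert_of_mem hs))
      obtain ⟨E', hE', hle, ht⟩ := exists_finiteDimensional_extension_of_simple hsimple hκsep h2
        E hκ he hne (hT t (Finset.mem_insert_self _ _))
      refine ⟨E', hE', hle hκ, hle he, ?_⟩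
      intro s hs
      rw [Finset.coe_insert] at hs
      rcases hs with rfl | hs
      · exact ht
      · exact hle (hTE hs)
  have hfinκ : FiniteDimensional k (Algebra.adjoin k ({κ} : Set D)) := by
    have := h2 κ κ hκκ
    rwa [Set.pair_eq_singleton] at this
  refine locFin_top_of_centralizer (Algebra.adjoin k ({κ} : Set D)) ?_
  intro T hT
  obtain ⟨E, hE, -, -, hTE⟩ := key T (by
    intro t ht
    have h1 := hT ht
    rw [SetLike.mem_coe, Subalgebra.mem_centralizer_iff] at h1
    exact h1 κ (Algebra.subset_adjoin rfl))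
  have hfg : (Subalgebra.toSubmodule E).FG := Module.Finite.iff_fg.1 hE
  exact Submodule.FG.of_le hfg (Algebra.adjoin_le hTE)

/-- Two-generator theorem when all finite-dimensional subfields are simple. -/
theorem locFin_top_of_two_generated_of_simple [Algebra.IsAlgebraic k D]
    (hsimple : SimpleSub k D)
    (h2 : ∀ x y : D, FiniteDimensional k (Algebra.adjoin k ({x, y} : Set D))) :
    LocFin (⊤ : Subalgebra k D) := by
  by_cases hcomm : ∀ x y : D, x * y = y * x
  · exact locFin_of_comm ⊤ (fun x _ y _ => hcomm x y)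
      (fun x _ => Algebra.IsIntegral.isIntegral x)
  push Not at hcomm
  obtain ⟨κ, e, hne, hκ⟩ := exists_noncentral_separable (k := k) hcomm
  exact locFin_top_of_two_generated_at hsimple hκ hne (fun x y _ => h2 x y)

/-- The two-generator theorem relative to a division subring containing `k`. -/
theorem fg_adjoin_of_two_generated_subfield_of_simple [Algebra.IsAlgebraic k D]
    (hsimple : SimpleSub k D)
    (C : Subfield D) (hk : ∀ r : k, algebraMap k D r ∈ C)
    (h2 : ∀ x ∈ C, ∀ y ∈ C, FiniteDimensional k (Algebra.adjoin k ({x, y} : Set D)))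
    (T : Finset D) (hT : (T : Set D) ⊆ C) :
    (Subalgebra.toSubmodule (Algebra.adjoin k (T : Set D))).FG := by
  classical
  let alg : Algebra k C := RingHom.toAlgebra' ((algebraMap k D).codRestrict C hk)
    (fun r x => Subtype.ext (Algebra.commutes r (x : D)))
  let φ : C →ₐ[k] D := { C.subtype with commutes' := fun r => rfl }
  have hφ : Function.Injective φ := Subtype.val_injective
  have halgC : Algebra.IsAlgebraic k C := Algebra.IsAlgebraic.of_injective φ hφ
  have h2C : ∀ x y : C, FiniteDimensional k (Algebra.adjoin k ({x, y} : Set C)) := by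
    intro x y
    have h := h2 x x.2 y y.2
    have h3 : (Subalgebra.toSubmodule (Algebra.adjoin k ({(x : D), (y : D)} : Set D))).FG :=
      Module.Finite.iff_fg.1 h
    have h4 : (Subalgebra.toSubmodule (Algebra.adjoin k ({x, y} : Set C))).map φ.toLinearMap =
        Subalgebra.toSubmodule (Algebra.adjoin k ({(x : D), (y : D)} : Set D)) := by
      rw [← Subalgebra.map_toSubmodule, AlgHom.map_adjoin, Set.image_pair]
      rfl
    rw [← h4] at h3
    exact Module.Finite.of_fg (Submodule.fg_of_fg_map_injective φ.toLinearMap hφ h3)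
  have h5 := locFin_top_of_two_generated_of_simple (hsimple.of_injective φ hφ) h2C
    (T.subtype (· ∈ C)) (fun _ _ => trivial)
  have h6 := h5.map φ.toLinearMap
  rw [← Subalgebra.map_toSubmodule, AlgHom.map_adjoin] at h6
  have h7 : φ '' ((T.subtype (· ∈ C) : Finset C) : Set C) = (T : Set D) := by
    ext d
    constructor
    · rintro ⟨c, hc, rfl⟩
      exact Finset.mem_subtype.1 hc
    · intro hd
      exact ⟨⟨d, hT hd⟩, Finset.mem_subtype.2 hd, rfl⟩
  rwa [h7] at h6

/-- One-element criterion for a separable noncentral element. -/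
theorem locFin_top_of_one_element_of_simple [Algebra.IsAlgebraic k D] (hsimple : SimpleSub k D)
    {κ e : D} (hκsep : (minpoly k κ).Separable) (hne : κ * e ≠ e * κ)
    (h1 : ∀ y : D, FiniteDimensional k (Algebra.adjoin k ({κ, y} : Set D))) :
    LocFin (⊤ : Subalgebra k D) := by
  classical
  have hint : ∀ a : D, IsIntegral k a := fun a => Algebra.IsIntegral.isIntegral a
  set p := minpoly k κ with hp
  have hp0 : aeval κ p = 0 := minpoly.aeval k κ
  obtain ⟨b, hb⟩ := exists_aeval_mul_derivative_eq_one hκsep hp0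
  obtain ⟨a, w, ha, hw, he⟩ := exists_decomposition hκsep hp0 e
  have hwκ : w * κ - κ * w ≠ 0 := by
    intro h
    apply hne
    rw [he, mul_add, add_mul, ha, sub_eq_zero.1 h]
  set E0 := Algebra.adjoin k ({κ, w} : Set D) with hE0
  have hE0fin : FiniteDimensional k E0 := h1 w
  have hκE0 : κ ∈ E0 := Algebra.subset_adjoin (by simp)
  have hwE0 : w ∈ E0 := Algebra.subset_adjoin (by simp)
  refine locFin_top_of_centralizer E0 ?_
  intro T hT
  refine fg_adjoin_of_two_generated_subfield_of_simple hsimple (centSubfield (E0 : Set D))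
    ?_ ?_ T ?_
  · intro r
    rw [mem_centSubfield]
    intro g _
    exact (Algebra.commutes r g).symm
  · intro t1 ht1 t2 ht2
    rw [mem_centSubfield] at ht1 ht2
    have h1κ : κ * t1 = t1 * κ := ht1 κ hκE0
    have h2κ : κ * t2 = t2 * κ := ht2 κ hκE0
    have h1w : w * t1 = t1 * w := ht1 w hwE0
    have h2w : w * t2 = t2 * w := ht2 w hwE0
    set t := t1 + κ * t2 with ht
    have htκ : κ * t = t * κ := by
      rw [ht, mul_add, add_mul, h1κ, mul_assoc κ t2 κ, ← h2κ]
    set B := Algebra.adjoin k ({κ, t + w} : Set D) with hB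
    have hBfin : FiniteDimensional k B := h1 (t + w)
    have hκB : κ ∈ B := Algebra.subset_adjoin (by simp)
    have htwB : t + w ∈ B := Algebra.subset_adjoin (by simp)
    have h3 : gOp p κ (t + w) = t * aeval κ (derivative p) := by
      rw [map_add, hw, add_zero, gOp_of_comm p htκ]
    have h4 : t * aeval κ (derivative p) ∈ B := h3 ▸ gOp_mem p B hκB htwB
    have h5 : aeval κ b ∈ B :=
      (Algebra.adjoin_le (by simpa using hκB) : Algebra.adjoin k {κ} ≤ B)
        (aeval_mem_adjoin_singleton k κ)
    have htB : t ∈ B := by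
      have := B.mul_mem h4 h5
      rwa [mul_assoc, hb, mul_one] at this
    have hwB : w ∈ B := by
      have := B.sub_mem htwB htB
      rwa [add_sub_cancel_left] at this
    have hcB : w * κ - κ * w ∈ B := B.sub_mem (B.mul_mem hwB hκB) (B.mul_mem hκB hwB)
    have hct2 : (w * κ - κ * w) * t2 = w * t - t * w := by
      rw [ht, mul_add, add_mul, h1w, sub_mul, mul_assoc κ t2 w, ← h2w]
      simp only [mul_assoc]
      abel
    have hct2B : (w * κ - κ * w) * t2 ∈ B := by
      rw [hct2]
      exact B.sub_mem (B.mul_mem hwB htB) (B.mul_mem htB hwB)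
    have hinvB : (w * κ - κ * w)⁻¹ ∈ B := (hint _).inv_mem hcB
    have ht2B : t2 ∈ B := by
      have := B.mul_mem hinvB hct2B
      rwa [← mul_assoc, inv_mul_cancel₀ hwκ, one_mul] at this
    have ht1B : t1 ∈ B := by
      have := B.sub_mem htB (B.mul_mem hκB ht2B)
      rwa [ht, add_sub_cancel_right] at this
    have hle : Algebra.adjoin k ({t1, t2} : Set D) ≤ B := by
      apply Algebra.adjoin_le
      intro y hy
      rcases hy with rfl | rfl
      · exact ht1B
      · exact ht2B
    have hBfg : (Subalgebra.toSubmodule B).FG := Module.Finite.iff_fg.1 hBfin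
    have hfg : (Subalgebra.toSubmodule (Algebra.adjoin k ({t1, t2} : Set D))).FG :=
      Submodule.FG.of_le hBfg hle
    exact Module.Finite.of_fg hfg
  · intro x hx
    have h1 := hT hx
    rw [SetLike.mem_coe, Subalgebra.mem_centralizer_iff] at h1
    exact mem_centSubfield.2 h1

end Vale.Agent.Lib.P199
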