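import Vale.Agent.Lib.P199.TwoGen
import Vale.Agent.Lib.P199.Jacobson

/-!
# Division rings all of whose two-generated subalgebras are finite-dimensional
-/

namespace Vale.Agent.Lib.P199

open Polynomial Module

variable {k D : Type*} [Field k] [DivisionRing D] [Algebra k D]

/-- Version of `exists_two_generators` for finite-dimensional subalgebras of a division ring. -/
theorem exists_two_generators_sub [Infinite k] (hsep : ∀ a : D, (minpoly k a).Separable)
    (E : Subalgebra k D) [FiniteDimensional k E] {κ e : D} (hκ : κ ∈ E) (he : e ∈ E)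
    (hne : κ * e ≠ e * κ) :
    ∃ x v : D, κ ∈ Algebra.adjoin k {x} ∧ gOp (minpoly k κ) κ v = 0 ∧
      Algebra.adjoin k {x, v} = E := by
  let dr : DivisionRing E := divisionRingOfFiniteDimensional k E
  have hmin : ∀ a : E, minpoly k a = minpoly k (a : D) := fun a =>
    (minpoly.algHom_eq E.val Subtype.val_injective a).symm
  obtain ⟨x, v, h1, h2, h3⟩ := exists_two_generators (k := k) (E := E)
    (fun a => by rw [hmin]; exact hsep a) ⟨κ, hκ⟩ ⟨e, he⟩
    (fun h => hne (congrArg Subtype.val h))
  refine ⟨x, v, ?_, ?_, ?_⟩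
  · have h4 : E.val ⟨κ, hκ⟩ ∈ (Algebra.adjoin k {x}).map E.val := ⟨_, h1, rfl⟩
    rw [AlgHom.map_adjoin, Set.image_singleton] at h4
    exact h4
  · have h4 := congrArg E.val h2
    rw [map_gOp, map_zero, hmin] at h4
    exact h4
  · have h4 := congrArg (Subalgebra.map E.val) h3
    rw [AlgHom.map_adjoin, Algebra.map_top, Subalgebra.range_val, Set.image_pair] at h4
    exact h4

/-- Key step: a finite-dimensional subalgebra in which `κ` is not central can be enlarged by any
element commuting with `κ`. -/
theorem exists_finiteDimensional_extension [Infinite k]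
    (hsep : ∀ a : D, (minpoly k a).Separable)
    (h2 : ∀ x y : D, FiniteDimensional k (Algebra.adjoin k ({x, y} : Set D)))
    (E : Subalgebra k D) [FiniteDimensional k E] {κ e : D} (hκ : κ ∈ E) (he : e ∈ E)
    (hne : κ * e ≠ e * κ) {t : D} (ht : κ * t = t * κ) :
    ∃ E' : Subalgebra k D, FiniteDimensional k E' ∧ E ≤ E' ∧ t ∈ E' := by
  obtain ⟨x, v, hκx, hv, hE⟩ := exists_two_generators_sub hsep E hκ he hne
  set p := minpoly k κ with hp
  have hp0 : aeval κ p = 0 := minpoly.aeval k κ
  obtain ⟨b, hb⟩ := exists_aeval_mul_derivative_eq_one (hsep κ) hp0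
  set B := Algebra.adjoin k ({x, v + t} : Set D) with hB
  have hxB : x ∈ B := Algebra.subset_adjoin (by simp)
  have hvtB : v + t ∈ B := Algebra.subset_adjoin (by simp)
  have hκB : κ ∈ B := (Algebra.adjoin_le (by simpa using hxB) : Algebra.adjoin k {x} ≤ B) hκx
  have h3 : gOp p κ (v + t) = t * aeval κ (derivative p) := by
    rw [map_add, hv, zero_add, gOp_of_comm p ht]
  have h4 : t * aeval κ (derivative p) ∈ B := h3 ▸ gOp_mem p B hκB hvtB
  have h5 : aeval κ b ∈ B :=
    (Algebra.adjoin_le (by simpa using hκB) : Algebra.adjoin k {κ} ≤ B)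
      (aeval_mem_adjoin_singleton k κ)
  have htB : t ∈ B := by
    have := B.mul_mem h4 h5
    rwa [mul_assoc, hb, mul_one] at this
  have hvB : v ∈ B := by
    have := B.sub_mem hvtB htB
    rwa [add_sub_cancel_right] at this
  refine ⟨B, h2 _ _, ?_, htB⟩
  rw [← hE]
  apply Algebra.adjoin_le
  intro y hy
  rcases hy with rfl | rfl
  · exact hxB
  · exact hvB

/-- Main theorem: if every element of `D` is separable over the central subfield `k` and every
two-generated subalgebra is finite-dimensional, then `D` is locally finite over `k`. -/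
theorem locFin_top_of_two_generated (hsep : ∀ a : D, (minpoly k a).Separable)
    (h2 : ∀ x y : D, FiniteDimensional k (Algebra.adjoin k ({x, y} : Set D))) :
    LocFin (⊤ : Subalgebra k D) := by
  classical
  have hint : ∀ a : D, IsIntegral k a := by
    intro a
    by_contra h
    have h1 := hsep a
    rw [minpoly.eq_zero h] at h1
    exact Polynomial.not_separable_zero h1
  by_cases hcomm : ∀ x y : D, x * y = y * x
  · exact locFin_of_comm ⊤ (fun x _ y _ => hcomm x y) (fun x _ => hint x)
  push Not at hcomm
  obtain ⟨κ, e, hne⟩ := hcomm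
  have hinf : Infinite k := by
    by_contra hfin
    rw [not_infinite_iff_finite] at hfin
    have := h2 κ e
    have hF : Finite (Algebra.adjoin k ({κ, e} : Set D)) := Module.finite_of_finite k
    have h3 := (Finite.isDomain_to_isField (Algebra.adjoin k ({κ, e} : Set D))).mul_comm
      ⟨κ, Algebra.subset_adjoin (by simp)⟩ ⟨e, Algebra.subset_adjoin (by simp)⟩
    exact hne (congrArg Subtype.val h3)
  -- the centraliser of `κ` is locally finite
  have key : ∀ T : Finset D, (∀ t ∈ T, κ * t = t * κ) →
      ∃ E : Subalgebra k D, FiniteDimensional k E ∧ κ ∈ E ∧ e ∈ E ∧ (T : Set D) ⊆ E := by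
    intro T
    induction T using Finset.induction_on with
    | empty =>
      intro _
      exact ⟨Algebra.adjoin k {κ, e}, h2 κ e, Algebra.subset_adjoin (by simp),
        Algebra.subset_adjoin (by simp), by simp⟩
    | insert t T _ ih =>
      intro hT
      obtain ⟨E, hE, hκ, he, hTE⟩ := ih (fun s hs => hT s (Finset.mem_insert_of_mem hs))
      obtain ⟨E', hE', hle, ht⟩ := exists_finiteDimensional_extension hsep h2 E hκ he hne
        (hT t (Finset.mem_insert_self _ _))
      refine ⟨E', hE', hle hκ, hle he, ?_⟩
      intro s hs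
      rw [Finset.coe_insert] at hs
      rcases hs with rfl | hs
      · exact ht
      · exact hle (hTE hs)
  have hfinκ : FiniteDimensional k (Algebra.adjoin k ({κ} : Set D)) := by
    have := h2 κ κ
    rwa [Set.pair_eq_singleton] at this
  refine locFin_top_of_centralizer (Algebra.adjoin k ({κ} : Set D)) ?_
  intro T hT
  obtain ⟨E, hE, -, -, hTE⟩ := key T (by
    intro t ht
    have h1 := hT ht
    rw [SetLike.mem_coe, Subalgebra.mem_centralizer_iff] at h1
    exact h1 κ (Algebra.subset_adjoin rfl))
  have hfg : (Subalgebra.toSubmodule E).FG := Module.Finite.iff_fg.1 hE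
  exact Submodule.FG.of_le hfg (Algebra.adjoin_le hTE)

end Vale.Agent.Lib.P199
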