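import Vale.Agent.Lib.P199.Jacobson

/-!
# Division subrings that are finite over their own centre
-/

namespace Vale.Agent.Lib.P199

open Submodule

variable {k D : Type*} [Field k] [DivisionRing D] [Algebra k D] [Algebra.IsAlgebraic k D]

/-- If a division subring `L` of `D` is a finite module over its own centre, then the
`k`-subalgebra generated by `L` is locally finite. -/
theorem locFin_adjoin_of_finite_center (L : Subfield D) [Module.Finite (Subring.center L) L] :
    LocFin (Algebra.adjoin k (L : Set D)) := by
  classical
  obtain ⟨X0, hX0⟩ := (Module.Finite.fg_top : (⊤ : Submodule (Subring.center L) L).FG)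
  set Zs : Set D := (fun z : L => (z : D)) '' (Subring.center L : Set L) with hZs
  set E : Subalgebra k D := Algebra.adjoin k Zs with hE
  have hZcomm : ∀ a ∈ Zs, ∀ b ∈ Zs, a * b = b * a := by
    rintro _ ⟨a, ha, rfl⟩ _ ⟨b, _, rfl⟩
    have := Subring.mem_center_iff.1 ha b
    exact (congrArg Subtype.val this).symm
  have hEcomm : ∀ a ∈ E, ∀ b ∈ E, a * b = b * a := by
    intro a ha b hb
    have := Algebra.isMulCommutative_adjoin k hZcomm
    exact setLike_mul_comm ha hb
  have hELF : LocFin E := locFin_of_comm E hEcomm (fun x _ => Algebra.IsIntegral.isIntegral x)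
  set X : Submodule k D := span k ((fun z : L => (z : D)) '' (X0 : Set L)) with hX
  have hXfg : X.FG := fg_span ((X0.finite_toSet).image _)
  refine hELF.of_le_mul X hXfg ?_ ?_
  · rw [hX, span_le]
    rintro _ ⟨x, _, rfl⟩
    exact Algebra.subset_adjoin x.2
  · rw [Algebra.adjoin_eq_span, span_le]
    intro d hd
    have hdL : d ∈ L := by
      have h1 : Submonoid.closure (L : Set D) ≤ L.toSubmonoid := Submonoid.closure_le.2 (fun x hx => hx)
      exact h1 hd
    have key : ∀ l : L, (l : D) ∈ Subalgebra.toSubmodule E * X := by
      intro l
      have hl : l ∈ span (Subring.center L) (X0 : Set L) := by rw [hX0]; trivial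
      induction hl using Submodule.span_induction with
      | mem x hx =>
        have : (1 : D) * (x : D) ∈ Subalgebra.toSubmodule E * X :=
          Submodule.mul_mem_mul (Subalgebra.one_mem _) (subset_span ⟨x, hx, rfl⟩)
        rwa [one_mul] at this
      | zero => exact Submodule.zero_mem _
      | add x y _ _ hx hy => exact Submodule.add_mem _ hx hy
      | smul c x _ hx =>
        have hc : ((c : L) : D) ∈ E := Algebra.subset_adjoin ⟨c, c.2, rfl⟩
        have h1 : ((c : L) : D) * (x : D) ∈ Subalgebra.toSubmodule E *
            (Subalgebra.toSubmodule E * X) := Submodule.mul_mem_mul hc hx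
        rw [← mul_assoc, (Subalgebra.isIdempotentElem_toSubmodule _).eq] at h1
        exact h1
    exact key ⟨d, hdL⟩

end Vale.Agent.Lib.P199
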